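import Mathlib

/-!
Dyadic potentials of finite measures on a metric space, the forgetting inequality and a
Markov inequality.
-/

namespace Vale.Agent.P309

open MeasureTheory Metric Set Finset
open scoped ENNReal

variable {Ω : Type*} [PseudoMetricSpace Ω] [MeasurableSpace Ω] [BorelSpace Ω]
  [SecondCountableTopology Ω]

theorem measSet_close (r : ℝ) : MeasurableSet {p : Ω × Ω | dist p.2 p.1 ≤ r} :=
  measurableSet_le (by fun_prop) measurable_const

theorem meas_ball (μ : Measure Ω) [SFinite μ] (r : ℝ) :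
    Measurable (fun s => μ (closedBall s r)) :=
  measurable_measure_prodMk_left (measSet_close r)

theorem avg_lemma (α β : Measure Ω) [SFinite α] [SFinite β] (r : ℝ) (F G : Ω → ℝ≥0∞)
    (hG : Measurable G) (hFG : ∀ s s', dist s' s ≤ r → F s ≤ G s') :
    ∫⁻ s, β (closedBall s r) * F s * (α (closedBall s (2 * r)))⁻¹ ∂α ≤ ∫⁻ s', G s' ∂β := by
  set H : Ω → Ω → ℝ≥0∞ := fun s s' =>
    {p : Ω × Ω | dist p.2 p.1 ≤ r}.indicator
      (fun p => G p.2 * (α (closedBall p.2 r))⁻¹) (s, s') with hH
  have hHm : Measurable (Function.uncurry H) := by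
    refine Measurable.indicator ?_ (measSet_close r)
    exact (hG.comp measurable_snd).mul ((meas_ball α r).comp measurable_snd).inv
  calc ∫⁻ s, β (closedBall s r) * F s * (α (closedBall s (2 * r)))⁻¹ ∂α
      ≤ ∫⁻ s, ∫⁻ s', H s s' ∂β ∂α := by
        apply lintegral_mono
        intro s
        simp only
        rw [mul_assoc, mul_comm, ← lintegral_indicator_const measurableSet_closedBall]
        apply lintegral_mono
        intro s'
        by_cases h : s' ∈ closedBall s r
        · have h' : dist s' s ≤ r := h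
          simp only [hH]
          rw [Set.indicator_of_mem h, Set.indicator_of_mem (by exact h')]
          apply mul_le_mul' (hFG s s' h')
          apply ENNReal.inv_le_inv.2
          apply measure_mono
          intro x hx
          have hx' : dist x s' ≤ r := hx
          have := dist_triangle x s' s
          show dist x s ≤ 2 * r
          linarith
        · rw [Set.indicator_of_notMem h]; exact zero_le
    _ = ∫⁻ s', ∫⁻ s, H s s' ∂α ∂β := lintegral_lintegral_swap hHm.aemeasurable
    _ ≤ ∫⁻ s', G s' ∂β := by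
        apply lintegral_mono
        intro s'
        have e : (fun s => H s s') = (closedBall s' r).indicator
            (fun _ => G s' * (α (closedBall s' r))⁻¹) := by
          ext s
          simp only [hH, Set.indicator, Set.mem_ofPred_eq, mem_closedBall, dist_comm s s']
        simp only [e]
        rw [lintegral_indicator_const measurableSet_closedBall, mul_assoc]
        calc _ ≤ G s' * 1 := by
              gcongr; exact ENNReal.inv_mul_le_one _
          _ = _ := mul_one _

theorem le_mul_inv_of_lt {Λ a b x : ℝ≥0∞} (ha : a ≠ ∞) (hb : b ≠ ∞) (h : Λ * a * b < x) :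
    Λ ≤ x * b⁻¹ * a⁻¹ := by
  have hx : x ≠ 0 := (lt_of_le_of_lt zero_le h).ne'
  rw [mul_assoc, ← ENNReal.mul_inv (Or.inr ha) (Or.inl hb), ← div_eq_mul_inv,
    ENNReal.le_div_iff_mul_le (Or.inr hx) (Or.inl (ENNReal.mul_ne_top hb ha))]
  calc Λ * (b * a) = Λ * a * b := by ring
    _ ≤ x := h.le

theorem forget0 (ν μ : Measure Ω) [IsFiniteMeasure ν] [IsFiniteMeasure μ] {r R : ℝ}
    (hrR : r ≤ R) (Λ : ℝ≥0∞) :
    Λ * ν {s | Λ * ν (closedBall s (2 * r)) * μ (closedBall s (5 * R))
      < μ (closedBall s r) * ν (closedBall s R)} ≤ ν univ := by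
  have hm : MeasurableSet {s | Λ * ν (closedBall s (2 * r)) * μ (closedBall s (5 * R))
      < μ (closedBall s r) * ν (closedBall s R)} :=
    measurableSet_lt (((meas_ball ν _).const_mul Λ).mul (meas_ball μ _))
      ((meas_ball μ _).mul (meas_ball ν _))
  rw [← lintegral_indicator_const hm]
  calc _ ≤ ∫⁻ s, μ (closedBall s r) * (ν (closedBall s R) * (μ (closedBall s (5 * R)))⁻¹)
            * (ν (closedBall s (2 * r)))⁻¹ ∂ν := by
        apply lintegral_mono
        intro s
        apply Set.indicator_le' _ (fun _ _ => zero_le) s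
        intro s hs
        have := le_mul_inv_of_lt (measure_ne_top _ _) (measure_ne_top _ _) hs
        simpa only [mul_assoc] using this
    _ ≤ ∫⁻ s', ν (closedBall s' (2 * R)) * (μ (closedBall s' (2 * (2 * R))))⁻¹ ∂μ := by
        apply avg_lemma ν μ r _ _ ((meas_ball ν _).mul (meas_ball μ _).inv)
        intro s s' h
        apply mul_le_mul'
        · apply measure_mono
          intro x hx
          have hx' : dist x s ≤ R := hx
          have := dist_triangle x s s'
          rw [dist_comm s s'] at this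
          show dist x s' ≤ 2 * R
          linarith
        · apply ENNReal.inv_le_inv.2
          apply measure_mono
          intro x hx
          have hx' : dist x s' ≤ 2 * (2 * R) := hx
          have := dist_triangle x s' s
          show dist x s ≤ 5 * R
          linarith
    _ = ∫⁻ s', ν (closedBall s' (2 * R)) * 1 * (μ (closedBall s' (2 * (2 * R))))⁻¹ ∂μ := by
        simp only [mul_one]
    _ ≤ ∫⁻ _s, 1 ∂ν := avg_lemma μ ν (2 * R) (fun _ => 1) (fun _ => 1) measurable_const
        (fun _ _ _ => le_rfl)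
    _ = ν univ := by simp

/-- Dyadic radii. -/
noncomputable def rad (u : ℕ) : ℝ := 2 * (1 / 2) ^ u

theorem rad_pos (u : ℕ) : 0 < rad u := by unfold rad; positivity

theorem rad_anti {u w : ℕ} (h : u ≤ w) : rad w ≤ rad u := by
  unfold rad
  have := pow_le_pow_of_le_one (show (0 : ℝ) ≤ 1 / 2 by norm_num) (by norm_num) h
  linarith

theorem rad_add (u c : ℕ) : 2 ^ c * rad (u + c) = rad u := by
  unfold rad
  rw [pow_add]
  have : (2 : ℝ) ^ c * (1 / 2) ^ c = 1 := by rw [← mul_pow]; norm_num
  linear_combination (2 * (1 / 2) ^ u) * this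

/-- The dyadic potential of exponent `β` with `W` scales. -/
noncomputable def Pot (W β : ℕ) (μ : Measure Ω) (s : Ω) : ℝ≥0∞ :=
  ∑ u ∈ range W, 2 ^ (β * u) * μ (closedBall s (rad u))

theorem meas_pot (W β : ℕ) (μ : Measure Ω) [SFinite μ] : Measurable (Pot W β μ) :=
  Finset.measurable_sum _ (fun _ _ => (meas_ball μ _).const_mul _)

omit [BorelSpace Ω] [SecondCountableTopology Ω] in
theorem pot_ne_top (W β : ℕ) (μ : Measure Ω) [IsFiniteMeasure μ] (s : Ω) : Pot W β μ s ≠ ∞ :=
  ENNReal.sum_ne_top.2 (fun _ _ => ENNReal.mul_ne_top (by simp) (measure_ne_top _ _))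

omit [BorelSpace Ω] [SecondCountableTopology Ω] in
theorem term_le_pot {W β u : ℕ} (hu : u < W) (μ : Measure Ω) (s : Ω) :
    2 ^ (β * u) * μ (closedBall s (rad u)) ≤ Pot W β μ s :=
  Finset.single_le_sum (f := fun u => 2 ^ (β * u) * μ (closedBall s (rad u)))
    (fun _ _ => zero_le) (Finset.mem_range.2 hu)

omit [BorelSpace Ω] [SecondCountableTopology Ω] in
theorem univ_le_pot (hΩ : ∀ s s' : Ω, dist s s' ≤ 2) {W : ℕ} (hW : 0 < W) (β : ℕ)
    (μ : Measure Ω) (s : Ω) : μ univ ≤ Pot W β μ s := by
  refine le_trans ?_ (term_le_pot hW μ s)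
  simp only [mul_zero, pow_zero, one_mul]
  apply measure_mono
  intro x _
  simpa [rad] using hΩ x s

omit [BorelSpace Ω] [SecondCountableTopology Ω] in
theorem pot_ge (hΩ : ∀ s s' : Ω, dist s s' ≤ 2) {W β u : ℕ} (hu : u < W) (c : ℕ) {R : ℝ}
    (hR : R ≤ 2 ^ c * rad u) (μ : Measure Ω) (s : Ω) :
    2 ^ (β * u) * μ (closedBall s R) ≤ 2 ^ (β * c) * Pot W β μ s := by
  rcases le_or_gt c u with h | h
  · obtain ⟨v, rfl⟩ := Nat.exists_eq_add_of_le' h
    rw [rad_add] at hR
    calc 2 ^ (β * (v + c)) * μ (closedBall s R)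
        = 2 ^ (β * c) * (2 ^ (β * v) * μ (closedBall s R)) := by rw [mul_add, pow_add]; ring
      _ ≤ 2 ^ (β * c) * (2 ^ (β * v) * μ (closedBall s (rad v))) := by
          gcongr
      _ ≤ _ := by gcongr; exact term_le_pot (by omega) μ s
  · apply mul_le_mul'
    · exact pow_le_pow_right₀ (by norm_num) (Nat.mul_le_mul_left _ h.le)
    · exact (measure_mono (subset_univ _)).trans (univ_le_pot hΩ (by omega) β μ s)

theorem forget (hΩ : ∀ s s' : Ω, dist s s' ≤ 2) (ν μ : Measure Ω) [IsFiniteMeasure ν]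
    [IsFiniteMeasure μ] {W β₁ β₂ : ℕ} (hβ : β₁ ≤ β₂) {Λ : ℝ≥0∞} (hΛ : 1 ≤ Λ) :
    Λ * ν {s | ((W : ℝ≥0∞) ^ 2 * 2 ^ (β₂ + 3 * β₁) * Λ) * (Pot W β₂ ν s * Pot W β₁ μ s)
      < Pot W β₂ μ s * Pot W β₁ ν s} ≤ (W : ℝ≥0∞) ^ 2 * ν univ := by
  classical
  set B : ℕ × ℕ → Set Ω := fun p => {s | p.1 < p.2 ∧
    Λ * ν (closedBall s (2 * rad p.2)) * μ (closedBall s (5 * rad p.1))
      < μ (closedBall s (rad p.2)) * ν (closedBall s (rad p.1))} with hB
  have hsub : {s | ((W : ℝ≥0∞) ^ 2 * 2 ^ (β₂ + 3 * β₁) * Λ) * (Pot W β₂ ν s * Pot W β₁ μ s)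
      < Pot W β₂ μ s * Pot W β₁ ν s} ⊆ ⋃ p ∈ range W ×ˢ range W, B p := by
    intro s hs
    by_contra hno
    simp only [Set.mem_iUnion, not_exists] at hno
    rw [Set.mem_ofPred_eq] at hs
    apply not_le.2 hs
    have hterm : ∀ w ∈ range W, ∀ u ∈ range W,
        (2 ^ (β₂ * w) * μ (closedBall s (rad w))) * (2 ^ (β₁ * u) * ν (closedBall s (rad u)))
          ≤ 2 ^ (β₂ + 3 * β₁) * Λ * (Pot W β₂ ν s * Pot W β₁ μ s) := by
      intro w hw u hu
      have hw' := Finset.mem_range.1 hw
      have hu' := Finset.mem_range.1 hu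
      rcases le_or_gt w u with h | h
      · have h1 := term_le_pot (β := β₂) hu' ν s
        have h2 := term_le_pot (β := β₁) hw' μ s
        have h3 : β₂ * w + β₁ * u ≤ β₂ * u + β₁ * w := by
          obtain ⟨a, rfl⟩ := Nat.exists_eq_add_of_le h
          obtain ⟨b, rfl⟩ := Nat.exists_eq_add_of_le hβ
          nlinarith [Nat.zero_le (a * b)]
        calc _ = 2 ^ (β₂ * w + β₁ * u) * (μ (closedBall s (rad w)) * ν (closedBall s (rad u))) := by
              rw [pow_add]; ring
          _ ≤ 2 ^ (β₂ * u + β₁ * w) * (μ (closedBall s (rad w)) * ν (closedBall s (rad u))) := by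
              gcongr; norm_num
          _ = 1 * 1 * ((2 ^ (β₂ * u) * ν (closedBall s (rad u)))
                * (2 ^ (β₁ * w) * μ (closedBall s (rad w)))) := by
              rw [pow_add]; ring
          _ ≤ _ := by
              gcongr
              exact one_le_pow₀ (by norm_num)
      · have h0 : μ (closedBall s (rad w)) * ν (closedBall s (rad u))
            ≤ Λ * ν (closedBall s (2 * rad w)) * μ (closedBall s (5 * rad u)) := by
          by_contra hlt
          exact hno (u, w) (Finset.mem_product.2 ⟨hu, hw⟩) ⟨h, not_le.1 hlt⟩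
        have h1 := pot_ge hΩ (β := β₂) hw' 1 (R := 2 * rad w) (by simp) ν s
        have h2 := pot_ge hΩ (β := β₁) hu' 3 (R := 5 * rad u)
          (by have := rad_pos u; norm_num; linarith) μ s
        calc _ = 2 ^ (β₂ * w) * 2 ^ (β₁ * u)
                * (μ (closedBall s (rad w)) * ν (closedBall s (rad u))) := by ring
          _ ≤ 2 ^ (β₂ * w) * 2 ^ (β₁ * u)
                * (Λ * ν (closedBall s (2 * rad w)) * μ (closedBall s (5 * rad u))) := by gcongr
          _ = Λ * (2 ^ (β₂ * w) * ν (closedBall s (2 * rad w)))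
                * (2 ^ (β₁ * u) * μ (closedBall s (5 * rad u))) := by ring
          _ ≤ Λ * (2 ^ (β₂ * 1) * Pot W β₂ ν s) * (2 ^ (β₁ * 3) * Pot W β₁ μ s) := by gcongr
          _ = _ := by rw [pow_add]; ring
    calc Pot W β₂ μ s * Pot W β₁ ν s
        = ∑ w ∈ range W, ∑ u ∈ range W, (2 ^ (β₂ * w) * μ (closedBall s (rad w)))
            * (2 ^ (β₁ * u) * ν (closedBall s (rad u))) := by
          unfold Pot; rw [Finset.sum_mul_sum]
      _ ≤ ∑ _w ∈ range W, ∑ _u ∈ range W,
            2 ^ (β₂ + 3 * β₁) * Λ * (Pot W β₂ ν s * Pot W β₁ μ s) :=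
          Finset.sum_le_sum (fun w hw => Finset.sum_le_sum (fun u hu => hterm w hw u hu))
      _ = _ := by
          simp only [Finset.sum_const, Finset.card_range, nsmul_eq_mul]; ring
  calc _ ≤ Λ * ∑ p ∈ range W ×ˢ range W, ν (B p) := by
        gcongr
        exact (measure_mono hsub).trans (measure_biUnion_finset_le _ _)
    _ = ∑ p ∈ range W ×ˢ range W, Λ * ν (B p) := Finset.mul_sum _ _ _
    _ ≤ ∑ _p ∈ range W ×ˢ range W, ν univ := by
        apply Finset.sum_le_sum
        intro p _
        by_cases h : p.1 < p.2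
        · refine le_trans ?_ (forget0 ν μ (rad_anti h.le) Λ)
          gcongr
          intro s hs
          exact hs.2
        · have : B p = ∅ := by
            ext s; simp [hB, h]
          rw [this]; simp
    _ = _ := by
        simp only [Finset.sum_const, Finset.card_product, Finset.card_range, nsmul_eq_mul]
        push_cast; ring

omit [PseudoMetricSpace Ω] [BorelSpace Ω] [SecondCountableTopology Ω] in
theorem sum_withDensity_le {J : Type*} [Fintype J] (μ : Measure Ω) (f : J → Ω → ℝ≥0∞)
    (hf : ∀ j, Measurable (f j)) (hf1 : ∀ s, ∑ j, f j s ≤ 1) {A : Set Ω} (hA : MeasurableSet A) :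
    ∑ j, μ.withDensity (f j) A ≤ μ A := by
  simp_rw [withDensity_apply _ hA]
  rw [← lintegral_finsetSum _ (fun j _ => hf j)]
  calc _ ≤ ∫⁻ _s in A, 1 ∂μ := lintegral_mono hf1
    _ = μ A := by simp

theorem markov1 {J : Type*} [Fintype J] (μ : Measure Ω) [IsFiniteMeasure μ]
    (f : J → Ω → ℝ≥0∞) (hf : ∀ j, Measurable (f j)) (hf1 : ∀ s, ∑ j, f j s ≤ 1)
    (W β : ℕ) (Λ : ℝ≥0∞) :
    Λ * ∑ j, μ.withDensity (f j)
      {s | Λ * f j s * Pot W β μ s < Pot W β (μ.withDensity (f j)) s} ≤ μ univ := by
  have hm : ∀ j, MeasurableSet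
      {s | Λ * f j s * Pot W β μ s < Pot W β (μ.withDensity (f j)) s} := fun j =>
    measurableSet_lt (((hf j).const_mul Λ).mul (meas_pot W β μ)) (meas_pot W β _)
  rw [Finset.mul_sum]
  calc _ ≤ ∑ j, ∫⁻ s, Pot W β (μ.withDensity (f j)) s * (Pot W β μ s)⁻¹ ∂μ := by
        apply Finset.sum_le_sum
        intro j _
        rw [withDensity_apply _ (hm j), ← lintegral_const_mul _ (hf j),
          ← lintegral_indicator (hm j)]
        apply lintegral_mono
        intro s
        apply Set.indicator_le' _ (fun _ _ => zero_le) s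
        intro s hs
        have h : (Λ * f j s) * 1 * Pot W β μ s < Pot W β (μ.withDensity (f j)) s := by
          rw [mul_one]; exact hs
        simpa using le_mul_inv_of_lt (by simp) (pot_ne_top W β μ s) h
    _ = ∫⁻ s, ∑ j, Pot W β (μ.withDensity (f j)) s * (Pot W β μ s)⁻¹ ∂μ := by
        exact (lintegral_finsetSum _ (fun j _ => (meas_pot W β _).mul (meas_pot W β μ).inv)).symm
    _ ≤ ∫⁻ _s, 1 ∂μ := by
        apply lintegral_mono
        intro s
        simp only
        rw [← Finset.sum_mul]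
        refine le_trans ?_ (ENNReal.mul_inv_le_one (Pot W β μ s))
        gcongr
        unfold Pot
        rw [Finset.sum_comm]
        apply Finset.sum_le_sum
        intro u _
        rw [← Finset.mul_sum]
        gcongr
        exact sum_withDensity_le μ f hf hf1 measurableSet_closedBall
    _ = μ univ := by simp

end Vale.Agent.P309
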