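import Vale.Agent.P309.Step

/-!
The potential argument over blocks of samples.
-/

namespace Vale.Agent.P309

open MeasureTheory ProbabilityTheory Metric Set Finset Filter
open scoped ENNReal RealInnerProductSpace Topology

theorem two_pow_mul_inv_le_one {a b : ℕ} (h : a ≤ b) :
    (2 : ℝ≥0∞) ^ a * ((2 : ℝ≥0∞) ^ b)⁻¹ ≤ 1 :=
  (mul_le_mul_left (pow_le_pow_right₀ (by norm_num) h) _).trans (ENNReal.mul_inv_le_one _)

theorem num_delta {n a N : ℕ} (hn : 2 ≤ n) (hN : N ≤ 2 ^ (a * n * n)) :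
    (2 : ℝ≥0∞) ^ n * (((2 ^ n : ℕ) : ℝ≥0∞) * (2 ^ (37 * n) * ((2 ^ n : ℕ) : ℝ≥0∞)) *
      (2 ^ n / 2 ^ (42 * n) + (2 ^ (85 * n))⁻¹ * (2 ^ (42 * n) * 4 ^ n)
        + N * ((((2 ^ (85 * n))⁻¹) ^ n)⁻¹ * ((2 ^ ((170 + a) * n))⁻¹
          * (2 + 2 * (2 ^ (37 * n) * ((2 ^ n : ℕ) : ℝ≥0∞)) * 2 ^ (4 * n))) ^ n))) ≤ 1 := by
  push_cast
  have h4 : (4 : ℝ≥0∞) ^ n = 2 ^ (2 * n) := by rw [pow_mul]; norm_num
  have t1 : (2 : ℝ≥0∞) ^ (41 * n) * (2 ^ n / 2 ^ (42 * n)) ≤ 1 := by
    rw [div_eq_mul_inv, ← mul_assoc, ← pow_add]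
    exact two_pow_mul_inv_le_one (by omega)
  have t2 : (2 : ℝ≥0∞) ^ (41 * n) * ((2 ^ (85 * n))⁻¹ * (2 ^ (42 * n) * 4 ^ n)) ≤ 1 := by
    calc _ = (2 : ℝ≥0∞) ^ (41 * n + 42 * n + 2 * n) * (2 ^ (85 * n))⁻¹ := by
          rw [h4, pow_add, pow_add]; ring
      _ ≤ 1 := two_pow_mul_inv_le_one (by omega)
  have t3 : (2 : ℝ≥0∞) ^ (41 * n) * (N * ((((2 ^ (85 * n))⁻¹) ^ n)⁻¹ * ((2 ^ ((170 + a) * n))⁻¹
          * (2 + 2 * (2 ^ (37 * n) * 2 ^ n) * 2 ^ (4 * n))) ^ n)) ≤ 1 := by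
    have e1 : (2 : ℝ≥0∞) + 2 * (2 ^ (37 * n) * 2 ^ n) * 2 ^ (4 * n) ≤ 2 ^ (44 * n) := by
      calc (2 : ℝ≥0∞) + 2 * (2 ^ (37 * n) * 2 ^ n) * 2 ^ (4 * n)
          = 2 * 1 + 2 * 2 ^ (42 * n) := by
            rw [mul_assoc, ← pow_add, ← pow_add, mul_one]; congr 3; ring
        _ ≤ 2 * 2 ^ (42 * n) + 2 * 2 ^ (42 * n) := by
            gcongr; exact one_le_pow₀ (by norm_num)
        _ = 2 ^ (42 * n + 2) := by ring
        _ ≤ _ := pow_le_pow_right₀ (by norm_num) (by omega)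
    have e2 : (N : ℝ≥0∞) ≤ 2 ^ (a * n * n) := by exact_mod_cast hN
    calc _ ≤ (2 : ℝ≥0∞) ^ (41 * n) * (2 ^ (a * n * n) * ((((2 ^ (85 * n))⁻¹) ^ n)⁻¹
              * ((2 ^ ((170 + a) * n))⁻¹ * 2 ^ (44 * n)) ^ n)) := by gcongr
      _ = (2 : ℝ≥0∞) ^ (41 * n + a * n * n + 85 * n * n + 44 * n * n)
              * (2 ^ ((170 + a) * n * n))⁻¹ := by
            rw [mul_pow, ← ENNReal.inv_pow, ← ENNReal.inv_pow, inv_inv, ← pow_mul, ← pow_mul,
              ← pow_mul, pow_add, pow_add, pow_add]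
            ring
      _ ≤ 1 := two_pow_mul_inv_le_one (by nlinarith)
  have h3 : (3 : ℝ≥0∞) ≤ 2 ^ n := by
    calc (3 : ℝ≥0∞) ≤ 2 ^ 2 := by norm_num
      _ ≤ _ := pow_le_pow_right₀ (by norm_num) hn
  apply (ENNReal.mul_le_mul_iff_right (a := (2 : ℝ≥0∞) ^ n) (by simp) (by simp)).1
  calc _ = (2 : ℝ≥0∞) ^ (41 * n) * (2 ^ n / 2 ^ (42 * n))
        + (2 : ℝ≥0∞) ^ (41 * n) * ((2 ^ (85 * n))⁻¹ * (2 ^ (42 * n) * 4 ^ n))
        + (2 : ℝ≥0∞) ^ (41 * n) * (N * ((((2 ^ (85 * n))⁻¹) ^ n)⁻¹ * ((2 ^ ((170 + a) * n))⁻¹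
          * (2 + 2 * (2 ^ (37 * n) * 2 ^ n) * 2 ^ (4 * n))) ^ n)) := by
          rw [← mul_add, ← mul_add, show 41 * n = n + n + n + 37 * n + n by ring, pow_add, pow_add,
            pow_add, pow_add]
          ring
    _ ≤ 1 + 1 + 1 := by gcongr
    _ = 3 := by norm_num
    _ ≤ _ := by rw [mul_one]; exact h3

variable {E : Type*} [NormedAddCommGroup E] [InnerProductSpace ℝ E] [FiniteDimensional ℝ E]
  [MeasurableSpace E] [BorelSpace E]
  {Ω : Type*} [PseudoMetricSpace Ω] [MeasurableSpace Ω] [BorelSpace Ω]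
  [SecondCountableTopology Ω]

/-- The set where the potential ratio of `μ` exceeds `lam`. -/
def high (n : ℕ) (μ : Measure Ω) (lam : ℝ≥0∞) : Set Ω :=
  {s | lam * Pot (2 ^ n) (4 * n) μ s < Pot (2 ^ n) (6 * n) μ s}

theorem meas_high (n : ℕ) (μ : Measure Ω) [SFinite μ] (lam : ℝ≥0∞) :
    MeasurableSet (high n μ lam) :=
  measurableSet_lt ((meas_pot _ _ _).const_mul _) (meas_pot _ _ _)

theorem step_one {J : Type*} [Fintype J] (hΩ : ∀ s s' : Ω, dist s s' ≤ 2)
    (e : Ω → E) (he : Isometry e) (μ : Measure Ω) [IsFiniteMeasure μ] {n a : ℕ} (hn : 2 ≤ n)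
    (hJ : Fintype.card J ≤ 2 ^ (a * n * n))
    (hcap : ∀ s u, 2 ^ (7 * n * u) * μ (closedBall s (4 * rad u)) ≤ 2 ^ (37 * n))
    (A : J → (Fin n → E) × (Fin n → ℝ) → ℝ≥0∞) (hA : ∀ j, Measurable (A j))
    (hA1 : ∀ p, ∑ j, A j p = 1) (μ' : J → Measure Ω) [∀ j, IsFiniteMeasure (μ' j)]
    (lam : ℝ≥0∞) :
    ∑ j, μ.withDensity (lik e (A j)) (high n (μ' j) (2 ^ ((369 + 2 * a) * n) * lam))
      ≤ μ (high n μ lam) + 3 * (2 ^ n)⁻¹ * μ univ + (2 ^ (3 * n * 2 ^ n))⁻¹ := by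
  have hem : Measurable e := he.continuous.measurable
  have hfm : ∀ j, Measurable (lik e (A j)) := fun j => meas_lik hem (hA j)
  have hf1 : ∀ s, ∑ j, lik e (A j) s ≤ 1 := fun s => (sum_lik e hA hA1 s).le
  set W := 2 ^ n with hW
  have hW0 : 0 < W := by positivity
  set ν : J → Measure Ω := fun j => μ.withDensity (lik e (A j)) with hν
  have hsum : ∀ S : Set Ω, MeasurableSet S → ∑ j, ν j S ≤ μ S :=
    fun S hS => sum_withDensity_le μ _ hfm hf1 hS
  have hνfin : ∀ j, IsFiniteMeasure (ν j) := fun j =>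
    ⟨((Finset.single_le_sum (f := fun j => ν j univ) (fun _ _ => zero_le)
      (Finset.mem_univ j)).trans (hsum _ MeasurableSet.univ)).trans_lt (measure_lt_top _ _)⟩
  by_cases hbig : 1 ≤ 2 ^ (3 * n * W) * μ univ
  swap
  · refine le_trans ?_ le_add_self
    calc _ ≤ ∑ j, ν j univ := Finset.sum_le_sum (fun j _ => measure_mono (subset_univ _))
      _ ≤ μ univ := hsum _ MeasurableSet.univ
      _ ≤ _ := by
          rw [ENNReal.le_inv_iff_mul_le, mul_comm]; exact (not_le.1 hbig).le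
  refine le_trans ?_ le_self_add
  have hG : ∀ s u, 2 ^ (4 * n * u) * μ (closedBall s (4 * rad u))
      ≤ 2 ^ (37 * n) * Pot W (4 * n) μ s := by
    intro s u
    rcases lt_or_ge u W with hu | hu
    · refine (pot_ge hΩ hu 2 (by norm_num) μ s).trans (mul_le_mul_left ?_ _)
      exact pow_le_pow_right₀ (by norm_num) (by omega)
    · apply (ENNReal.mul_le_mul_iff_right (a := (2 : ℝ≥0∞) ^ (3 * n * W)) (by simp) (by simp)).1
      calc _ = 2 ^ (3 * n * W + 4 * n * u) * μ (closedBall s (4 * rad u)) := by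
            rw [pow_add]; ring
        _ ≤ 2 ^ (7 * n * u) * μ (closedBall s (4 * rad u)) := by
            gcongr
            · norm_num
            · nlinarith
        _ ≤ 2 ^ (37 * n) * 1 := by rw [mul_one]; exact hcap s u
        _ ≤ 2 ^ (37 * n) * (2 ^ (3 * n * W) * μ univ) := by gcongr
        _ ≤ 2 ^ (37 * n) * (2 ^ (3 * n * W) * Pot W (4 * n) μ s) := by
            gcongr; exact univ_le_pot hΩ hW0 _ μ s
        _ = _ := by ring
  set τ : ℝ≥0∞ := 2 ^ ((170 + a) * n) with hτ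
  set BF : J → Set Ω := fun j => {s | ((W : ℝ≥0∞) ^ 2 * 2 ^ (6 * n + 3 * (4 * n)) * 2 ^ (3 * n))
      * (Pot W (6 * n) (ν j) s * Pot W (4 * n) (μ' j) s)
      < Pot W (6 * n) (μ' j) s * Pot W (4 * n) (ν j) s} with hBF
  set B1 : J → Set Ω := fun j =>
    {s | 2 ^ n * lik e (A j) s * Pot W (6 * n) μ s < Pot W (6 * n) (ν j) s} with hB1
  set B2 : J → Set Ω := fun j =>
    {s | (τ * τ * 2 ^ (4 * n) * W) * Pot W (4 * n) (ν j) s
        < lik e (A j) s * Pot W (4 * n) μ s} with hB2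
  have hWc : (W : ℝ≥0∞) = 2 ^ n := by rw [hW]; push_cast; rfl
  have hcover : ∀ j, ν j (high n (μ' j) (2 ^ ((369 + 2 * a) * n) * lam))
      ≤ ν j (high n μ lam) + ν j (BF j) + ν j (B1 j) + ν j (B2 j) := by
    intro j
    rcases eq_or_ne (ν j univ) 0 with h0 | h0
    · rw [Measure.measure_univ_eq_zero.1 h0]; simp
    refine le_trans (measure_mono (t := ((high n μ lam ∪ BF j) ∪ B1 j) ∪ B2 j) ?_) ?_
    · intro s hs
      by_contra hno
      simp only [Set.mem_union, not_or] at hno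
      obtain ⟨⟨⟨g0, gF⟩, g1⟩, g2⟩ := hno
      simp only [high, hBF, hB1, hB2, Set.mem_ofPred_eq] at g0 gF g1 g2
      have g0' := not_lt.1 g0
      have gF' := not_lt.1 gF
      have g1' := not_lt.1 g1
      have g2' := not_lt.1 g2
      have hs' : (2 ^ ((369 + 2 * a) * n) * lam) * Pot W (4 * n) (μ' j) s
        < Pot W (6 * n) (μ' j) s := hs
      apply not_le.2 hs'
      have hp0 : Pot W (4 * n) (ν j) s ≠ 0 :=
        fun h => h0 (le_zero_iff.1 (h ▸ univ_le_pot hΩ hW0 _ (ν j) s))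
      apply (ENNReal.mul_le_mul_iff_left hp0 (pot_ne_top _ _ _ _)).1
      calc Pot W (6 * n) (μ' j) s * Pot W (4 * n) (ν j) s
          ≤ _ := gF'
        _ ≤ ((W : ℝ≥0∞) ^ 2 * 2 ^ (6 * n + 3 * (4 * n)) * 2 ^ (3 * n))
            * ((2 ^ n * lik e (A j) s * (lam * Pot W (4 * n) μ s)) * Pot W (4 * n) (μ' j) s) := by
            gcongr
            exact g1'.trans (by gcongr)
        _ = ((W : ℝ≥0∞) ^ 2 * 2 ^ (6 * n + 3 * (4 * n)) * 2 ^ (3 * n)) * 2 ^ n * lam
            * (lik e (A j) s * Pot W (4 * n) μ s) * Pot W (4 * n) (μ' j) s := by ring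
        _ ≤ ((W : ℝ≥0∞) ^ 2 * 2 ^ (6 * n + 3 * (4 * n)) * 2 ^ (3 * n)) * 2 ^ n * lam
            * ((τ * τ * 2 ^ (4 * n) * W) * Pot W (4 * n) (ν j) s) * Pot W (4 * n) (μ' j) s := by
            gcongr
        _ = _ := by
            rw [hWc, hτ]; ring
    · refine (measure_union_le _ _).trans ?_
      gcongr
      refine (measure_union_le _ _).trans ?_
      gcongr
      exact measure_union_le _ _
  have h2n0 : (2 : ℝ≥0∞) ^ n ≠ 0 := by simp
  have h2nt : (2 : ℝ≥0∞) ^ n ≠ ∞ := by simp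
  have conv : ∀ x : ℝ≥0∞, 2 ^ n * x ≤ μ univ → x ≤ (2 ^ n)⁻¹ * μ univ := by
    intro x hx
    calc x = (2 ^ n)⁻¹ * (2 ^ n * x) := by
          rw [← mul_assoc, ENNReal.inv_mul_cancel h2n0 h2nt, one_mul]
      _ ≤ _ := by gcongr
  have hF : ∑ j, ν j (BF j) ≤ (2 ^ n)⁻¹ * μ univ := by
    apply conv
    refine le_trans ?_ (hsum _ MeasurableSet.univ)
    rw [Finset.mul_sum]
    apply Finset.sum_le_sum
    intro j _
    have h := forget hΩ (ν j) (μ' j) (W := W) (β₁ := 4 * n) (β₂ := 6 * n) (by omega)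
      (Λ := 2 ^ (3 * n)) (one_le_pow₀ (by norm_num))
    apply (ENNReal.mul_le_mul_iff_right (a := (W : ℝ≥0∞) ^ 2) (by rw [hWc]; simp)
      (by rw [hWc]; simp)).1
    refine le_trans (le_of_eq ?_) h
    have e3 : (W : ℝ≥0∞) ^ 2 * 2 ^ n = 2 ^ (3 * n) := by rw [hWc]; ring
    rw [← mul_assoc, e3]
  have h1 : ∑ j, ν j (B1 j) ≤ (2 ^ n)⁻¹ * μ univ :=
    conv _ (markov1 μ _ hfm hf1 W (6 * n) (2 ^ n))
  have h2 : ∑ j, ν j (B2 j) ≤ (2 ^ n)⁻¹ * μ univ := by
    apply conv
    have h := markov2 hΩ e he μ (by omega : 1 ≤ n) hW0 hG A hA hA1 (Θ := 2 ^ (42 * n))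
      (t := (2 ^ (85 * n))⁻¹) (τ := τ) (by simp) (by simp) (by simp) (by simp)
      (by simp [hτ]) (by simp [hτ])
    refine (mul_le_mul_right h _).trans ?_
    rw [← mul_assoc]
    exact (mul_le_mul_left (num_delta hn hJ) _).trans (one_mul _).le
  calc _ ≤ ∑ j, (ν j (high n μ lam) + ν j (BF j) + ν j (B1 j) + ν j (B2 j)) :=
        Finset.sum_le_sum (fun j _ => hcover j)
    _ = ∑ j, ν j (high n μ lam) + ∑ j, ν j (BF j) + ∑ j, ν j (B1 j) + ∑ j, ν j (B2 j) := by
        simp only [Finset.sum_add_distrib]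
    _ ≤ μ (high n μ lam) + (2 ^ n)⁻¹ * μ univ + (2 ^ n)⁻¹ * μ univ + (2 ^ n)⁻¹ * μ univ := by
        gcongr
        exact hsum _ (meas_high _ _ _)
    _ = _ := by ring

/-- Unnormalised posteriors after `b` blocks. -/
noncomputable def post {Z : Type*} [Fintype Z] {n : ℕ} (e : Ω → E) (σ : Measure Ω)
    (p : Z → ℝ≥0∞) (A : ℕ → Z → Z → (Fin n → E) × (Fin n → ℝ) → ℝ≥0∞) : ℕ → Z → Measure Ω
  | 0 => fun m => p m • σ
  | b + 1 => fun j => ∑ m, (post e σ p A b m).withDensity (lik e (A b m j))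

omit [PseudoMetricSpace Ω] [BorelSpace Ω] [SecondCountableTopology Ω] in
theorem sum_post {Z : Type*} [Fintype Z] {n : ℕ} {e : Ω → E} (he : Measurable e) (σ : Measure Ω)
    {p : Z → ℝ≥0∞} (hp : ∑ m, p m = 1) {A : ℕ → Z → Z → (Fin n → E) × (Fin n → ℝ) → ℝ≥0∞}
    (hA : ∀ b m j, Measurable (A b m j)) (hA1 : ∀ b m q, ∑ j, A b m j q = 1) (b : ℕ)
    {S : Set Ω} (hS : MeasurableSet S) : ∑ m, post e σ p A b m S = σ S := by
  induction b with
  | zero => simp [post, ← Finset.sum_mul, hp]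
  | succ b ih =>
    simp only [post, Measure.finsetSum_apply]
    rw [Finset.sum_comm, ← ih]
    apply Finset.sum_congr rfl
    intro m _
    simp_rw [withDensity_apply _ hS]
    rw [← lintegral_finsetSum _ (fun j _ => meas_lik he (hA b m j))]
    simp [sum_lik e (hA b m) (hA1 b m)]

theorem bad_post {Z : Type*} [Fintype Z] (hΩ : ∀ s s' : Ω, dist s s' ≤ 2)
    (e : Ω → E) (he : Isometry e) (σ : Measure Ω) [IsProbabilityMeasure σ] {n a : ℕ} (hn : 2 ≤ n)
    (hZ : Fintype.card Z ≤ 2 ^ (a * n * n)) (ha : a * n + 1 ≤ 3 * 2 ^ n)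
    (hcap : ∀ s u, 2 ^ (7 * n * u) * σ (closedBall s (4 * rad u)) ≤ 2 ^ (37 * n))
    {p : Z → ℝ≥0∞} (hp : ∑ m, p m = 1) {A : ℕ → Z → Z → (Fin n → E) × (Fin n → ℝ) → ℝ≥0∞}
    (hA : ∀ b m j, Measurable (A b m j)) (hA1 : ∀ b m q, ∑ j, A b m j q = 1) (b : ℕ) :
    ∑ m, post e σ p A b m (high n (post e σ p A b m) (2 ^ ((38 + (369 + 2 * a) * b) * n)))
      ≤ b * (4 * (2 ^ n)⁻¹) := by
  have hem : Measurable e := he.continuous.measurable
  have hle : ∀ b m S, MeasurableSet S → post e σ p A b m S ≤ σ S := fun b m S hS =>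
    (Finset.single_le_sum (f := fun m => post e σ p A b m S) (fun _ _ => zero_le)
      (Finset.mem_univ m)).trans (sum_post hem σ hp hA hA1 b hS).le
  have hfin : ∀ b m, IsFiniteMeasure (post e σ p A b m) := fun b m =>
    ⟨(hle b m _ MeasurableSet.univ).trans_lt (measure_lt_top _ _)⟩
  induction b with
  | zero =>
    simp only [CharP.cast_eq_zero, zero_mul, nonpos_iff_eq_zero, mul_zero, add_zero]
    apply Finset.sum_eq_zero
    intro m _
    have : high n (post e σ p A 0 m) (2 ^ (38 * n)) = ∅ := by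
      ext s
      simp only [high, Set.mem_ofPred_eq, Set.mem_empty_iff_false, iff_false, not_lt]
      calc Pot (2 ^ n) (6 * n) (post e σ p A 0 m) s
          ≤ ∑ _u ∈ range (2 ^ n), 2 ^ (37 * n) * p m := by
            apply Finset.sum_le_sum
            intro u _
            simp only [post, Measure.smul_apply, smul_eq_mul]
            calc _ = (2 ^ (6 * n * u) * σ (closedBall s (rad u))) * p m := by ring
              _ ≤ (2 ^ (7 * n * u) * σ (closedBall s (4 * rad u))) * p m := by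
                  gcongr
                  · norm_num
                  · norm_num
                  · have := rad_pos u; linarith
              _ ≤ _ := by gcongr; exact hcap s u
        _ = 2 ^ (38 * n) * post e σ p A 0 m univ := by
            simp only [Finset.sum_const, Finset.card_range, nsmul_eq_mul, post,
              Measure.smul_apply, smul_eq_mul, measure_univ, mul_one]
            push_cast
            ring
        _ ≤ _ := by gcongr; exact univ_le_pot hΩ (by positivity) _ _ s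
    rw [this]; simp
  | succ b ih =>
    have e1 : (2 : ℝ≥0∞) ^ ((38 + (369 + 2 * a) * (b + 1)) * n)
        = 2 ^ ((369 + 2 * a) * n) * 2 ^ ((38 + (369 + 2 * a) * b) * n) := by
      rw [← pow_add]; congr 1; ring
    rw [e1]
    set lam := (2 : ℝ≥0∞) ^ ((38 + (369 + 2 * a) * b) * n) with hlam
    calc _ = ∑ j, ∑ m, (post e σ p A b m).withDensity (lik e (A b m j))
              (high n (post e σ p A (b + 1) j) (2 ^ ((369 + 2 * a) * n) * lam)) := by
          apply Finset.sum_congr rfl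
          intro j _
          conv_lhs => rw [post]
          rw [Measure.finsetSum_apply]
          rfl
      _ = ∑ m, ∑ j, (post e σ p A b m).withDensity (lik e (A b m j))
              (high n (post e σ p A (b + 1) j) (2 ^ ((369 + 2 * a) * n) * lam)) := Finset.sum_comm
      _ ≤ ∑ m, (post e σ p A b m (high n (post e σ p A b m) lam)
              + 3 * (2 ^ n)⁻¹ * post e σ p A b m univ + (2 ^ (3 * n * 2 ^ n))⁻¹) := by
          apply Finset.sum_le_sum
          intro m _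
          refine step_one hΩ e he _ hn hZ ?_ (A b m) (hA b m) (hA1 b m) _ lam
          intro s u
          exact (mul_le_mul_right (hle b m _ measurableSet_closedBall) _).trans (hcap s u)
      _ = ∑ m, post e σ p A b m (high n (post e σ p A b m) lam) + 3 * (2 ^ n)⁻¹
              + Fintype.card Z * (2 ^ (3 * n * 2 ^ n))⁻¹ := by
          rw [Finset.sum_add_distrib, Finset.sum_add_distrib, ← Finset.mul_sum,
            sum_post hem σ hp hA hA1 b MeasurableSet.univ, Finset.sum_const, Finset.card_univ,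
            nsmul_eq_mul, measure_univ, mul_one]
      _ ≤ b * (4 * (2 ^ n)⁻¹) + 3 * (2 ^ n)⁻¹ + (2 ^ n)⁻¹ := by
          gcongr
          rw [ENNReal.le_inv_iff_mul_le]
          have : (Fintype.card Z : ℝ≥0∞) ≤ 2 ^ (a * n * n) := by exact_mod_cast hZ
          calc _ ≤ (2 : ℝ≥0∞) ^ (a * n * n) * ((2 : ℝ≥0∞) ^ (3 * n * 2 ^ n))⁻¹ * 2 ^ n := by
                gcongr
            _ = (2 : ℝ≥0∞) ^ (a * n * n + n) * ((2 : ℝ≥0∞) ^ (3 * n * 2 ^ n))⁻¹ := by
                rw [pow_add]; ring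
            _ ≤ 1 := two_pow_mul_inv_le_one (by nlinarith)
      _ = _ := by push_cast; ring

omit [BorelSpace Ω] [SecondCountableTopology Ω] in
theorem mem_high (hΩ : ∀ s s' : Ω, dist s s' ≤ 2) (μ : Measure Ω) [IsFiniteMeasure μ]
    {n u c : ℕ} (hn : 2 ≤ n) (hu : u < 2 ^ n) (hc : c + 3 ≤ 2 * u) (h0 : μ univ ≠ 0) {s : Ω}
    (hs : μ univ ≤ 4 * μ (closedBall s (rad u))) : s ∈ high n μ (2 ^ (c * n)) := by
  have hp0 : Pot (2 ^ n) (4 * n) μ s ≠ 0 :=
    fun h => h0 (le_zero_iff.1 (h ▸ univ_le_pot hΩ (by positivity) _ μ s))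
  have h1 : 2 ^ (2 * n * u) * Pot (2 ^ n) (4 * n) μ s
      ≤ 2 ^ (2 * n) * Pot (2 ^ n) (6 * n) μ s := by
    conv_lhs => rw [Pot, Finset.mul_sum]
    calc _ ≤ ∑ _w ∈ range (2 ^ n), 4 * Pot (2 ^ n) (6 * n) μ s := by
          apply Finset.sum_le_sum
          intro w hw
          rcases le_or_gt w u with h | h
          · calc _ ≤ 2 ^ (2 * n * u) * (2 ^ (4 * n * u) * (4 * μ (closedBall s (rad u)))) := by
                  gcongr
                  · norm_num
                  · exact (measure_mono (subset_univ _)).trans hs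
              _ = 4 * (2 ^ (6 * n * u) * μ (closedBall s (rad u))) := by ring
              _ ≤ _ := by gcongr; exact term_le_pot hu μ s
          · calc _ ≤ 2 ^ (2 * n * w) * (2 ^ (4 * n * w) * μ (closedBall s (rad w))) := by
                  gcongr
                  norm_num
              _ = 1 * (2 ^ (6 * n * w) * μ (closedBall s (rad w))) := by ring
              _ ≤ _ := by
                  gcongr
                  · norm_num
                  · exact term_le_pot (Finset.mem_range.1 hw) μ s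
      _ = 2 ^ (n + 2) * Pot (2 ^ n) (6 * n) μ s := by
          simp only [Finset.sum_const, Finset.card_range, nsmul_eq_mul]
          push_cast
          ring
      _ ≤ _ := by
          gcongr
          · norm_num
          · omega
  show 2 ^ (c * n) * Pot (2 ^ n) (4 * n) μ s < Pot (2 ^ n) (6 * n) μ s
  by_contra hle
  have h2 : 2 ^ (2 * n * u) * Pot (2 ^ n) (4 * n) μ s
      ≤ 2 ^ (2 * n + c * n) * Pot (2 ^ n) (4 * n) μ s := by
    refine h1.trans ?_
    rw [pow_add, mul_assoc]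
    exact mul_le_mul_right (not_lt.1 hle) _
  have h3 := (ENNReal.mul_le_mul_iff_left hp0 (pot_ne_top _ _ _ _)).1 h2
  have h4 : 2 ^ (2 * n * u) ≤ 2 ^ (2 * n + c * n) := by exact_mod_cast h3
  have h5 := (Nat.pow_le_pow_iff_right (by norm_num)).1 h4
  nlinarith

/-- The block lower bound. -/
theorem block_bound {Z : Type*} [Fintype Z] (hΩ : ∀ s s' : Ω, dist s s' ≤ 2)
    (e : Ω → E) (he : Isometry e) (σ : Measure Ω) [IsProbabilityMeasure σ] {n a : ℕ} (hn : 2 ≤ n)
    (hZ : Fintype.card Z ≤ 2 ^ (a * n * n)) (ha : a * n + 1 ≤ 3 * 2 ^ n)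
    (hcap : ∀ s u, 2 ^ (7 * n * u) * σ (closedBall s (4 * rad u)) ≤ 2 ^ (37 * n))
    {p : Z → ℝ≥0∞} (hp : ∑ m, p m = 1) {A : ℕ → Z → Z → (Fin n → E) × (Fin n → ℝ) → ℝ≥0∞}
    (hA : ∀ b m j, Measurable (A b m j)) (hA1 : ∀ b m q, ∑ j, A b m j q = 1) {b u : ℕ}
    (hb : 12 * b ≤ 2 ^ n) (hu : u < 2 ^ n) {ε : ℝ} (hε : 2 * ε ≤ rad u)
    (out : Z → Measure Ω) [∀ m, IsProbabilityMeasure (out m)]
    (hsucc : 2 / 3 ≤ ∑ m, ∫⁻ s, out m (closedBall s ε) ∂(post e σ p A b m)) :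
    2 * u ≤ 40 + (369 + 2 * a) * b := by
  by_contra hlt
  have hem : Measurable e := he.continuous.measurable
  have hfin : ∀ m, IsFiniteMeasure (post e σ p A b m) := fun m =>
    ⟨((Finset.single_le_sum (f := fun m => post e σ p A b m univ) (fun _ _ => zero_le)
      (Finset.mem_univ m)).trans
        (sum_post hem σ hp hA hA1 b MeasurableSet.univ).le).trans_lt (measure_lt_top _ _)⟩
  have hbad := bad_post hΩ e he σ hn hZ ha hcap hp hA hA1 b
  set μ := post e σ p A b with hμ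
  set lam := (2 : ℝ≥0∞) ^ ((38 + (369 + 2 * a) * b) * n) with hlam
  have hm : ∀ m, ∫⁻ s, out m (closedBall s ε) ∂(μ m)
      ≤ μ m (high n (μ m) lam) + 4⁻¹ * μ m univ := by
    intro m
    have hswap : ∫⁻ s, out m (closedBall s ε) ∂(μ m) = ∫⁻ z, μ m (closedBall z ε) ∂(out m) := by
      have h1 := Measure.prod_apply (μ := μ m) (ν := out m) (measSet_close ε)
      have h2 := Measure.prod_apply_symm (μ := μ m) (ν := out m) (measSet_close ε)
      refine h1.symm.trans (h2.trans ?_)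
      congr 1
      ext z
      congr 1
      ext s
      simp [dist_comm]
    rw [hswap]
    calc _ ≤ ∫⁻ _z, (μ m (high n (μ m) lam) + 4⁻¹ * μ m univ) ∂(out m) := by
          apply lintegral_mono
          intro z
          simp only
          rcases eq_or_ne (μ m univ) 0 with h0 | h0
          · rw [Measure.measure_univ_eq_zero.1 h0]; simp
          by_cases hz : μ m univ ≤ 4 * μ m (closedBall z ε)
          · refine le_trans (measure_mono ?_) le_self_add
            intro s hs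
            refine mem_high hΩ (μ m) hn hu (by omega) h0 (hz.trans ?_)
            gcongr
            intro x hx
            have h1 : dist x z ≤ ε := hx
            have h2 : dist s z ≤ ε := hs
            have := dist_triangle_right x s z
            show dist x s ≤ rad u
            linarith
          · refine le_trans ?_ le_add_self
            calc μ m (closedBall z ε) = 4⁻¹ * (4 * μ m (closedBall z ε)) := by
                  rw [← mul_assoc, ENNReal.inv_mul_cancel (by simp) (by simp), one_mul]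
              _ ≤ _ := mul_le_mul_right (not_le.1 hz).le _
      _ = _ := by simp
  have h1 : (2 / 3 : ℝ≥0∞) ≤ 3⁻¹ + 4⁻¹ := by
    calc (2 / 3 : ℝ≥0∞) ≤ _ := hsucc
      _ ≤ ∑ m, (μ m (high n (μ m) lam) + 4⁻¹ * μ m univ) := Finset.sum_le_sum (fun m _ => hm m)
      _ = ∑ m, μ m (high n (μ m) lam) + 4⁻¹ := by
          rw [Finset.sum_add_distrib, ← Finset.mul_sum,
            sum_post hem σ hp hA hA1 b MeasurableSet.univ, measure_univ, mul_one]
      _ ≤ _ := by
          gcongr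
          refine hbad.trans ?_
          rw [ENNReal.le_inv_iff_mul_le]
          have : ((12 * b : ℕ) : ℝ≥0∞) ≤ 2 ^ n := by exact_mod_cast hb
          calc _ = ((12 * b : ℕ) : ℝ≥0∞) * (2 ^ n)⁻¹ := by push_cast; ring
            _ ≤ 2 ^ n * (2 ^ n)⁻¹ := by gcongr
            _ ≤ 1 := ENNReal.mul_inv_le_one _
  have h2 := ENNReal.toReal_mono (by simp) h1
  rw [ENNReal.toReal_add (by simp) (by simp)] at h2
  simp at h2
  norm_num at h2

end Vale.Agent.P309
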