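import Vale.Agent.P309.Block

/-!
A time-homogeneous finite chain driven by the samples, cut into blocks.
-/

namespace Vale.Agent.P309

open MeasureTheory ProbabilityTheory Metric Set Finset Filter
open scoped ENNReal RealInnerProductSpace Topology

variable {E : Type*} [NormedAddCommGroup E] [InnerProductSpace ℝ E] [FiniteDimensional ℝ E]
  [MeasurableSpace E] [BorelSpace E]
  {Ω : Type*} [PseudoMetricSpace Ω] [MeasurableSpace Ω] [BorelSpace Ω]
  [SecondCountableTopology Ω] {Z : Type*} [Fintype Z] [DecidableEq Z]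

/-- Transition probabilities over a block of `k` samples. -/
noncomputable def blk (τ : Z → E × ℝ → Z → ℝ≥0∞) :
    (k : ℕ) → Z → Z → (Fin k → E) × (Fin k → ℝ) → ℝ≥0∞
  | 0 => fun m j _ => if m = j then 1 else 0
  | k + 1 => fun m j q => ∑ m', τ m (q.1 0, q.2 0) m' * blk τ k m' j (Fin.tail q.1, Fin.tail q.2)

omit [NormedAddCommGroup E] [InnerProductSpace ℝ E] [FiniteDimensional ℝ E] [BorelSpace E] in
theorem meas_blk {τ : Z → E × ℝ → Z → ℝ≥0∞} (hτ : ∀ m j, Measurable (fun q => τ m q j)) (k : ℕ) :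
    ∀ m j, Measurable (blk τ k m j) := by
  induction k with
  | zero => intro m j; exact measurable_const
  | succ k ih =>
    intro m j
    have h1 : Measurable (fun q : (Fin (k + 1) → E) × (Fin (k + 1) → ℝ) => (q.1 0, q.2 0)) := by
      fun_prop
    have h2 : Measurable (fun q : (Fin (k + 1) → E) × (Fin (k + 1) → ℝ) =>
        (Fin.tail q.1, Fin.tail q.2)) := by
      unfold Fin.tail; fun_prop
    exact Finset.measurable_sum _ (fun m' _ => ((hτ m m').fun_comp h1).mul ((ih m' j).fun_comp h2))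

omit [NormedAddCommGroup E] [InnerProductSpace ℝ E] [FiniteDimensional ℝ E] [BorelSpace E]
  [MeasurableSpace E] in
theorem sum_blk {τ : Z → E × ℝ → Z → ℝ≥0∞} (hτ1 : ∀ m q, ∑ j, τ m q j = 1) (k : ℕ) :
    ∀ m q, ∑ j, blk τ k m j q = 1 := by
  induction k with
  | zero => intro m q; simp [blk]
  | succ k ih =>
    intro m q
    simp only [blk]
    rw [Finset.sum_comm]
    simp_rw [← Finset.mul_sum, ih, mul_one, hτ1]

/-- Expected terminal payoff after `r` more samples. -/
noncomputable def val (τ : Z → E × ℝ → Z → ℝ≥0∞) (e : Ω → E) (G : Z → Ω → ℝ≥0∞) :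
    ℕ → Z → Ω → ℝ≥0∞
  | 0 => G
  | r + 1 => fun m s => ∑ j, (∫⁻ x, τ m (x, ⟪x, e s⟫) j ∂(stdGaussian E)) * val τ e G r j s

omit [PseudoMetricSpace Ω] [BorelSpace Ω] [SecondCountableTopology Ω] [DecidableEq Z] in
theorem meas_val {τ : Z → E × ℝ → Z → ℝ≥0∞} (hτ : ∀ m j, Measurable (fun q => τ m q j))
    {e : Ω → E} (he : Measurable e) {G : Z → Ω → ℝ≥0∞} (hG : ∀ m, Measurable (G m)) (r : ℕ) :
    ∀ m, Measurable (val τ e G r m) := by
  induction r with
  | zero => exact hG
  | succ r ih =>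
    intro m
    refine Finset.measurable_sum _ (fun j _ => Measurable.mul ?_ (ih j))
    have h1 : Measurable (fun p : Ω × E => (p.2, ⟪p.2, e p.1⟫)) := by fun_prop
    exact ((hτ m j).fun_comp h1).lintegral_prod_right'

omit [PseudoMetricSpace Ω] [BorelSpace Ω] [SecondCountableTopology Ω] [MeasurableSpace Ω] in
theorem lik_blk_succ {τ : Z → E × ℝ → Z → ℝ≥0∞} (hτ : ∀ m j, Measurable (fun q => τ m q j))
    (e : Ω → E) (k : ℕ) (m j : Z) (s : Ω) :
    lik e (blk τ (k + 1) m j) s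
      = ∑ m', (∫⁻ x, τ m (x, ⟪x, e s⟫) m' ∂(stdGaussian E)) * lik e (blk τ k m' j) s := by
  have hl : ∀ k : ℕ, Measurable (fun X : Fin k → E => (X, lab X (e s))) := fun k =>
    measurable_id.prodMk (meas_lab measurable_id measurable_const)
  have h1 : Measurable (fun x : E => (x, ⟪x, e s⟫)) := by fun_prop
  unfold lik
  rw [lintegral_pi_cons _ _ ((meas_blk hτ (k + 1) m j).fun_comp (hl (k + 1)))]
  have e1 : ∀ (x : E) (X : Fin k → E), blk τ (k + 1) m j (Fin.cons x X, lab (Fin.cons x X) (e s))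
      = ∑ m', τ m (x, ⟪x, e s⟫) m' * blk τ k m' j (X, lab X (e s)) := by
    intro x X
    rfl
  simp_rw [e1]
  have e2 : ∀ x : E, ∫⁻ X : Fin k → E, ∑ m', τ m (x, ⟪x, e s⟫) m' * blk τ k m' j (X, lab X (e s))
      ∂(Measure.pi fun _ => stdGaussian E)
      = ∑ m', τ m (x, ⟪x, e s⟫) m' * ∫⁻ X : Fin k → E, blk τ k m' j (X, lab X (e s))
        ∂(rows E k) := by
    intro x
    rw [lintegral_finsetSum _ (fun m' _ => ((meas_blk hτ k m' j).fun_comp (hl k)).const_mul _)]
    apply Finset.sum_congr rfl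
    intro m' _
    rw [lintegral_const_mul _ ((meas_blk hτ k m' j).fun_comp (hl k))]
  simp_rw [e2]
  rw [lintegral_finsetSum _ (fun m' _ => ((hτ m m').fun_comp h1).mul_const _)]
  apply Finset.sum_congr rfl
  intro m' _
  rw [lintegral_mul_const _ ((hτ m m').fun_comp h1)]

omit [PseudoMetricSpace Ω] [BorelSpace Ω] [SecondCountableTopology Ω] [MeasurableSpace Ω] in
theorem val_add {τ : Z → E × ℝ → Z → ℝ≥0∞} (hτ : ∀ m j, Measurable (fun q => τ m q j))
    (e : Ω → E) (G : Z → Ω → ℝ≥0∞) (r k : ℕ) :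
    ∀ m s, val τ e G (r + k) m s = ∑ j, lik e (blk τ k m j) s * val τ e G r j s := by
  induction k with
  | zero => intro m s; simp [lik, blk]
  | succ k ih =>
    intro m s
    rw [← add_assoc]
    simp only [val]
    simp_rw [ih, lik_blk_succ hτ, Finset.sum_mul, Finset.mul_sum, mul_assoc]
    exact Finset.sum_comm

omit [PseudoMetricSpace Ω] [BorelSpace Ω] [SecondCountableTopology Ω] in
theorem val_post {τ : Z → E × ℝ → Z → ℝ≥0∞} (hτ : ∀ m j, Measurable (fun q => τ m q j))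
    {e : Ω → E} (he : Measurable e) {G : Z → Ω → ℝ≥0∞} (hG : ∀ m, Measurable (G m))
    (σ : Measure Ω) (p : Z → ℝ≥0∞) (n b : ℕ) : ∀ r : ℕ,
    ∫⁻ s, ∑ m, p m * val τ e G (r + b * n) m s ∂σ
      = ∑ m, ∫⁻ s, val τ e G r m s ∂(post e σ p (fun _ => blk τ n) b m) := by
  induction b with
  | zero =>
    intro r
    rw [lintegral_finsetSum _ (fun m _ => (meas_val hτ he hG _ m).const_mul _)]
    simp only [post, lintegral_smul_measure, smul_eq_mul, zero_mul, add_zero]
    apply Finset.sum_congr rfl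
    intro m _
    rw [lintegral_const_mul _ (meas_val hτ he hG _ m)]
  | succ b ih =>
    intro r
    rw [show r + (b + 1) * n = (r + n) + b * n by ring, ih]
    simp only [post, lintegral_finsetSum_measure]
    rw [Finset.sum_comm]
    apply Finset.sum_congr rfl
    intro m _
    simp_rw [val_add hτ e G r n]
    rw [lintegral_finsetSum _ (fun j _ => (meas_lik he (meas_blk hτ n m j)).fun_mul
      (meas_val hτ he hG r j))]
    apply Finset.sum_congr rfl
    intro j _
    rw [lintegral_withDensity_eq_lintegral_mul _ (meas_lik he (meas_blk hτ n m j))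
      (meas_val hτ he hG r j)]
    rfl

theorem chain_bound (hΩ : ∀ s s' : Ω, dist s s' ≤ 2)
    (e : Ω → E) (he : Isometry e) (σ : Measure Ω) [IsProbabilityMeasure σ] {n a : ℕ} (hn : 2 ≤ n)
    (hZ : Fintype.card Z ≤ 2 ^ (a * n * n)) (ha : a * n + 1 ≤ 3 * 2 ^ n)
    (hcap : ∀ s u, 2 ^ (7 * n * u) * σ (closedBall s (4 * rad u)) ≤ 2 ^ (37 * n))
    {p : Z → ℝ≥0∞} (hp : ∑ m, p m = 1) {τ : Z → E × ℝ → Z → ℝ≥0∞}
    (hτ : ∀ m j, Measurable (fun q => τ m q j)) (hτ1 : ∀ m q, ∑ j, τ m q j = 1) {b u : ℕ}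
    (hb : 12 * b ≤ 2 ^ n) (hu : u < 2 ^ n) {ε : ℝ} (hε : 2 * ε ≤ rad u)
    (out : Z → Measure Ω) [∀ m, IsProbabilityMeasure (out m)]
    (hsucc : 2 / 3 ≤ ∫⁻ s, ∑ m, p m * val τ e (fun m s => out m (closedBall s ε)) (b * n) m s ∂σ) :
    2 * u ≤ 40 + (369 + 2 * a) * b := by
  have h := val_post hτ he.continuous.measurable (G := fun m s => out m (closedBall s ε))
    (fun m => meas_ball _ _) σ p n b 0
  rw [zero_add] at h
  rw [h] at hsucc
  exact block_bound hΩ e he σ hn hZ ha hcap hp (fun _ => meas_blk hτ n) (fun _ => sum_blk hτ1 n)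
    hb hu hε out hsucc

theorem count_bound (e : Ω → E) (he : Measurable e) (σ : Measure Ω) [IsProbabilityMeasure σ]
    {n : ℕ} (hcap : ∀ s u, 2 ^ (7 * n * u) * σ (closedBall s (4 * rad u)) ≤ 2 ^ (37 * n))
    {p : Z → ℝ≥0∞} (hp : ∑ m, p m = 1) {τ : Z → E × ℝ → Z → ℝ≥0∞}
    (hτ : ∀ m j, Measurable (fun q => τ m q j)) (hτ1 : ∀ m q, ∑ j, τ m q j = 1) {b u : ℕ}
    {ε : ℝ} (hε : 2 * ε ≤ rad u)
    (out : Z → Measure Ω) [∀ m, IsProbabilityMeasure (out m)]
    (hsucc : 2 / 3 ≤ ∫⁻ s, ∑ m, p m * val τ e (fun m s => out m (closedBall s ε)) (b * n) m s ∂σ) :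
    2 ^ (7 * n * u) ≤ 2 * (Fintype.card Z * 2 ^ (37 * n)) := by
  have h := val_post hτ he (G := fun m s => out m (closedBall s ε))
    (fun m => meas_ball _ _) σ p n b 0
  rw [zero_add] at h
  rw [h] at hsucc
  have hle : ∀ m, post e σ p (fun _ => blk τ n) b m ≤ σ := by
    intro m
    rw [Measure.le_iff]
    intro S hS
    exact (Finset.single_le_sum (f := fun m => post e σ p (fun _ => blk τ n) b m S)
      (fun _ _ => zero_le) (Finset.mem_univ m)).trans
      (sum_post he σ hp (fun _ => meas_blk hτ n) (fun _ => sum_blk hτ1 n) b hS).le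
  have hm : ∀ m, 2 ^ (7 * n * u) * ∫⁻ s, out m (closedBall s ε)
      ∂(post e σ p (fun _ => blk τ n) b m) ≤ 2 ^ (37 * n) := by
    intro m
    have hswap : ∫⁻ s, out m (closedBall s ε) ∂σ = ∫⁻ z, σ (closedBall z ε) ∂(out m) := by
      have h1 := Measure.prod_apply (μ := σ) (ν := out m) (measSet_close ε)
      have h2 := Measure.prod_apply_symm (μ := σ) (ν := out m) (measSet_close ε)
      refine h1.symm.trans (h2.trans ?_)
      congr 1
      ext z
      congr 1
      ext s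
      simp [dist_comm]
    calc _ ≤ 2 ^ (7 * n * u) * ∫⁻ s, out m (closedBall s ε) ∂σ :=
          mul_le_mul_right (lintegral_mono' (hle m) le_rfl) _
      _ = ∫⁻ z, 2 ^ (7 * n * u) * σ (closedBall z ε) ∂(out m) := by
          rw [hswap, lintegral_const_mul' _ _ (by simp)]
      _ ≤ ∫⁻ _z, 2 ^ (37 * n) ∂(out m) := by
          apply lintegral_mono
          intro z
          refine le_trans (mul_le_mul_right (measure_mono ?_) _) (hcap z u)
          apply closedBall_subset_closedBall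
          have := rad_pos u
          linarith
      _ = _ := by simp
  have h2 : (2 : ℝ≥0∞) ^ (7 * n * u) ≤ 2 * (Fintype.card Z * 2 ^ (37 * n)) := by
    have h3 : (1 : ℝ≥0∞) ≤ 2 * (2 / 3) := by
      rw [← mul_div_assoc, ENNReal.le_div_iff_mul_le (by simp) (by simp)]; norm_num
    calc (2 : ℝ≥0∞) ^ (7 * n * u) = 1 * 2 ^ (7 * n * u) := (one_mul _).symm
      _ ≤ (2 * ∑ m, ∫⁻ s, out m (closedBall s ε) ∂(post e σ p (fun _ => blk τ n) b m))
            * 2 ^ (7 * n * u) := mul_le_mul_left (h3.trans (mul_le_mul_right hsucc _)) _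
      _ = 2 * ∑ m, 2 ^ (7 * n * u) * ∫⁻ s, out m (closedBall s ε)
            ∂(post e σ p (fun _ => blk τ n) b m) := by rw [← Finset.mul_sum]; ring
      _ ≤ 2 * ∑ _m : Z, 2 ^ (37 * n) := mul_le_mul_right (Finset.sum_le_sum (fun m _ => hm m)) _
      _ = _ := by simp
  exact_mod_cast h2

end Vale.Agent.P309
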