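import Mathlib

/-!
Memory-bounded one-pass learners for noiseless Gaussian linear regression.
-/

namespace Vale.Agent.P309

open MeasureTheory ProbabilityTheory
open scoped ENNReal

/-- The uniform probability measure on the unit sphere of `ℝ^d`: the surface measure induced by
Lebesgue measure, normalised to total mass one. -/
noncomputable def unifSphere (d : ℕ) : Measure (Metric.sphere (0 : EuclideanSpace ℝ (Fin d)) 1) :=
  ((volume : Measure (EuclideanSpace ℝ (Fin d))).toSphere Set.univ)⁻¹ •
    (volume : Measure (EuclideanSpace ℝ (Fin d))).toSphere

/-- A randomized one-pass learner in dimension `d` whose persistent state lies in `Fin N`.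
The Boolean component is the decision to stop.  `init` is the law of the initial state and
stopping decision; `step t` is the randomized rule used on the pair number `t + 1`: from the
current state and the current pair (row, label) it draws the new state and the stopping decision;
`out t` draws the output from the final state when the learner stops after `t` pairs. -/
structure Learner (d N : ℕ) where
  init : Measure (Fin N × Bool)
  step : ℕ → Kernel (Fin N × (EuclideanSpace ℝ (Fin d) × ℝ)) (Fin N × Bool)
  out : ℕ → Kernel (Fin N) (Metric.sphere (0 : EuclideanSpace ℝ (Fin d)) 1)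
  init_prob : IsProbabilityMeasure init
  step_markov : ∀ t, IsMarkovKernel (step t)
  out_markov : ∀ t, IsMarkovKernel (out t)

/-- The outputs within angle `ε` of the signal `s`. -/
def closeTo {d : ℕ} (ε : ℝ) (s : Metric.sphere (0 : EuclideanSpace ℝ (Fin d)) 1) :
    Set (Metric.sphere (0 : EuclideanSpace ℝ (Fin d)) 1) :=
  {w | Real.arccos (inner ℝ (w : EuclideanSpace ℝ (Fin d)) (s : EuclideanSpace ℝ (Fin d))) ≤ ε}

/-- `L.value ε s r t z` is the probability, for the signal `s`, that the output is within angle `ε`
of `s`, when `t` pairs have been read, at most `r` more may be read, and the current state and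
stopping decision are `z`.  Each new row is a fresh standard Gaussian vector `x`, with exact
label `⟪x, s⟫`. -/
noncomputable def Learner.value {d N : ℕ} (L : Learner d N) (ε : ℝ)
    (s : Metric.sphere (0 : EuclideanSpace ℝ (Fin d)) 1) : ℕ → ℕ → Fin N × Bool → ℝ≥0∞
  | 0, t, z => L.out t z.1 (closeTo ε s)
  | r + 1, t, z =>
      if z.2 = true then L.out t z.1 (closeTo ε s)
      else ∫⁻ x, ∫⁻ z', L.value ε s r (t + 1) z'
        ∂(L.step t (z.1, (x, inner ℝ x (s : EuclideanSpace ℝ (Fin d)))))
        ∂(stdGaussian (EuclideanSpace ℝ (Fin d)))

/-- The success probability at accuracy `ε` with horizon `T`, for a uniformly random signal. -/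
noncomputable def Learner.success {d N : ℕ} (L : Learner d N) (T : ℕ) (ε : ℝ) : ℝ≥0∞ :=
  ∫⁻ s, ∫⁻ z, L.value ε s T 0 z ∂L.init ∂(unifSphere d)

end Vale.Agent.P309
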