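import Mathlib

/-!
Small-ball estimates for Gaussian rows.
-/

namespace Vale.Agent.P309

open MeasureTheory ProbabilityTheory Metric Set Finset
open scoped ENNReal RealInnerProductSpace

theorem lintegral_pi_cons {α : Type*} [MeasurableSpace α] (μ : Measure α) [SigmaFinite μ]
    {k : ℕ} (F : (Fin (k + 1) → α) → ℝ≥0∞) (hF : Measurable F) :
    ∫⁻ X, F X ∂(Measure.pi fun _ => μ)
      = ∫⁻ x, ∫⁻ X, F (Fin.cons x X) ∂(Measure.pi fun _ : Fin k => μ) ∂μ := by
  have h := (measurePreserving_piFinSuccAbove (fun _ : Fin (k + 1) => μ) 0).symm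
  rw [← h.lintegral_comp_emb (MeasurableEquiv.measurableEmbedding _), lintegral_prod]
  · simp_rw [MeasurableEquiv.piFinSuccAbove_symm_apply, Fin.insertNthEquiv]
    simp only [Equiv.coe_fn_mk, Fin.insertNth_zero']
  · exact (hF.comp (MeasurableEquiv.measurable _)).aemeasurable

theorem lintegral_pi_pow {α : Type*} [MeasurableSpace α] (μ : Measure α) [SigmaFinite μ]
    (h : α → ℝ≥0∞) (hh : Measurable h) (k : ℕ) :
    ∫⁻ X : Fin k → α, ∏ i, h (X i) ∂(Measure.pi fun _ => μ) = (∫⁻ x, h x ∂μ) ^ k := by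
  induction k with
  | zero => simp
  | succ k ih =>
    rw [lintegral_pi_cons μ _ (by fun_prop)]
    simp_rw [Fin.prod_univ_succ, Fin.cons_zero, Fin.cons_succ]
    have hm : Measurable (fun X : Fin k → α => ∏ i, h (X i)) := by fun_prop
    simp_rw [lintegral_const_mul _ hm, ih]
    rw [lintegral_mul_const _ hh, pow_succ']

variable {E : Type*} [NormedAddCommGroup E] [InnerProductSpace ℝ E] [FiniteDimensional ℝ E]
  [MeasurableSpace E] [BorelSpace E]

theorem resample {e : E} (he : ‖e‖ = 1) :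
    ((stdGaussian E).prod (gaussianReal 0 1)).map
      (fun p : E × ℝ => p.1 - ⟪e, p.1⟫ • e + p.2 • e) = stdGaussian E := by
  have hm : Measurable (fun p : E × ℝ => p.1 - ⟪e, p.1⟫ • e + p.2 • e) := by fun_prop
  have := Measure.isProbabilityMeasure_map
    (μ := (stdGaussian E).prod (gaussianReal 0 1)) hm.aemeasurable
  apply Measure.ext_of_charFun
  ext ξ
  rw [charFun_apply, integral_map hm.aemeasurable (Measurable.aestronglyMeasurable (by fun_prop))]
  have e1 : ∀ p : E × ℝ, Complex.exp ((⟪p.1 - ⟪e, p.1⟫ • e + p.2 • e, ξ⟫ : ℝ) * Complex.I)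
      = Complex.exp ((⟪p.1, ξ - ⟪e, ξ⟫ • e⟫ : ℝ) * Complex.I)
        * Complex.exp ((⟪e, ξ⟫ : ℝ) * p.2 * Complex.I) := by
    intro p
    rw [← Complex.exp_add, ← add_mul]
    congr 2
    rw [inner_add_left, inner_sub_left, inner_sub_right, real_inner_smul_left,
      real_inner_smul_left, real_inner_smul_right, real_inner_comm p.1 e]
    push_cast
    ring
  simp_rw [e1]
  rw [integral_prod_mul (fun x : E => Complex.exp ((⟪x, ξ - ⟪e, ξ⟫ • e⟫ : ℝ) * Complex.I))
    (fun t : ℝ => Complex.exp ((⟪e, ξ⟫ : ℝ) * t * Complex.I)), ← charFun_apply,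
    ← charFun_apply_real, charFun_stdGaussian, charFun_stdGaussian, charFun_gaussianReal,
    ← Complex.exp_add]
  congr 1
  have h2 : ‖ξ - ⟪e, ξ⟫ • e‖ ^ 2 = ‖ξ‖ ^ 2 - ⟪e, ξ⟫ ^ 2 := by
    rw [norm_sub_sq_real, real_inner_smul_right, norm_smul, he, real_inner_comm ξ e]
    simp only [Real.norm_eq_abs, mul_one, sq_abs]
    ring
  have h3 : ((‖ξ - ⟪e, ξ⟫ • e‖ : ℝ) : ℂ) ^ 2 = ((‖ξ‖ : ℝ) : ℂ) ^ 2 - ((⟪e, ξ⟫ : ℝ) : ℂ) ^ 2 := by
    exact_mod_cast h2
  rw [h3]
  simp only [Complex.ofReal_zero, NNReal.coe_one, Complex.ofReal_one]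
  ring

theorem gauss_interval {c δ η : ℝ} (hδ : 0 < δ) :
    gaussianReal 0 1 {t : ℝ | |c + t * δ| ≤ η} ≤ ENNReal.ofReal η * (ENNReal.ofReal δ)⁻¹ := by
  have hsub : {t : ℝ | |c + t * δ| ≤ η} ⊆ Icc ((-η - c) / δ) ((η - c) / δ) := by
    intro t ht
    have ht' : |c + t * δ| ≤ η := ht
    rw [abs_le] at ht'
    constructor
    · rw [div_le_iff₀ hδ]; linarith
    · rw [le_div_iff₀ hδ]; linarith
  refine (measure_mono hsub).trans ?_
  rw [gaussianReal_apply _ one_ne_zero]
  have hp : ∀ t : ℝ, gaussianPDF 0 1 t ≤ ENNReal.ofReal (1 / 2) := by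
    intro t
    rw [gaussianPDF]
    apply ENNReal.ofReal_le_ofReal
    rw [gaussianPDFReal]
    have h1 : (2 : ℝ) ≤ √(2 * Real.pi * ((1 : NNReal) : ℝ)) := by
      apply Real.le_sqrt_of_sq_le
      have := Real.pi_gt_three
      simp only [NNReal.coe_one]
      linarith
    have h2 : Real.exp (-(t - 0) ^ 2 / (2 * ((1 : NNReal) : ℝ))) ≤ 1 := by
      apply Real.exp_le_one_iff.2
      simp only [NNReal.coe_one]
      nlinarith [sq_nonneg (t - 0)]
    calc _ ≤ (2 : ℝ)⁻¹ * 1 := by gcongr
      _ = 1 / 2 := by norm_num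
  calc _ ≤ ∫⁻ _t in Icc ((-η - c) / δ) ((η - c) / δ), ENNReal.ofReal (1 / 2) :=
        lintegral_mono hp
    _ = ENNReal.ofReal (1 / 2) * ENNReal.ofReal ((η - c) / δ - (-η - c) / δ) := by
        rw [setLIntegral_const, Real.volume_Icc]
    _ = ENNReal.ofReal (η * δ⁻¹) := by
        rw [← ENNReal.ofReal_mul (by norm_num)]
        congr 1
        field_simp
        ring
    _ = _ := by
        rw [mul_comm, ENNReal.ofReal_mul (by positivity), ENNReal.ofReal_inv_of_pos hδ, mul_comm]

/-- Rows almost orthogonal to all vectors of `F`. -/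
def slab (η : ℝ) (F : Finset E) : Set E := {x | ∀ v ∈ F, |⟪x, v⟫| ≤ η}

theorem measSet_slab (η : ℝ) (F : Finset E) : MeasurableSet (slab η F) := by
  have : slab η F = ⋂ v ∈ F, {x : E | |⟪x, v⟫| ≤ η} := by
    ext x; simp [slab]
  rw [this]
  exact Finset.measurableSet_biInter _ (fun v _ => measurableSet_le (by fun_prop) measurable_const)

/-- Distance to the span of `F`. -/
noncomputable def dsp (F : Finset E) (v : E) : ℝ :=
  ‖v - (Submodule.span ℝ (F : Set E)).starProjection v‖

omit [FiniteDimensional ℝ E] [MeasurableSpace E] [BorelSpace E] in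
theorem continuous_dsp (F : Finset E) : Continuous (dsp F) := by
  unfold dsp; fun_prop

theorem slab_insert [DecidableEq E] {η : ℝ} (hη : 0 < η) (F : Finset E) (v : E) :
    stdGaussian E (slab η (insert v F))
      ≤ stdGaussian E (slab η F) * (ENNReal.ofReal η * (ENNReal.ofReal (dsp F v))⁻¹) := by
  have hsub : slab η (insert v F) ⊆ slab η F :=
    fun x hx w hw => hx w (Finset.mem_insert_of_mem hw)
  rcases (show 0 ≤ dsp F v from norm_nonneg _).eq_or_lt with h0 | hδ
  · rw [← h0]
    simp only [ENNReal.ofReal_zero, ENNReal.inv_zero]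
    rw [ENNReal.mul_top (by simpa using hη)]
    rcases eq_or_ne (stdGaussian E (slab η F)) 0 with h | h
    · rw [h, zero_mul, ← h]; exact measure_mono hsub
    · rw [ENNReal.mul_top h]; exact le_top
  · set V := Submodule.span ℝ (F : Set E) with hV
    set δ := dsp F v with hδdef
    set u := v - V.starProjection v with hu
    have hun : ‖u‖ = δ := rfl
    set e := δ⁻¹ • u with he
    have he1 : ‖e‖ = 1 := by
      rw [he, norm_smul, hun, Real.norm_eq_abs, abs_of_pos (inv_pos.2 hδ)]
      field_simp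
    have heV : ∀ w ∈ V, ⟪e, w⟫ = 0 := by
      intro w hw
      rw [he, real_inner_smul_left, hu, Submodule.starProjection_inner_eq_zero v w hw, mul_zero]
    have hev : ⟪e, v⟫ = δ := by
      have : v = u + V.starProjection v := by rw [hu]; abel
      conv_lhs => rw [this]
      rw [inner_add_right, heV _ (V.starProjection_apply_mem v), add_zero, he,
        real_inner_smul_left, real_inner_self_eq_norm_sq, hun]
      field_simp
    have hm : Measurable (fun p : E × ℝ => p.1 - ⟪e, p.1⟫ • e + p.2 • e) := by fun_prop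
    conv_lhs => rw [← resample he1]
    rw [Measure.map_apply hm (measSet_slab _ _), Measure.prod_apply (hm (measSet_slab _ _)),
      mul_comm, ← lintegral_indicator_const (measSet_slab η F)]
    apply lintegral_mono
    intro x
    by_cases hx : x ∈ slab η F
    · rw [Set.indicator_of_mem hx]
      refine le_trans (measure_mono ?_) (gauss_interval (c := ⟪x - ⟪e, x⟫ • e, v⟫) (η := η) hδ)
      intro t ht
      have := ht v (Finset.mem_insert_self _ _)
      simp only [inner_add_left, real_inner_smul_left, hev] at this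
      simpa using this
    · rw [Set.indicator_of_notMem hx]
      have : Prod.mk x ⁻¹' ((fun p : E × ℝ => p.1 - ⟪e, p.1⟫ • e + p.2 • e) ⁻¹'
          slab η (insert v F)) = ∅ := by
        ext t
        simp only [Set.mem_preimage, Set.mem_empty_iff_false, iff_false]
        intro ht
        apply hx
        intro w hw
        have h1 := ht w (Finset.mem_insert_of_mem hw)
        have h2 := heV w (Submodule.subset_span (Finset.mem_coe.2 hw))
        simp only [inner_add_left, inner_sub_left, real_inner_smul_left, h2] at h1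
        simpa using h1
      simp only [this, measure_empty, le_refl]

theorem second_moment {v : E} (hv : ‖v‖ ≤ 1) :
    ∫⁻ x, ENNReal.ofReal (1 + ⟪x, v⟫ ^ 2) ∂(stdGaussian E) ≤ 2 := by
  have hL : MemLp (innerSL ℝ v) 2 (stdGaussian E) := IsGaussian.memLp_dual _ _ 2 (by simp)
  have hvar := variance_dual_stdGaussian (innerSL ℝ v)
  rw [variance_eq_sub hL, integral_strongDual_stdGaussian, innerSL_apply_norm] at hvar
  have hint : Integrable (fun x : E => ⟪x, v⟫ ^ 2) (stdGaussian E) := by
    have := hL.integrable_sq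
    simpa [real_inner_comm v] using this
  have hI : ∫ x, ⟪x, v⟫ ^ 2 ∂(stdGaussian E) = ‖v‖ ^ 2 := by
    rw [← hvar]
    simp [real_inner_comm v]
  rw [← ofReal_integral_eq_lintegral_ofReal (f := fun x : E => 1 + ⟪x, v⟫ ^ 2)
    ((integrable_const 1).add hint)
    (Filter.Eventually.of_forall (fun x => by positivity)),
    integral_add (integrable_const 1) hint, hI]
  simp only [integral_const, probReal_univ, smul_eq_mul, mul_one]
  rw [← ENNReal.ofReal_ofNat]
  apply ENNReal.ofReal_le_ofReal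
  nlinarith [norm_nonneg v]

/-- The label vector of a point. -/
noncomputable def lab {k : ℕ} (X : Fin k → E) (s : E) : Fin k → ℝ := fun i => ⟪X i, s⟫

/-- The law of a block of `k` rows. -/
noncomputable abbrev rows (E : Type*) [NormedAddCommGroup E] [InnerProductSpace ℝ E]
    [FiniteDimensional ℝ E] [MeasurableSpace E] (k : ℕ) : Measure (Fin k → E) :=
  Measure.pi (fun _ => stdGaussian E)

theorem moment {Ω : Type*} [MeasurableSpace Ω] (lam : Measure Ω) [IsFiniteMeasure lam]
    (ι : Ω → E) (hι : Measurable ι) {k n : ℕ} {η : ℝ} (hη : 0 < η) {L : ℝ≥0∞}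
    (hL : ∀ F : Finset E, F.card ≤ n →
      ∫⁻ ω, ((ENNReal.ofReal (dsp F (ι ω)))⁻¹) ^ k ∂lam ≤ L) (j : ℕ) :
    ∀ F : Finset E, F.card + j ≤ n →
      ∫⁻ X in Set.pi univ (fun _ : Fin k => slab η F),
        (lam {ω | ∀ i, |⟪X i, ι ω⟫| ≤ η}) ^ j ∂(rows E k)
      ≤ stdGaussian E (slab η F) ^ k * ((ENNReal.ofReal η) ^ k * L) ^ j := by
  classical
  have hS : MeasurableSet {p : (Fin k → E) × Ω | ∀ i, |⟪p.1 i, ι p.2⟫| ≤ η} := by
    have : {p : (Fin k → E) × Ω | ∀ i, |⟪p.1 i, ι p.2⟫| ≤ η}
        = ⋂ i, {p : (Fin k → E) × Ω | |⟪p.1 i, ι p.2⟫| ≤ η} := by ext p; simp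
    rw [this]
    exact MeasurableSet.iInter (fun i => measurableSet_le (by fun_prop) measurable_const)
  have hG : Measurable (fun X : Fin k → E => lam {ω | ∀ i, |⟪X i, ι ω⟫| ≤ η}) :=
    measurable_measure_prodMk_left hS
  have hpi : ∀ F : Finset E, MeasurableSet (Set.pi univ (fun _ : Fin k => slab η F)) :=
    fun F => MeasurableSet.univ_pi (fun _ => measSet_slab η F)
  induction j with
  | zero =>
    intro F _
    simp [Measure.pi_pi]
  | succ j ih =>
    intro F hF
    set G : (Fin k → E) → ℝ≥0∞ := fun X => lam {ω | ∀ i, |⟪X i, ι ω⟫| ≤ η} with hGdef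
    set H : (Fin k → E) → Ω → ℝ≥0∞ := fun X ω =>
      {p : (Fin k → E) × Ω | ∀ i, |⟪p.1 i, ι p.2⟫| ≤ η}.indicator (fun p => G p.1 ^ j) (X, ω)
      with hH
    have hHm : Measurable (Function.uncurry H) :=
      Measurable.indicator ((hG.comp measurable_fst).pow_const j) hS
    have e1 : ∀ X, G X ^ (j + 1) = ∫⁻ ω, H X ω ∂lam := by
      intro X
      have : (fun ω => H X ω) = {ω | ∀ i, |⟪X i, ι ω⟫| ≤ η}.indicator (fun _ => G X ^ j) := by
        ext ω; simp only [hH, Set.indicator, Set.mem_ofPred_eq]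
      have hm : MeasurableSet {ω | ∀ i, |⟪X i, ι ω⟫| ≤ η} := measurable_prodMk_left hS
      rw [this, lintegral_indicator_const hm, pow_succ]
    calc ∫⁻ X in Set.pi univ (fun _ : Fin k => slab η F), G X ^ (j + 1) ∂(rows E k)
        = ∫⁻ X in Set.pi univ (fun _ : Fin k => slab η F), ∫⁻ ω, H X ω ∂lam ∂(rows E k) := by
          simp_rw [e1]
      _ = ∫⁻ ω, ∫⁻ X in Set.pi univ (fun _ : Fin k => slab η F), H X ω ∂(rows E k) ∂lam :=
          lintegral_lintegral_swap hHm.aemeasurable
      _ = ∫⁻ ω, ∫⁻ X in Set.pi univ (fun _ : Fin k => slab η (insert (ι ω) F)),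
            G X ^ j ∂(rows E k) ∂lam := by
          congr 1
          ext ω
          rw [← lintegral_indicator (hpi _), ← lintegral_indicator (hpi _)]
          congr 1
          ext X
          simp only [hH, Set.indicator, Set.mem_ofPred_eq, Set.mem_pi, Set.mem_univ, slab,
            Finset.mem_insert, forall_eq_or_imp, forall_const, forall_and]
          by_cases h1 : ∀ i, |⟪X i, ι ω⟫| ≤ η <;> by_cases h2 : ∀ i, ∀ v ∈ F, |⟪X i, v⟫| ≤ η <;>
            simp [h1, h2]
      _ ≤ ∫⁻ ω, (stdGaussian E (slab η F) ^ k * ((ENNReal.ofReal η) ^ k * L) ^ j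
            * (ENNReal.ofReal η) ^ k) * ((ENNReal.ofReal (dsp F (ι ω)))⁻¹) ^ k ∂lam := by
          apply lintegral_mono
          intro ω
          refine (ih (insert (ι ω) F) (by have := Finset.card_insert_le (ι ω) F; omega)).trans ?_
          calc _ ≤ (stdGaussian E (slab η F)
                  * (ENNReal.ofReal η * (ENNReal.ofReal (dsp F (ι ω)))⁻¹)) ^ k
                  * ((ENNReal.ofReal η) ^ k * L) ^ j := by
                gcongr; exact slab_insert hη F _
            _ = _ := by simp only [mul_pow]; ring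
      _ = (stdGaussian E (slab η F) ^ k * ((ENNReal.ofReal η) ^ k * L) ^ j
            * (ENNReal.ofReal η) ^ k)
            * ∫⁻ ω, ((ENNReal.ofReal (dsp F (ι ω)))⁻¹) ^ k ∂lam := by
          rw [lintegral_const_mul]
          exact (((continuous_dsp F).measurable.comp hι).ennreal_ofReal.inv).pow_const k
      _ ≤ (stdGaussian E (slab η F) ^ k * ((ENNReal.ofReal η) ^ k * L) ^ j
            * (ENNReal.ofReal η) ^ k) * L := by
          gcongr; exact hL F (by omega)
      _ = _ := by ring

end Vale.Agent.P309
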