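import Vale.Agent.P309.Radon
import Vale.Agent.P309.Balls

/-!
From ball growth to non-concentration near subspaces, and the local information bound.
-/

namespace Vale.Agent.P309

open MeasureTheory ProbabilityTheory Metric Set Finset Filter
open scoped ENNReal RealInnerProductSpace Topology

variable {E : Type*} [NormedAddCommGroup E] [InnerProductSpace ℝ E] [FiniteDimensional ℝ E]
  [MeasurableSpace E] [BorelSpace E]
  {Ω : Type*} [MeasurableSpace Ω]

theorem ofReal_half_pow (m : ℕ) : (2 : ℝ≥0∞) ^ m * ENNReal.ofReal ((1 / 2 : ℝ) ^ m) = 1 := by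
  rw [← ENNReal.ofReal_ofNat, ← ENNReal.ofReal_pow (by norm_num),
    ← ENNReal.ofReal_mul (by positivity), ← mul_pow]
  norm_num

theorem tube (ν : Measure Ω) [IsFiniteMeasure ν] (ι : Ω → E) (hι : Measurable ι)
    (hι1 : ∀ᵐ ω ∂ν, ‖ι ω‖ ≤ 1) {n : ℕ} {K : ℝ≥0∞}
    (hBC : ∀ (w : E) (i : ℕ), 2 ^ (4 * n * i) * ν {ω | dist (ι ω) w ≤ rad i} ≤ K)
    (F : Finset E) (hF : F.card ≤ n) {s₁ : E} (hs : ‖s₁‖ ≤ 1) (i : ℕ) :
    2 ^ (3 * n * i) * ν {ω | dsp F (ι ω - s₁) ≤ (1 / 2) ^ i} ≤ K * 4 ^ n := by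
  set V := Submodule.span ℝ (F : Set E) with hV
  have hD : Module.finrank ℝ V ≤ n := (finrank_span_finset_le_card F).trans hF
  set D := Module.finrank ℝ V with hDdef
  set μ : Measure V := Measure.addHaar with hμ
  set ρ : ℝ := (1 / 2) ^ i with hρ
  have hρ0 : 0 < ρ := by positivity
  have hρ1 : ρ ≤ 1 := pow_le_one₀ (by norm_num) (by norm_num)
  have hb0 : μ (ball 0 1) ≠ 0 := (measure_ball_pos μ 0 one_pos).ne'
  have hbt : μ (ball 0 1) ≠ ∞ := measure_ball_lt_top.ne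
  have hA : MeasurableSet {ω | dsp F (ι ω - s₁) ≤ ρ} :=
    measurableSet_le ((continuous_dsp F).measurable.comp (hι.sub_const _)) measurable_const
  have hS1 : MeasurableSet {p : Ω × V | ‖p.2‖ ≤ 4} :=
    measurableSet_le (by fun_prop) measurable_const
  have hS2 : MeasurableSet {p : Ω × V | dist (ι p.1) (s₁ + (p.2 : E)) ≤ rad i} :=
    measurableSet_le (by fun_prop) measurable_const
  have hS := hS1.inter hS2
  set S := {p : Ω × V | ‖p.2‖ ≤ 4} ∩ {p : Ω × V | dist (ι p.1) (s₁ + (p.2 : E)) ≤ rad i}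
    with hSdef
  have h1 : (ENNReal.ofReal (ρ ^ D) * μ (ball 0 1)) * ν {ω | dsp F (ι ω - s₁) ≤ ρ}
      ≤ (ν.prod μ) S := by
    rw [Measure.prod_apply hS, ← lintegral_indicator_const hA]
    apply lintegral_mono_ae
    filter_upwards [hι1] with ω hω
    apply Set.indicator_apply_le
    intro hω'
    have hd : ‖ι ω - s₁ - V.starProjection (ι ω - s₁)‖ ≤ ρ := hω'
    set w₀ : V := ⟨V.starProjection (ι ω - s₁), V.starProjection_apply_mem _⟩ with hw₀
    rw [← Measure.addHaar_closedBall μ w₀ hρ0.le]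
    apply measure_mono
    intro w hw
    have hw' : ‖(w : E) - (w₀ : E)‖ ≤ ρ := by
      have : dist w w₀ ≤ ρ := hw
      rwa [dist_eq_norm] at this
    have hw₀n : ‖(w₀ : E)‖ ≤ 2 := by
      calc ‖(w₀ : E)‖ ≤ ‖ι ω - s₁‖ := V.norm_starProjection_apply_le _
        _ ≤ ‖ι ω‖ + ‖s₁‖ := norm_sub_le _ _
        _ ≤ 2 := by linarith
    constructor
    · show ‖(w : E)‖ ≤ 4
      calc ‖(w : E)‖ = ‖((w : E) - (w₀ : E)) + (w₀ : E)‖ := by rw [sub_add_cancel]
        _ ≤ ‖(w : E) - (w₀ : E)‖ + ‖(w₀ : E)‖ := norm_add_le _ _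
        _ ≤ 4 := by linarith
    · show dist (ι ω) (s₁ + (w : E)) ≤ rad i
      rw [dist_eq_norm]
      calc ‖ι ω - (s₁ + (w : E))‖
          = ‖(ι ω - s₁ - V.starProjection (ι ω - s₁)) - ((w : E) - (w₀ : E))‖ := by
            congr 1; simp only [hw₀]; abel
        _ ≤ _ := norm_sub_le _ _
        _ ≤ ρ + ρ := add_le_add hd hw'
        _ = rad i := by rw [rad, hρ]; ring
  have h2 : 2 ^ (4 * n * i) * (ν.prod μ) S ≤ K * (ENNReal.ofReal (4 ^ D) * μ (ball 0 1)) := by
    rw [Measure.prod_apply_symm hS, ← lintegral_const_mul' _ _ (by simp),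
      ← Measure.addHaar_closedBall μ 0 (by norm_num : (0 : ℝ) ≤ 4),
      ← lintegral_indicator_const measurableSet_closedBall]
    apply lintegral_mono
    intro w
    by_cases hw : w ∈ closedBall (0 : V) 4
    · rw [Set.indicator_of_mem hw]
      refine le_trans (mul_le_mul_right (measure_mono ?_) _) (hBC (s₁ + (w : E)) i)
      intro ω hω
      exact hω.2
    · rw [Set.indicator_of_notMem hw]
      have : (fun ω => (ω, w)) ⁻¹' S = ∅ := by
        ext ω
        simp only [Set.mem_preimage, Set.mem_empty_iff_false, iff_false]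
        intro h
        exact hw (by simpa using h.1)
      simp [this]
  have h3 : (2 ^ (4 * n * i) * ENNReal.ofReal (ρ ^ D) * ν {ω | dsp F (ι ω - s₁) ≤ ρ})
      * μ (ball 0 1) ≤ (K * ENNReal.ofReal (4 ^ D)) * μ (ball 0 1) := by
    calc _ = 2 ^ (4 * n * i) * ((ENNReal.ofReal (ρ ^ D) * μ (ball 0 1))
              * ν {ω | dsp F (ι ω - s₁) ≤ ρ}) := by ring
      _ ≤ 2 ^ (4 * n * i) * (ν.prod μ) S := by gcongr
      _ ≤ _ := h2
      _ = _ := by ring
  have h4 := (ENNReal.mul_le_mul_iff_left hb0 hbt).1 h3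
  have h5 : (2 : ℝ≥0∞) ^ (3 * n * i) ≤ 2 ^ (4 * n * i) * ENNReal.ofReal (ρ ^ D) := by
    have h6 : (1 / 2 : ℝ) ^ (n * i) ≤ ρ ^ D := by
      rw [hρ, ← pow_mul]
      exact pow_le_pow_of_le_one (by norm_num) (by norm_num) (by nlinarith)
    calc (2 : ℝ≥0∞) ^ (3 * n * i)
        = 2 ^ (3 * n * i) * (2 ^ (n * i) * ENNReal.ofReal ((1 / 2 : ℝ) ^ (n * i))) := by
          rw [ofReal_half_pow, mul_one]
      _ = 2 ^ (4 * n * i) * ENNReal.ofReal ((1 / 2 : ℝ) ^ (n * i)) := by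
          rw [← mul_assoc, ← pow_add]; congr 2; ring
      _ ≤ _ := by gcongr
  have h7 : ENNReal.ofReal (4 ^ D) ≤ 4 ^ n := by
    rw [ENNReal.ofReal_pow (by norm_num), ENNReal.ofReal_ofNat]
    exact pow_le_pow_right₀ (by norm_num) hD
  calc _ ≤ 2 ^ (4 * n * i) * ENNReal.ofReal (ρ ^ D) * ν {ω | dsp F (ι ω - s₁) ≤ ρ} := by gcongr
    _ ≤ _ := h4
    _ ≤ _ := by gcongr

theorem inv_pow_le_tsum {x : ℝ} (hx : 0 ≤ x) (m : ℕ) :
    ((ENNReal.ofReal x)⁻¹) ^ m ≤ 1 + ∑' i : ℕ,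
      {y : ℝ | y ≤ (1 / 2) ^ i}.indicator (fun _ => (2 : ℝ≥0∞) ^ (m * (i + 1))) x := by
  rcases hx.eq_or_lt with rfl | hx0
  · have : ∑' i : ℕ, {y : ℝ | y ≤ (1 / 2) ^ i}.indicator
        (fun _ => (2 : ℝ≥0∞) ^ (m * (i + 1))) 0 = ∞ := by
      rw [eq_top_iff, ← ENNReal.tsum_const_eq_top_of_ne_zero (α := ℕ) one_ne_zero]
      apply ENNReal.tsum_le_tsum
      intro i
      rw [Set.indicator_of_mem (by show (0 : ℝ) ≤ (1 / 2) ^ i; positivity)]
      exact one_le_pow₀ (by norm_num)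
    rw [this]; simp
  · rcases le_or_gt x 1 with h1 | h1
    · obtain ⟨i, hi1, hi2⟩ := exists_nat_pow_near_of_lt_one hx0 h1
        (show (0 : ℝ) < 1 / 2 by norm_num) (by norm_num)
      refine le_trans ?_ le_add_self
      refine le_trans ?_ (ENNReal.le_tsum i)
      rw [Set.indicator_of_mem (by exact hi2), mul_comm m, pow_mul]
      gcongr
      rw [ENNReal.inv_le_iff_le_mul (by simp) (by simp), ← ofReal_half_pow (i + 1), mul_comm]
      gcongr
    · refine le_trans ?_ le_self_add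
      apply pow_le_one₀ zero_le
      rw [ENNReal.inv_le_one]
      simpa using h1.le

theorem second_inv_moment (ν : Measure Ω) [IsFiniteMeasure ν] (hν : ν univ ≤ 1)
    (ι : Ω → E) (hι : Measurable ι)
    (hι1 : ∀ᵐ ω ∂ν, ‖ι ω‖ ≤ 1) {n : ℕ} (hn : 1 ≤ n) {K : ℝ≥0∞}
    (hBC : ∀ (w : E) (i : ℕ), 2 ^ (4 * n * i) * ν {ω | dist (ι ω) w ≤ rad i} ≤ K)
    (F : Finset E) (hF : F.card ≤ n) {s₁ : E} (hs : ‖s₁‖ ≤ 1) :
    ∫⁻ ω, ((ENNReal.ofReal (dsp F (ι ω - s₁)))⁻¹) ^ (2 * n) ∂ν ≤ 1 + 2 * K * 2 ^ (4 * n) := by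
  have hA : ∀ i : ℕ, MeasurableSet {ω | dsp F (ι ω - s₁) ≤ (1 / 2) ^ i} := fun i =>
    measurableSet_le ((continuous_dsp F).measurable.comp (hι.sub_const _)) measurable_const
  calc _ ≤ ∫⁻ ω, (1 + ∑' i : ℕ, {ω | dsp F (ι ω - s₁) ≤ (1 / 2) ^ i}.indicator
            (fun _ => (2 : ℝ≥0∞) ^ (2 * n * (i + 1))) ω) ∂ν :=
        lintegral_mono (fun ω => inv_pow_le_tsum (norm_nonneg _) (2 * n))
    _ = ν univ + ∑' i : ℕ, (2 : ℝ≥0∞) ^ (2 * n * (i + 1))
          * ν {ω | dsp F (ι ω - s₁) ≤ (1 / 2) ^ i} := by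
        rw [lintegral_add_left measurable_const,
          lintegral_tsum (fun i => (measurable_const.indicator (hA i)).aemeasurable)]
        simp_rw [lintegral_indicator_const (hA _)]
        simp
    _ ≤ 1 + ∑' i : ℕ, (K * 2 ^ (4 * n)) * (2⁻¹ : ℝ≥0∞) ^ i := by
        refine add_le_add hν (ENNReal.tsum_le_tsum (fun i => ?_))
        have h := tube ν ι hι hι1 hBC F hF hs i
        rw [← ENNReal.inv_pow, ← div_eq_mul_inv,
          ENNReal.le_div_iff_mul_le (Or.inl (by simp)) (Or.inl (by simp))]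
        calc _ = 2 ^ (2 * n) * (2 ^ (2 * n * i + i) * ν {ω | dsp F (ι ω - s₁) ≤ (1 / 2) ^ i}) := by
              rw [mul_add, mul_one, pow_add, pow_add]; ring
          _ ≤ 2 ^ (2 * n) * (2 ^ (3 * n * i) * ν {ω | dsp F (ι ω - s₁) ≤ (1 / 2) ^ i}) := by
              gcongr
              · norm_num
              · nlinarith
          _ ≤ 2 ^ (2 * n) * (K * 4 ^ n) := by gcongr
          _ = _ := by
              rw [show (4 : ℝ≥0∞) = 2 ^ 2 by norm_num, ← pow_mul,
                show 4 * n = 2 * n + 2 * n by ring, pow_add]; ring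
    _ = _ := by rw [ENNReal.tsum_mul_left, ENNReal.tsum_geometric_two]; ring

/-- The weight used to truncate the labels. -/
noncomputable def wt {k : ℕ} (y : Fin k → ℝ) : ℝ≥0∞ := ∏ i, ENNReal.ofReal (1 + y i ^ 2)

theorem meas_wt {k : ℕ} : Measurable (wt (k := k)) := by
  unfold wt; fun_prop

theorem tail_wt {k : ℕ} {v : E} (hv : ‖v‖ ≤ 1) {Θ : ℝ≥0∞} (hΘ0 : Θ ≠ 0) (hΘ : Θ ≠ ∞) :
    rows E k {X | Θ ≤ wt (lab X v)} ≤ 2 ^ k / Θ := by
  refine (meas_ge_le_lintegral_div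
    (meas_wt.comp (meas_lab measurable_id measurable_const)).aemeasurable hΘ0 hΘ).trans ?_
  gcongr
  have := lintegral_pi_pow (stdGaussian E) (fun x => ENNReal.ofReal (1 + ⟪x, v⟫ ^ 2))
    (by fun_prop) k
  refine this.le.trans ?_
  gcongr
  exact second_moment hv

theorem vol_wt {k : ℕ} {Θ : ℝ≥0∞} (hΘ : Θ ≠ ∞) :
    volume {y : Fin k → ℝ | wt y < Θ} ≤ Θ * 4 ^ k := by
  have hm : MeasurableSet {y : Fin k → ℝ | wt y < Θ} := measurableSet_lt meas_wt measurable_const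
  have h1 : ∫⁻ t : ℝ, ENNReal.ofReal (1 + t ^ 2)⁻¹ ≤ 4 := by
    rw [← ofReal_integral_eq_lintegral_ofReal integrable_inv_one_add_sq
      (Eventually.of_forall (fun x => by positivity)), integral_univ_inv_one_add_sq,
      ← ENNReal.ofReal_ofNat]
    exact ENNReal.ofReal_le_ofReal Real.pi_le_four
  have h2 := lintegral_pi_pow (volume : Measure ℝ) (fun t => ENNReal.ofReal (1 + t ^ 2)⁻¹)
    (by fun_prop) k
  rw [← lintegral_indicator_one hm]
  calc _ ≤ ∫⁻ y : Fin k → ℝ, Θ * ∏ i, ENNReal.ofReal (1 + y i ^ 2)⁻¹ := by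
        apply lintegral_mono
        intro y
        apply Set.indicator_apply_le
        intro hy
        have h3 : wt y * ∏ i, ENNReal.ofReal (1 + y i ^ 2)⁻¹ = 1 := by
          rw [wt, ← Finset.prod_mul_distrib]
          apply Finset.prod_eq_one
          intro i _
          rw [← ENNReal.ofReal_mul (by positivity), mul_inv_cancel₀ (by positivity)]
          simp
        simp only [Pi.one_apply]
        rw [← h3]
        gcongr
        exact le_of_lt hy
    _ = Θ * (∫⁻ t : ℝ, ENNReal.ofReal (1 + t ^ 2)⁻¹) ^ k := by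
        rw [lintegral_const_mul' _ _ hΘ, ← h2]; rfl
    _ ≤ _ := by gcongr

theorem local_bound {J : Type*} [Fintype J] (ν : Measure Ω) [IsFiniteMeasure ν]
    (hν : ν univ ≤ 1) (ι : Ω → E) (hι : Measurable ι)
    (hι1 : ∀ᵐ ω ∂ν, ‖ι ω‖ ≤ 1) {n : ℕ} (hn : 1 ≤ n) {K : ℝ≥0∞}
    (hBC : ∀ (w : E) (i : ℕ), 2 ^ (4 * n * i) * ν {ω | dist (ι ω) w ≤ rad i} ≤ K)
    (a : J → (Fin n → E) × (Fin n → ℝ) → ℝ≥0∞) (ha : ∀ j, Measurable (a j))
    (ha1 : ∀ p, ∑ j, a j p ≤ 1) {Θ t τ : ℝ≥0∞} (hΘ0 : Θ ≠ 0) (hΘ : Θ ≠ ∞)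
    (ht0 : t ≠ 0) (ht : t ≠ ∞) (hτ0 : τ ≠ 0) (hτ : τ ≠ ∞)
    (H : J → Set Ω) (hHν : ∀ j, τ * τ * ν (H j) ≤ 1) :
    ∑ j, ∫⁻ ω in H j, ∫⁻ X, a j (X, lab X (ι ω)) ∂(rows E n) ∂ν
      ≤ 2 ^ n / Θ + t * (Θ * 4 ^ n)
        + Fintype.card J * ((t ^ n)⁻¹ * (τ⁻¹ * (2 + 2 * K * 2 ^ (4 * n))) ^ n) := by
  set D : Set ((Fin n → E) × (Fin n → ℝ)) := {p | wt p.2 < Θ} with hD
  have hDm : MeasurableSet D := measurableSet_lt (meas_wt.comp measurable_snd) measurable_const
  have haj : ∀ j p, a j p ≤ 1 := fun j p =>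
    (Finset.single_le_sum (f := fun j => a j p) (fun _ _ => zero_le) (Finset.mem_univ j)).trans
      (ha1 p)
  have hl : Measurable (fun p : Ω × (Fin n → E) => (p.2, lab p.2 (ι p.1))) :=
    measurable_snd.prodMk (meas_lab measurable_snd (hι.comp measurable_fst))
  have hf : ∀ b : (Fin n → E) × (Fin n → ℝ) → ℝ≥0∞, Measurable b →
      Measurable (fun ω => ∫⁻ X, b (X, lab X (ι ω)) ∂(rows E n)) := by
    intro b hb
    have h1 : Measurable (fun p : Ω × (Fin n → E) => b (p.2, lab p.2 (ι p.1))) := hb.fun_comp hl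
    exact h1.lintegral_prod_right'
  have hlX : ∀ ω, Measurable (fun X : Fin n → E => (X, lab X (ι ω))) := fun ω =>
    measurable_id.prodMk (meas_lab measurable_id measurable_const)
  set L := τ⁻¹ * (2 + 2 * K * 2 ^ (4 * n)) with hL
  have hsplit : ∀ j, ∫⁻ ω in H j, ∫⁻ X, a j (X, lab X (ι ω)) ∂(rows E n) ∂ν
      ≤ ∫⁻ ω, ∫⁻ X, Dᶜ.indicator (a j) (X, lab X (ι ω)) ∂(rows E n) ∂ν
        + ∫⁻ ω in H j, ∫⁻ X, D.indicator (a j) (X, lab X (ι ω)) ∂(rows E n) ∂ν := by
    intro j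
    calc _ = ∫⁻ ω in H j, (∫⁻ X, Dᶜ.indicator (a j) (X, lab X (ι ω)) ∂(rows E n)
              + ∫⁻ X, D.indicator (a j) (X, lab X (ι ω)) ∂(rows E n)) ∂ν := by
          congr 1
          ext ω
          rw [← lintegral_add_left (((ha j).indicator hDm.compl).fun_comp (hlX ω))]
          congr 1
          ext X
          rw [Set.indicator_compl_add_self_apply]
      _ = _ := lintegral_add_left (hf _ ((ha j).indicator hDm.compl)) _
      _ ≤ _ := by
          gcongr
          exact Measure.restrict_le_self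
  have hout : ∑ j, ∫⁻ ω, ∫⁻ X, Dᶜ.indicator (a j) (X, lab X (ι ω)) ∂(rows E n) ∂ν
      ≤ 2 ^ n / Θ := by
    rw [← lintegral_finsetSum _ (fun j _ => hf _ ((ha j).indicator hDm.compl))]
    calc _ ≤ ∫⁻ _ω, 2 ^ n / Θ ∂ν := by
          apply lintegral_mono_ae
          filter_upwards [hι1] with ω hω
          refine le_trans ?_ (tail_wt hω hΘ0 hΘ)
          have hm : MeasurableSet {X : Fin n → E | Θ ≤ wt (lab X (ι ω))} :=
            measurableSet_le measurable_const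
              (meas_wt.comp (meas_lab measurable_id measurable_const))
          rw [← lintegral_finsetSum _
            (fun j _ => ((ha j).indicator hDm.compl).fun_comp (hlX ω)),
            ← lintegral_indicator_one hm]
          apply lintegral_mono
          intro X
          by_cases hX : Θ ≤ wt (lab X (ι ω))
          · rw [Set.indicator_of_mem (by exact hX)]
            refine le_trans (Finset.sum_le_sum (fun j _ => Set.indicator_le_self _ _ _)) (ha1 _)
          · have : (X, lab X (ι ω)) ∉ Dᶜ := by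
              simpa [hD] using hX
            simp [Set.indicator_of_notMem this]
      _ = 2 ^ n / Θ * ν univ := lintegral_const _
      _ ≤ 2 ^ n / Θ * 1 := by gcongr
      _ = _ := mul_one _
  have hin : ∀ j, ∫⁻ ω in H j, ∫⁻ X, D.indicator (a j) (X, lab X (ι ω)) ∂(rows E n) ∂ν
      ≤ t * ∫⁻ p, D.indicator (a j) p ∂((rows E n).prod volume) + (t ^ n)⁻¹ * L ^ n := by
    intro j
    refine (radon (ν.restrict (H j)) ι hι (k := n) (n := n) (L := L) ?_ _
      ((ha j).indicator hDm) (fun p => (Set.indicator_le_self _ _ _).trans (haj j p))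
      ht0 ht).trans ?_
    · filter_upwards [ae_restrict_of_ae hι1] with ω₁ hω₁ F hF
      have h2 := second_inv_moment ν hν ι hι hι1 hn hBC F hF hω₁
      calc _ ≤ ∫⁻ ω in H j, (τ + τ⁻¹ * ((ENNReal.ofReal (dsp F (ι ω - ι ω₁)))⁻¹) ^ (2 * n)) ∂ν := by
            apply lintegral_mono
            intro ω
            have := mul_le_split (g := 1) (x := ((ENNReal.ofReal (dsp F (ι ω - ι ω₁)))⁻¹) ^ n)
              (c := 1) le_rfl hτ0 hτ one_ne_zero (by simp) 1
            simp only [mul_one, one_mul, pow_one] at this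
            rw [← pow_mul, show n * (1 + 1) = 2 * n by ring] at this
            exact this
        _ = τ * ν (H j) + τ⁻¹ * ∫⁻ ω in H j,
              ((ENNReal.ofReal (dsp F (ι ω - ι ω₁)))⁻¹) ^ (2 * n) ∂ν := by
            rw [lintegral_add_left measurable_const, setLIntegral_const,
              lintegral_const_mul' _ _ (ENNReal.inv_ne_top.2 hτ0)]
        _ ≤ τ⁻¹ * 1 + τ⁻¹ * (1 + 2 * K * 2 ^ (4 * n)) := by
            apply add_le_add
            · calc τ * ν (H j) = τ⁻¹ * (τ * τ * ν (H j)) := by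
                    rw [← mul_assoc, ← mul_assoc, ENNReal.inv_mul_cancel hτ0 hτ, one_mul]
                _ ≤ _ := by gcongr; exact hHν j
            · exact mul_le_mul_right ((setLIntegral_le_lintegral _ _).trans h2) _
        _ = L := by rw [hL]; ring
    · gcongr
      calc _ ≤ 1 * L ^ n := by
            gcongr
            exact (Measure.restrict_apply_le _ _).trans hν
        _ = _ := one_mul _
  have hvol : ∑ j, ∫⁻ p, D.indicator (a j) p ∂((rows E n).prod volume) ≤ Θ * 4 ^ n := by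
    rw [← lintegral_finsetSum _ (fun j _ => (ha j).indicator hDm)]
    calc _ ≤ ∫⁻ p, D.indicator 1 p ∂((rows E n).prod volume) := by
          apply lintegral_mono
          intro p
          by_cases hp : p ∈ D
          · simp only [Set.indicator_of_mem hp]; exact ha1 p
          · simp [Set.indicator_of_notMem hp]
      _ = ((rows E n).prod volume) D := lintegral_indicator_one hDm
      _ = volume {y : Fin n → ℝ | wt y < Θ} := by
          have : D = Set.univ ×ˢ {y : Fin n → ℝ | wt y < Θ} := by ext p; simp [hD]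
          rw [this, Measure.prod_prod, measure_univ, one_mul]
      _ ≤ _ := vol_wt hΘ
  calc _ ≤ ∑ j, (∫⁻ ω, ∫⁻ X, Dᶜ.indicator (a j) (X, lab X (ι ω)) ∂(rows E n) ∂ν
        + (t * ∫⁻ p, D.indicator (a j) p ∂((rows E n).prod volume) + (t ^ n)⁻¹ * L ^ n)) :=
        Finset.sum_le_sum (fun j _ => (hsplit j).trans (by gcongr; exact hin j))
    _ = ∑ j, ∫⁻ ω, ∫⁻ X, Dᶜ.indicator (a j) (X, lab X (ι ω)) ∂(rows E n) ∂ν
        + t * ∑ j, ∫⁻ p, D.indicator (a j) p ∂((rows E n).prod volume)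
        + Fintype.card J * ((t ^ n)⁻¹ * L ^ n) := by
        rw [Finset.sum_add_distrib, Finset.sum_add_distrib, Finset.mul_sum, Finset.sum_const,
          Finset.card_univ, nsmul_eq_mul, add_assoc]
    _ ≤ _ := by gcongr

end Vale.Agent.P309
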