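import Vale.Agent.P309.Reflect

/-!
The sample lower bound for learners with quadratic memory.
-/

namespace Vale.Agent.P309

open MeasureTheory ProbabilityTheory Metric Set Finset Filter
open scoped ENNReal RealInnerProductSpace Topology

theorem sq_le_two_pow {n : ℕ} (hn : 4 ≤ n) : n * n ≤ 2 ^ n := by
  induction n, hn using Nat.le_induction with
  | base => norm_num
  | succ n hn ih => rw [pow_succ]; nlinarith

theorem main_nat (K : ℕ) : ∃ n₀ u₀ C : ℕ, 1 ≤ n₀ ∧ 1 ≤ u₀ ∧ 1 ≤ C ∧ ∀ n, n₀ ≤ n → ∀ d, 8 * n ≤ d →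
    d ≤ 16 * n → ∀ u, u₀ ≤ u → ∀ ε : ℝ, 2 * ε ≤ rad u → ∀ N T : ℕ, N ≤ 2 ^ (K * n * n) →
    ∀ L : Learner d N, 2 / 3 ≤ L.success T ε → n * u ≤ C * T := by
  refine ⟨12 * (2 * K + 41) + 5, 40 + 2 * (369 + 2 * (2 * K + 41)), 2 * (369 + 2 * (2 * K + 41)),
    by omega, by omega, by omega, ?_⟩
  intro n hn d h1 h2 u hu ε hε N T hN L hsucc
  set a := 2 * K + 41 with ha
  set c := 369 + 2 * a with hc
  rcases le_or_gt (n * u) T with hT | hT
  · exact hT.trans (Nat.le_mul_of_pos_left _ (by omega))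
  have hpow : 12 * a * n < 2 ^ n := by
    have := sq_le_two_pow (n := n) (by omega)
    have h3 : (12 * a + 1) * n ≤ n * n := Nat.mul_le_mul_right _ (by omega)
    nlinarith
  rcases le_or_gt u ((K + 40) * n) with hcase | hcase
  · have hT1 : T + 1 ≤ 2 ^ ((K + 40) * n * n) := by
      have h3 : n * u ≤ (K + 40) * n * n := by
        rw [mul_comm n u]; exact Nat.mul_le_mul_right _ hcase
      have := Nat.lt_two_pow_self (n := (K + 40) * n * n)
      omega
    have hZ : N * 2 * (T + 1) ≤ 2 ^ (a * n * n) := by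
      calc N * 2 * (T + 1) ≤ 2 ^ (K * n * n) * 2 ^ (n * n) * 2 ^ ((K + 40) * n * n) := by
            apply Nat.mul_le_mul (Nat.mul_le_mul hN _) hT1
            calc 2 = 2 ^ 1 := rfl
              _ ≤ _ := Nat.pow_le_pow_right (by norm_num) (Nat.mul_pos (by omega) (by omega))
        _ = _ := by rw [← pow_add, ← pow_add]; congr 1; rw [ha]; ring
    have hn0 : 0 < n := by omega
    have hb1 : T / n < u := by rw [Nat.div_lt_iff_lt_mul hn0, mul_comm]; exact hT
    have hua : u ≤ a * n := hcase.trans (Nat.mul_le_mul_right _ (by omega))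
    have hTb : T ≤ (T / n + 1) * n := by
      have := Nat.lt_div_mul_add (a := T) hn0
      rw [add_mul]; omega
    have h := learner_chain (a := a) (b := T / n + 1) (u := u) (by omega) h1 h2 L T hZ
      (by rw [mul_assoc] at hpow; omega) hTb (by rw [mul_assoc] at hpow; omega)
      (by rw [mul_assoc] at hpow; omega) hε hsucc
    rw [← hc] at h
    have h4 : 1 ≤ T / n := by
      by_contra h5
      have : T / n = 0 := Nat.lt_one_iff.1 (not_le.1 h5)
      rw [this] at h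
      omega
    have h5 : u ≤ 2 * c * (T / n) := by nlinarith
    calc n * u ≤ n * (2 * c * (T / n)) := Nat.mul_le_mul_left _ h5
      _ = 2 * c * (n * (T / n)) := by ring
      _ ≤ _ := Nat.mul_le_mul_left _ (Nat.mul_div_le T n)
  · exfalso
    have h := learner_count (n := n) (by omega) h1 h2 L T hε hsucc
    have hT1 : T + 1 ≤ 2 ^ (n * u) := by
      have := Nat.lt_two_pow_self (n := n * u)
      omega
    have h3 : 2 ^ (7 * n * u) ≤ 2 ^ (K * n * n + n * u + 37 * n + 2) := by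
      calc _ ≤ 2 * (N * 2 * (T + 1) * 2 ^ (37 * n)) := h
        _ ≤ 2 * (2 ^ (K * n * n) * 2 * 2 ^ (n * u) * 2 ^ (37 * n)) := by gcongr
        _ = _ := by ring
    rw [Nat.pow_le_pow_iff_right (by norm_num)] at h3
    have h4 : (K + 40) * n * n ≤ u * n := Nat.mul_le_mul_right _ hcase.le
    have h5 : n ≤ n * n := Nat.le_mul_self n
    have h6 : 1 ≤ n := by omega
    nlinarith

theorem main_real (A : ℝ) : ∃ c : ℝ, 0 < c ∧ ∃ d₀ : ℕ, ∀ d : ℕ, d₀ ≤ d → ∀ ε : ℝ, 0 < ε →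
    ∀ M N T : ℕ, (M : ℝ) ≤ A * (d : ℝ) ^ 2 → N ≤ 2 ^ M → ∀ L : Learner d N,
    2 / 3 ≤ L.success T ε → c * d * Real.log (1 / ε) ≤ T := by
  obtain ⟨n₀, u₀, C, hn₀, hu₀, hC, H⟩ := main_nat (256 * ⌈A⌉₊)
  have hC' : (1 : ℝ) ≤ C := by exact_mod_cast hC
  have hD : 0 < 32 * (C : ℝ) + 3 * Real.exp u₀ := by positivity
  refine ⟨1 / (32 * C + 3 * Real.exp u₀), by positivity, 8 * n₀, ?_⟩
  intro d hd ε hε M N T hM hN L hsucc
  have hT0 : (0 : ℝ) ≤ T := Nat.cast_nonneg T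
  have hd0 : (0 : ℝ) ≤ d := Nat.cast_nonneg d
  rw [mul_assoc, one_div, inv_mul_le_iff₀ hD]
  have hexp : Real.exp (-Real.log (1 / ε)) = ε := by
    rw [Real.exp_neg, Real.exp_log (by positivity)]; simp
  set l := Real.log (1 / ε) with hl
  rcases le_or_gt l 0 with hl0 | hl0
  · exact (mul_nonpos_of_nonneg_of_nonpos hd0 hl0).trans (by positivity)
  rcases le_or_gt (u₀ : ℝ) l with hl1 | hl1
  · have hu : u₀ ≤ ⌊l⌋₊ := Nat.le_floor hl1
    have hu1 : (1 : ℝ) ≤ ⌊l⌋₊ := by exact_mod_cast hu₀.trans hu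
    have hn : n₀ ≤ d / 8 := by omega
    have h2 : d ≤ 16 * (d / 8) := by omega
    have hrad : 2 * ε ≤ rad ⌊l⌋₊ := by
      unfold rad
      have h3 : Real.exp (-1) ≤ 1 / 2 := by
        rw [Real.exp_neg, one_div]
        apply inv_anti₀ (by norm_num)
        linarith [Real.add_one_le_exp (1 : ℝ)]
      have h4 : ε ≤ Real.exp (-1) ^ ⌊l⌋₊ := by
        rw [← Real.exp_nat_mul, ← hexp]
        apply Real.exp_le_exp.2
        linarith [Nat.floor_le hl0.le]
      have := pow_le_pow_left₀ (Real.exp_pos _).le h3 ⌊l⌋₊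
      linarith
    have hMn : M ≤ 256 * ⌈A⌉₊ * (d / 8) * (d / 8) := by
      have h3 : (M : ℝ) ≤ (⌈A⌉₊ * (d * d) : ℕ) := by
        push_cast
        calc (M : ℝ) ≤ A * (d : ℝ) ^ 2 := hM
          _ ≤ ⌈A⌉₊ * (d : ℝ) ^ 2 := by gcongr; exact Nat.le_ceil A
          _ = _ := by ring
      have h4 : M ≤ ⌈A⌉₊ * (d * d) := by exact_mod_cast h3
      calc M ≤ ⌈A⌉₊ * (d * d) := h4
        _ ≤ ⌈A⌉₊ * ((16 * (d / 8)) * (16 * (d / 8))) := by gcongr
        _ = _ := by ring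
    have h := H (d / 8) hn d (by omega) h2 ⌊l⌋₊ hu ε hrad N T
      (hN.trans (Nat.pow_le_pow_right (by norm_num) hMn)) L hsucc
    have h' : ((d / 8 : ℕ) : ℝ) * ⌊l⌋₊ ≤ C * T := by exact_mod_cast h
    have h2' : (d : ℝ) ≤ 16 * ((d / 8 : ℕ) : ℝ) := by exact_mod_cast h2
    have h5 : l ≤ 2 * ⌊l⌋₊ := by linarith [Nat.lt_floor_add_one l]
    calc (d : ℝ) * l ≤ (16 * ((d / 8 : ℕ) : ℝ)) * (2 * ⌊l⌋₊) := by gcongr
      _ = 32 * (((d / 8 : ℕ) : ℝ) * ⌊l⌋₊) := by ring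
      _ ≤ 32 * (C * T) := by gcongr
      _ ≤ _ := by nlinarith [Real.exp_pos (u₀ : ℝ)]
  · have hε1 : ε < 1 := by
      rw [← hexp, ← Real.exp_zero]; exact Real.exp_lt_exp.2 (by linarith)
    have h := learner_linear (by omega) L T hε.le hε1 hsucc
    have h3 : l ≤ (1 - ε ^ 2) * Real.exp u₀ := by
      have h4 : l ≤ 1 / ε - 1 := Real.log_le_sub_one_of_pos (by positivity)
      have h5 : 1 / ε ≤ Real.exp u₀ := by
        rw [← Real.exp_log (show 0 < 1 / ε by positivity)]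
        exact Real.exp_le_exp.2 hl1.le
      have h6 : 1 / ε - 1 = (1 - ε) * (1 / ε) := by field_simp
      calc l ≤ (1 - ε) * (1 / ε) := h6 ▸ h4
        _ ≤ _ := mul_le_mul (by nlinarith) h5 (by positivity) (by nlinarith)
    calc (d : ℝ) * l ≤ d * ((1 - ε ^ 2) * Real.exp u₀) := by gcongr
      _ = (d * (1 - ε ^ 2)) * Real.exp u₀ := by ring
      _ ≤ (3 * T) * Real.exp u₀ := by gcongr
      _ ≤ _ := by nlinarith

end Vale.Agent.P309
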