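import Vale.Agent.P309.Gauss

/-!
An `L^q` bound for the random-slice transform of a measure that does not concentrate near
low-dimensional subspaces.
-/

namespace Vale.Agent.P309

open MeasureTheory ProbabilityTheory Metric Set Finset Filter
open scoped ENNReal RealInnerProductSpace Topology

variable {E : Type*} [NormedAddCommGroup E] [InnerProductSpace ℝ E] [FiniteDimensional ℝ E]
  [MeasurableSpace E] [BorelSpace E]
  {Ω : Type*} [MeasurableSpace Ω]

theorem meas_lab {α : Type*} [MeasurableSpace α] {k : ℕ} {X : α → Fin k → E} {s : α → E}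
    (hX : Measurable X) (hs : Measurable s) : Measurable (fun a => lab (X a) (s a)) := by
  unfold lab
  fun_prop

theorem smooth_moment (lam : Measure Ω) [IsFiniteMeasure lam]
    (ι : Ω → E) (hι : Measurable ι) {k n : ℕ} {η : ℝ} (hη : 0 < η) {L : ℝ≥0∞}
    (hL : ∀ᵐ ω₁ ∂lam, ∀ F : Finset E, F.card ≤ n →
      ∫⁻ ω, ((ENNReal.ofReal (dsp F (ι ω - ι ω₁)))⁻¹) ^ k ∂lam ≤ L) :
    ∫⁻ X, ∫⁻ y : Fin k → ℝ, (lam {ω | dist (lab X (ι ω)) y ≤ η}) ^ (n + 1) ∂volume ∂(rows E k)
      ≤ (ENNReal.ofReal (2 * η) ^ k) ^ (n + 1) * (lam univ * L ^ n) := by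
  set c := ENNReal.ofReal (2 * η) ^ k with hc
  set G : (Fin k → E) → Ω → ℝ≥0∞ :=
    fun X ω₁ => lam {ω | ∀ i, |⟪X i, ι ω - ι ω₁⟫| ≤ 2 * η} with hG
  have hS : MeasurableSet {p : ((Fin k → E) × Ω) × Ω |
      ∀ i, |⟪p.1.1 i, ι p.2 - ι p.1.2⟫| ≤ 2 * η} := by
    have : {p : ((Fin k → E) × Ω) × Ω | ∀ i, |⟪p.1.1 i, ι p.2 - ι p.1.2⟫| ≤ 2 * η}
        = ⋂ i, {p : ((Fin k → E) × Ω) × Ω | |⟪p.1.1 i, ι p.2 - ι p.1.2⟫| ≤ 2 * η} := by
      ext p; simp
    rw [this]
    exact MeasurableSet.iInter (fun i => measurableSet_le (by fun_prop) measurable_const)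
  have hGm : Measurable (Function.uncurry G) := measurable_measure_prodMk_left hS
  have step1 : ∀ X : Fin k → E,
      ∫⁻ y : Fin k → ℝ, (lam {ω | dist (lab X (ι ω)) y ≤ η}) ^ (n + 1) ∂volume
        ≤ ∫⁻ ω₁, c * G X ω₁ ^ n ∂lam := by
    intro X
    have hl : Measurable (fun ω => lab X (ι ω)) := meas_lab measurable_const hι
    have hT : MeasurableSet {p : (Fin k → ℝ) × Ω | dist (lab X (ι p.2)) p.1 ≤ η} :=
      measurableSet_le ((hl.comp measurable_snd).dist measurable_fst) measurable_const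
    set H : (Fin k → ℝ) → Ω → ℝ≥0∞ := fun y ω₁ =>
      {p : (Fin k → ℝ) × Ω | dist (lab X (ι p.2)) p.1 ≤ η}.indicator
        (fun p => G X p.2 ^ n) (y, ω₁) with hH
    have hHm : Measurable (Function.uncurry H) :=
      Measurable.indicator (((hGm.comp measurable_prodMk_left).comp measurable_snd).pow_const n) hT
    calc _ ≤ ∫⁻ y : Fin k → ℝ, ∫⁻ ω₁, H y ω₁ ∂lam ∂volume := by
          apply lintegral_mono
          intro y
          have hm : MeasurableSet {ω | dist (lab X (ι ω)) y ≤ η} := measurable_prodMk_left hT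
          simp only
          rw [pow_succ, ← lintegral_indicator_const hm]
          apply lintegral_mono
          intro ω₁
          by_cases h : dist (lab X (ι ω₁)) y ≤ η
          · simp only [hH]
            rw [Set.indicator_of_mem (by exact h), Set.indicator_of_mem (by exact h)]
            gcongr
            apply measure_mono
            intro ω hω i
            have h1 : dist (lab X (ι ω) i) (y i) ≤ η := (dist_le_pi_dist _ _ i).trans hω
            have h2 : dist (lab X (ι ω₁) i) (y i) ≤ η := (dist_le_pi_dist _ _ i).trans h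
            rw [Real.dist_eq, abs_le] at h1 h2
            simp only [lab] at h1 h2
            rw [inner_sub_right, abs_le]
            constructor <;> linarith
          · rw [Set.indicator_of_notMem (by exact h)]; exact zero_le
      _ = ∫⁻ ω₁, ∫⁻ y : Fin k → ℝ, H y ω₁ ∂volume ∂lam :=
          lintegral_lintegral_swap hHm.aemeasurable
      _ = _ := by
          congr 1
          ext ω₁
          have : (fun y => H y ω₁) = (closedBall (lab X (ι ω₁)) η).indicator
              (fun _ => G X ω₁ ^ n) := by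
            ext y
            simp only [hH, Set.indicator, Set.mem_ofPred_eq, mem_closedBall, dist_comm y]
          rw [this, lintegral_indicator_const measurableSet_closedBall,
            Real.volume_pi_closedBall _ hη.le, Fintype.card_fin,
            ENNReal.ofReal_pow (by linarith), mul_comm]
  calc _ ≤ ∫⁻ X, ∫⁻ ω₁, c * G X ω₁ ^ n ∂lam ∂(rows E k) := lintegral_mono step1
    _ = ∫⁻ ω₁, ∫⁻ X, c * G X ω₁ ^ n ∂(rows E k) ∂lam :=
        lintegral_lintegral_swap ((hGm.pow_const n).const_mul c).aemeasurable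
    _ ≤ ∫⁻ _ω₁, c * (c * L) ^ n ∂lam := by
        apply lintegral_mono_ae
        filter_upwards [hL] with ω₁ h
        have hG1 : Measurable (fun X => G X ω₁ ^ n) :=
          (hGm.comp measurable_prodMk_right).pow_const n
        rw [lintegral_const_mul _ hG1]
        gcongr
        have := moment lam (fun ω => ι ω - ι ω₁) (hι.sub_const _) (k := k) (n := n)
          (η := 2 * η) (by linarith) h n ∅ (by simp)
        have e0 : slab (2 * η) (∅ : Finset E) = univ := by simp [slab]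
        rw [e0, Set.pi_univ, Measure.restrict_univ, measure_univ, one_pow, one_mul] at this
        exact this
    _ = _ := by
        rw [lintegral_const, mul_pow]; ring

theorem mul_le_split {g x t c : ℝ≥0∞} (hg : g ≤ 1) (ht0 : t ≠ 0) (ht : t ≠ ∞) (hc0 : c ≠ 0)
    (hc : c ≠ ∞) (n : ℕ) : g * x ≤ t * c * g + ((t * c) ^ n)⁻¹ * x ^ (n + 1) := by
  rcases le_or_gt x (t * c) with h | h
  · calc g * x ≤ g * (t * c) := by gcongr
      _ = t * c * g := mul_comm _ _
      _ ≤ _ := le_self_add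
  · have h0 : (t * c) ^ n ≠ 0 := pow_ne_zero _ (mul_ne_zero ht0 hc0)
    have h1 : (t * c) ^ n ≠ ∞ := ENNReal.pow_ne_top (ENNReal.mul_ne_top ht hc)
    calc g * x ≤ 1 * x := by gcongr
      _ = ((t * c) ^ n)⁻¹ * ((t * c) ^ n * x) := by
          rw [← mul_assoc, ENNReal.inv_mul_cancel h0 h1]
      _ ≤ ((t * c) ^ n)⁻¹ * (x ^ n * x) := by gcongr
      _ ≤ _ := by rw [← pow_succ]; exact le_add_self

theorem smooth_bound (lam : Measure Ω) [IsFiniteMeasure lam]
    (ι : Ω → E) (hι : Measurable ι) {k n : ℕ} {η : ℝ} (hη : 0 < η) {L : ℝ≥0∞}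
    (hL : ∀ᵐ ω₁ ∂lam, ∀ F : Finset E, F.card ≤ n →
      ∫⁻ ω, ((ENNReal.ofReal (dsp F (ι ω - ι ω₁)))⁻¹) ^ k ∂lam ≤ L)
    (g : (Fin k → E) × (Fin k → ℝ) → ℝ≥0∞) (hg : Measurable g) (hg1 : ∀ p, g p ≤ 1)
    {t : ℝ≥0∞} (ht0 : t ≠ 0) (ht : t ≠ ∞) :
    ∫⁻ p : (Fin k → E) × Ω, (ENNReal.ofReal (2 * η) ^ k)⁻¹ *
        ∫⁻ y in closedBall (lab p.1 (ι p.2)) η, g (p.1, y) ∂volume ∂((rows E k).prod lam)
      ≤ t * ∫⁻ p, g p ∂((rows E k).prod volume) + (t ^ n)⁻¹ * (lam univ * L ^ n) := by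
  set c := ENNReal.ofReal (2 * η) ^ k with hc
  have hc0 : c ≠ 0 := pow_ne_zero _ (by simpa using hη)
  have hct : c ≠ ∞ := ENNReal.pow_ne_top ENNReal.ofReal_ne_top
  have hT : MeasurableSet {q : ((Fin k → E) × Ω) × (Fin k → ℝ) |
      dist (lab q.1.1 (ι q.1.2)) q.2 ≤ η} :=
    measurableSet_le ((meas_lab (by fun_prop) (by fun_prop)).dist measurable_snd) measurable_const
  set H : (Fin k → E) × Ω → (Fin k → ℝ) → ℝ≥0∞ := fun p y =>
    {q : ((Fin k → E) × Ω) × (Fin k → ℝ) | dist (lab q.1.1 (ι q.1.2)) q.2 ≤ η}.indicator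
      (fun q => g (q.1.1, q.2)) (p, y) with hH
  have hHm : Measurable (Function.uncurry H) :=
    Measurable.indicator (hg.comp (by fun_prop)) hT
  have e1 : ∀ p : (Fin k → E) × Ω,
      ∫⁻ y in closedBall (lab p.1 (ι p.2)) η, g (p.1, y) ∂volume = ∫⁻ y, H p y ∂volume := by
    intro p
    rw [← lintegral_indicator measurableSet_closedBall]
    congr 1
    ext y
    simp only [hH, Set.indicator, Set.mem_ofPred_eq, mem_closedBall, dist_comm y]
  have hT2 : MeasurableSet {q : ((Fin k → E) × (Fin k → ℝ)) × Ω |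
      dist (lab q.1.1 (ι q.2)) q.1.2 ≤ η} :=
    measurableSet_le ((meas_lab (by fun_prop) (by fun_prop)).dist (by fun_prop)) measurable_const
  have hLam : Measurable (fun p : (Fin k → E) × (Fin k → ℝ) =>
      lam {ω | dist (lab p.1 (ι ω)) p.2 ≤ η}) := measurable_measure_prodMk_left hT2
  simp_rw [e1]
  rw [lintegral_const_mul _ hHm.lintegral_prod_right,
    lintegral_prod _ hHm.lintegral_prod_right.aemeasurable]
  have e2 : ∀ X : Fin k → E, ∫⁻ ω, ∫⁻ y, H (X, ω) y ∂volume ∂lam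
      = ∫⁻ y, g (X, y) * lam {ω | dist (lab X (ι ω)) y ≤ η} ∂volume := by
    intro X
    have hmap : Measurable (fun q : Ω × (Fin k → ℝ) => ((X, q.1), q.2)) := by fun_prop
    have hHX0 : Measurable (fun q : Ω × (Fin k → ℝ) => Function.uncurry H ((X, q.1), q.2)) :=
      hHm.fun_comp hmap
    have hHX : Measurable (Function.uncurry (fun ω y => H (X, ω) y)) := hHX0
    rw [lintegral_lintegral_swap hHX.aemeasurable]
    congr 1
    ext y
    have hm : MeasurableSet {ω | dist (lab X (ι ω)) y ≤ η} :=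
      measurable_prodMk_left (x := (X, y)) hT2
    rw [← lintegral_indicator_const hm]
    congr 1
  simp_rw [e2]
  have h3 := smooth_moment lam ι hι hη hL
  calc c⁻¹ * ∫⁻ X, ∫⁻ y, g (X, y) * lam {ω | dist (lab X (ι ω)) y ≤ η} ∂volume ∂(rows E k)
      ≤ c⁻¹ * ∫⁻ X, ∫⁻ y, (t * c * g (X, y) + ((t * c) ^ n)⁻¹
          * (lam {ω | dist (lab X (ι ω)) y ≤ η}) ^ (n + 1)) ∂volume ∂(rows E k) := by
        gcongr with X y
        exact mul_le_split (hg1 _) ht0 ht hc0 hct n
    _ = c⁻¹ * (t * c * ∫⁻ p, g p ∂((rows E k).prod volume) + ((t * c) ^ n)⁻¹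
          * ∫⁻ X, ∫⁻ y, (lam {ω | dist (lab X (ι ω)) y ≤ η}) ^ (n + 1) ∂volume ∂(rows E k)) := by
        congr 1
        rw [← lintegral_prod _ (hLam.pow_const (n + 1)).aemeasurable,
          ← lintegral_const_mul _ (hLam.pow_const (n + 1)), ← lintegral_const_mul _ hg,
          ← lintegral_add_left (hg.const_mul _)]
        exact (lintegral_prod _ ((hg.const_mul _).add
            ((hLam.pow_const (n + 1)).const_mul _)).aemeasurable).symm
    _ ≤ c⁻¹ * (t * c * ∫⁻ p, g p ∂((rows E k).prod volume) + ((t * c) ^ n)⁻¹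
          * (c ^ (n + 1) * (lam univ * L ^ n))) := by gcongr
    _ = (c⁻¹ * c) * (t * ∫⁻ p, g p ∂((rows E k).prod volume)) + (c⁻¹ * c) * ((c ^ n)⁻¹ * c ^ n)
          * ((t ^ n)⁻¹ * (lam univ * L ^ n)) := by
        rw [mul_pow, ENNReal.mul_inv (Or.inl (pow_ne_zero _ ht0))
          (Or.inl (ENNReal.pow_ne_top ht))]
        ring
    _ = _ := by
        rw [ENNReal.inv_mul_cancel hc0 hct,
          ENNReal.inv_mul_cancel (pow_ne_zero _ hc0) (ENNReal.pow_ne_top hct)]
        simp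

theorem radon (lam : Measure Ω) [IsFiniteMeasure lam]
    (ι : Ω → E) (hι : Measurable ι) {k n : ℕ} {L : ℝ≥0∞}
    (hL : ∀ᵐ ω₁ ∂lam, ∀ F : Finset E, F.card ≤ n →
      ∫⁻ ω, ((ENNReal.ofReal (dsp F (ι ω - ι ω₁)))⁻¹) ^ k ∂lam ≤ L)
    (a : (Fin k → E) × (Fin k → ℝ) → ℝ≥0∞) (ha : Measurable a) (ha1 : ∀ p, a p ≤ 1)
    {t : ℝ≥0∞} (ht0 : t ≠ 0) (ht : t ≠ ∞) :
    ∫⁻ ω, ∫⁻ X, a (X, lab X (ι ω)) ∂(rows E k) ∂lam
      ≤ t * ∫⁻ p, a p ∂((rows E k).prod volume) + (t ^ n)⁻¹ * (lam univ * L ^ n) := by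
  have hl : Measurable (fun p : (Fin k → E) × Ω => (p.1, lab p.1 (ι p.2))) :=
    measurable_fst.prodMk (meas_lab measurable_fst (hι.comp measurable_snd))
  have hal : Measurable (fun p : (Fin k → E) × Ω => a (p.1, lab p.1 (ι p.2))) := ha.comp hl
  rw [← lintegral_prod_symm' _ hal]
  apply ENNReal.le_of_forall_pos_le_add
  intro ε hε _
  have hεt : (ε : ℝ≥0∞) / t ≠ 0 := ENNReal.div_ne_zero.2 ⟨by simpa using hε.ne', ht⟩
  obtain ⟨g, hag, hlsc, hint⟩ :=
    exists_le_lowerSemicontinuous_lintegral_ge ((rows E k).prod volume) a ha hεt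
  have hgm : Measurable g := hlsc.measurable
  set g' : (Fin k → E) × (Fin k → ℝ) → ℝ≥0∞ := fun p => min (g p) 1 with hg'
  have hg'm : Measurable g' := hgm.min measurable_const
  set η : ℕ → ℝ := fun m => 1 / ((m : ℝ) + 1) with hη
  have hηpos : ∀ m, 0 < η m := fun m => by simp only [hη]; positivity
  set Φ : ℕ → (Fin k → E) × Ω → ℝ≥0∞ := fun m p => (ENNReal.ofReal (2 * η m) ^ k)⁻¹ *
        ∫⁻ y in closedBall (lab p.1 (ι p.2)) (η m), g' (p.1, y) ∂volume with hΦ
  have hΦm : ∀ m, Measurable (Φ m) := by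
    intro m
    have hT : MeasurableSet {q : ((Fin k → E) × Ω) × (Fin k → ℝ) |
        dist q.2 (lab q.1.1 (ι q.1.2)) ≤ η m} :=
      measurableSet_le (measurable_snd.dist (meas_lab (by fun_prop) (by fun_prop)))
        measurable_const
    have h1 : Measurable (fun q : ((Fin k → E) × Ω) × (Fin k → ℝ) =>
        {q : ((Fin k → E) × Ω) × (Fin k → ℝ) |
          dist q.2 (lab q.1.1 (ι q.1.2)) ≤ η m}.indicator (fun q => g' (q.1.1, q.2)) q) :=
      Measurable.indicator (hg'm.comp (by fun_prop)) hT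
    have h2 := h1.lintegral_prod_right' (ν := (volume : Measure (Fin k → ℝ)))
    refine Measurable.const_mul ?_ _
    convert h2 using 2 with p
    rw [← lintegral_indicator measurableSet_closedBall]
    rfl
  have hpt : ∀ p : (Fin k → E) × Ω,
      a (p.1, lab p.1 (ι p.2)) ≤ liminf (fun m => Φ m p) atTop := by
    intro p
    apply le_of_forall_lt_imp_le_of_dense
    intro c hc
    apply le_liminf_of_le (by isBoundedDefault)
    have h1 : c < g (p.1, lab p.1 (ι p.2)) := hc.trans_le (hag _)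
    have h2 : c < 1 := hc.trans_le (ha1 _)
    have h3 : ∀ᶠ q in 𝓝 (p.1, lab p.1 (ι p.2)), c < g q := hlsc _ c h1
    have h4 : ∀ᶠ y in 𝓝 (lab p.1 (ι p.2)), c < g (p.1, y) :=
      (Continuous.prodMk_right p.1).continuousAt.eventually h3
    obtain ⟨δ, hδ, hball⟩ := Metric.eventually_nhds_iff.1 h4
    have h5 : ∀ᶠ m in atTop, η m < δ :=
      tendsto_one_div_add_atTop_nhds_zero_nat.eventually (gt_mem_nhds hδ)
    filter_upwards [h5] with m hm
    have hc0 : ENNReal.ofReal (2 * η m) ^ k ≠ 0 := pow_ne_zero _ (by simpa using hηpos m)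
    have hct : ENNReal.ofReal (2 * η m) ^ k ≠ ∞ := ENNReal.pow_ne_top ENNReal.ofReal_ne_top
    calc c = (ENNReal.ofReal (2 * η m) ^ k)⁻¹ *
            ∫⁻ _y in closedBall (lab p.1 (ι p.2)) (η m), c ∂volume := by
          rw [setLIntegral_const, Real.volume_pi_closedBall _ (hηpos m).le, Fintype.card_fin,
            ENNReal.ofReal_pow (by have := hηpos m; linarith), mul_comm c, ← mul_assoc,
            ENNReal.inv_mul_cancel hc0 hct, one_mul]
      _ ≤ Φ m p := by
          simp only [hΦ]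
          apply mul_le_mul_right
          apply setLIntegral_mono' measurableSet_closedBall
          intro y hy
          exact le_min (hball (lt_of_le_of_lt hy hm)).le h2.le
  calc _ ≤ ∫⁻ p, liminf (fun m => Φ m p) atTop ∂((rows E k).prod lam) := lintegral_mono hpt
    _ ≤ liminf (fun m => ∫⁻ p, Φ m p ∂((rows E k).prod lam)) atTop := lintegral_liminf_le hΦm
    _ ≤ t * ∫⁻ p, g' p ∂((rows E k).prod volume) + (t ^ n)⁻¹ * (lam univ * L ^ n) := by
        apply liminf_le_of_frequently_le _ (by isBoundedDefault)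
        apply Eventually.frequently
        exact Eventually.of_forall (fun m =>
          smooth_bound lam ι hι (hηpos m) hL g' hg'm (fun p => min_le_right _ _) ht0 ht)
    _ ≤ t * (∫⁻ p, a p ∂((rows E k).prod volume) + ε / t) + (t ^ n)⁻¹ * (lam univ * L ^ n) := by
        gcongr
        exact (lintegral_mono (fun p => min_le_left _ _)).trans hint
    _ = _ := by
        rw [mul_add, ENNReal.mul_div_cancel ht0 ht]; ring

end Vale.Agent.P309
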