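import Vale.Agent.P309.Sphere

/-!
Reduction of a learner with a clock and a stopping rule to a time-homogeneous finite chain.
-/

namespace Vale.Agent.P309

open MeasureTheory ProbabilityTheory Metric Set Finset Filter
open scoped ENNReal RealInnerProductSpace Topology

variable {d N : ℕ}

/-- The next clock value. -/
def nx {T : ℕ} (c : Fin (T + 1)) : Fin (T + 1) := ⟨min (c.val + 1) T, by omega⟩

/-- The homogeneous transition rule on state, stopping flag and clock. -/
noncomputable def tau (L : Learner d N) (T : ℕ) (z : (Fin N × Bool) × Fin (T + 1))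
    (q : EuclideanSpace ℝ (Fin d) × ℝ) (z' : (Fin N × Bool) × Fin (T + 1)) : ℝ≥0∞ :=
  if z.1.2 = true ∨ z.2.val = T then (if z' = z then 1 else 0)
  else (if z'.2 = nx z.2 then L.step z.2.val (z.1.1, q) {z'.1} else 0)

/-- The initial law. -/
noncomputable def pin (L : Learner d N) (T : ℕ) (z : (Fin N × Bool) × Fin (T + 1)) : ℝ≥0∞ :=
  if z.2 = 0 then L.init {z.1} else 0

theorem sum_single {α : Type*} [Fintype α] [MeasurableSpace α] [MeasurableSingletonClass α]
    (μ : Measure α) [IsProbabilityMeasure μ] : ∑ a, μ {a} = 1 := by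
  have := lintegral_fintype (μ := μ) (fun _ => 1)
  simp only [one_mul] at this
  rw [← this]; simp

theorem meas_tau (L : Learner d N) (T : ℕ) (z z' : (Fin N × Bool) × Fin (T + 1)) :
    Measurable (fun q => tau L T z q z') := by
  unfold tau
  split_ifs
  · exact measurable_const
  · exact measurable_const
  · exact ((L.step z.2.val).measurable_coe (measurableSet_singleton _)).fun_comp
      (measurable_const.prodMk measurable_id)
  · exact measurable_const

theorem sum_tau_mul (L : Learner d N) (T : ℕ) (z : (Fin N × Bool) × Fin (T + 1))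
    (hz : ¬ (z.1.2 = true ∨ z.2.val = T)) (q : EuclideanSpace ℝ (Fin d) × ℝ)
    (f : (Fin N × Bool) × Fin (T + 1) → ℝ≥0∞) :
    ∑ z', tau L T z q z' * f z' = ∑ y, L.step z.2.val (z.1.1, q) {y} * f (y, nx z.2) := by
  rw [Fintype.sum_prod_type]
  apply Finset.sum_congr rfl
  intro y _
  simp only [tau, if_neg hz, ite_mul, zero_mul]
  simp

theorem sum_tau (L : Learner d N) (T : ℕ) (z : (Fin N × Bool) × Fin (T + 1))
    (q : EuclideanSpace ℝ (Fin d) × ℝ) : ∑ z', tau L T z q z' = 1 := by
  by_cases hz : z.1.2 = true ∨ z.2.val = T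
  · simp only [tau, if_pos hz]; simp
  · have := sum_tau_mul L T z hz q (fun _ => 1)
    simp only [mul_one] at this
    rw [this]
    have := L.step_markov z.2.val
    exact sum_single _

theorem sum_pin_mul (L : Learner d N) (T : ℕ) (f : (Fin N × Bool) × Fin (T + 1) → ℝ≥0∞) :
    ∑ z, pin L T z * f z = ∑ y, L.init {y} * f (y, 0) := by
  rw [Fintype.sum_prod_type]
  apply Finset.sum_congr rfl
  intro y _
  simp only [pin, ite_mul, zero_mul]
  simp

theorem sum_pin (L : Learner d N) (T : ℕ) : ∑ z, pin L T z = 1 := by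
  have := sum_pin_mul L T (fun _ => 1)
  simp only [mul_one] at this
  rw [this]
  have := L.init_prob
  exact sum_single _

theorem val_absorbed (L : Learner d N) (T : ℕ)
    (G : (Fin N × Bool) × Fin (T + 1) → sphere (0 : EuclideanSpace ℝ (Fin d)) 1 → ℝ≥0∞)
    (z : (Fin N × Bool) × Fin (T + 1)) (hz : z.1.2 = true ∨ z.2.val = T)
    (s : sphere (0 : EuclideanSpace ℝ (Fin d)) 1) (r : ℕ) :
    val (tau L T) Subtype.val G r z s = G z s := by
  induction r with
  | zero => rfl
  | succ r ih =>
    simp only [val, tau, if_pos hz, lintegral_const, measure_univ, mul_one, ite_mul, one_mul,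
      zero_mul]
    simp [ih]

theorem value_le (L : Learner d N) (T : ℕ) (ε : ℝ) (s : sphere (0 : EuclideanSpace ℝ (Fin d)) 1)
    (r : ℕ) : ∀ (z : (Fin N × Bool) × Fin (T + 1)), T - z.2.val ≤ r →
      L.value ε s (T - z.2.val) z.2.val z.1
        ≤ val (tau L T) Subtype.val (fun z s => L.out z.2.val z.1.1 (closedBall s ε)) r z s := by
  have habs : ∀ (r : ℕ) (z : (Fin N × Bool) × Fin (T + 1)), (z.1.2 = true ∨ z.2.val = T) →
      L.value ε s (T - z.2.val) z.2.val z.1
        ≤ val (tau L T) Subtype.val (fun z s => L.out z.2.val z.1.1 (closedBall s ε)) r z s := by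
    intro r z hz
    rw [val_absorbed L T _ z hz]
    refine le_trans (le_of_eq ?_) (measure_mono (closeTo_subset ε s))
    rcases hk : T - z.2.val with _ | k
    · rfl
    · have : z.1.2 = true := hz.resolve_right (by omega)
      simp only [Learner.value, if_pos this]
  induction r with
  | zero =>
    intro z hz
    exact habs 0 z (Or.inr (by have := z.2.2; omega))
  | succ r ih =>
    intro z hr
    by_cases hz : z.1.2 = true ∨ z.2.val = T
    · exact habs _ z hz
    · have h1 : ¬ z.1.2 = true := fun h => hz (Or.inl h)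
      have h2 : z.2.val < T := by
        have := z.2.2
        have : ¬ z.2.val = T := fun h => hz (Or.inr h)
        omega
      have hnx : (nx z.2).val = z.2.val + 1 := by simp only [nx]; omega
      have hk : T - z.2.val = (T - (nx z.2).val) + 1 := by omega
      have hm : Measurable (fun x : EuclideanSpace ℝ (Fin d) =>
          (x, ⟪x, (s : EuclideanSpace ℝ (Fin d))⟫)) := by fun_prop
      rw [hk]
      simp only [Learner.value, if_neg h1, val]
      simp_rw [← lintegral_mul_const _ ((meas_tau L T z _).fun_comp hm)]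
      rw [← lintegral_finsetSum _ (fun j _ => ((meas_tau L T z j).fun_comp hm).mul_const _)]
      apply lintegral_mono
      intro x
      simp only
      rw [sum_tau_mul L T z hz, lintegral_fintype]
      apply Finset.sum_le_sum
      intro y _
      rw [mul_comm]
      apply mul_le_mul_right
      have := ih (y, nx z.2) (by simp only; omega)
      simp only at this
      rw [← hnx]
      exact this

theorem success_le (L : Learner d N) (T : ℕ) (ε : ℝ) {r : ℕ} (hr : T ≤ r) :
    L.success T ε ≤ ∫⁻ s, ∑ z, pin L T z * val (tau L T) Subtype.val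
      (fun z s => L.out z.2.val z.1.1 (closedBall s ε)) r z s ∂(unifSphere d) := by
  unfold Learner.success
  apply lintegral_mono
  intro s
  simp only
  rw [sum_pin_mul, lintegral_fintype]
  apply Finset.sum_le_sum
  intro y _
  rw [mul_comm]
  apply mul_le_mul_right
  exact value_le L T ε s r (y, 0) (by simpa using hr)

theorem learner_chain {n a : ℕ} (hn : 2 ≤ n) (h1 : 8 * n ≤ d) (h2 : d ≤ 16 * n)
    (L : Learner d N) (T : ℕ) (hZ : N * 2 * (T + 1) ≤ 2 ^ (a * n * n))
    (ha : a * n + 1 ≤ 3 * 2 ^ n) {b u : ℕ} (hT : T ≤ b * n)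
    (hb : 12 * b ≤ 2 ^ n) (hu : u < 2 ^ n) {ε : ℝ} (hε : 2 * ε ≤ rad u)
    (hsucc : 2 / 3 ≤ L.success T ε) : 2 * u ≤ 40 + (369 + 2 * a) * b := by
  have := unifSphere_prob (d := d) (by omega)
  have := L.out_markov
  exact chain_bound sphere_diam Subtype.val isometry_subtype_coe (unifSphere d) hn
    (by simpa using hZ) ha (cap_bound (by omega) h1 h2) (sum_pin L T) (meas_tau L T) (sum_tau L T)
    hb hu hε (fun z => L.out z.2.val z.1.1) (hsucc.trans (success_le L T ε hT))

theorem learner_count {n : ℕ} (hn : 1 ≤ n) (h1 : 8 * n ≤ d) (h2 : d ≤ 16 * n)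
    (L : Learner d N) (T : ℕ) {u : ℕ} {ε : ℝ} (hε : 2 * ε ≤ rad u)
    (hsucc : 2 / 3 ≤ L.success T ε) :
    2 ^ (7 * n * u) ≤ 2 * (N * 2 * (T + 1) * 2 ^ (37 * n)) := by
  have := unifSphere_prob (d := d) (by omega)
  have := L.out_markov
  have h := count_bound Subtype.val measurable_subtype_coe (unifSphere d)
    (cap_bound hn h1 h2) (sum_pin L T) (meas_tau L T) (sum_tau L T) (b := T)
    hε (fun z => L.out z.2.val z.1.1)
    (hsucc.trans (success_le L T ε (Nat.le_mul_of_pos_right _ hn)))
  simpa using h

end Vale.Agent.P309
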