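import Vale.Agent.P309.Reduce

/-!
A linear number of samples is needed for any accuracy below one: the signal and its mirror image
in the span of the rows give the same labels.
-/

namespace Vale.Agent.P309

open MeasureTheory ProbabilityTheory Metric Set Finset Filter
open scoped ENNReal RealInnerProductSpace Topology Pointwise

variable {d N : ℕ}

/-- A linear isometry acting on the unit sphere. -/
noncomputable def sphMap (f : EuclideanSpace ℝ (Fin d) ≃ₗᵢ[ℝ] EuclideanSpace ℝ (Fin d))
    (w : sphere (0 : EuclideanSpace ℝ (Fin d)) 1) : sphere (0 : EuclideanSpace ℝ (Fin d)) 1 :=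
  ⟨f w, by simp⟩

theorem meas_sphMap (f : EuclideanSpace ℝ (Fin d) ≃ₗᵢ[ℝ] EuclideanSpace ℝ (Fin d)) :
    Measurable (sphMap f) :=
  (f.continuous.measurable.comp measurable_subtype_coe).subtype_mk

theorem mp_sphMap (f : EuclideanSpace ℝ (Fin d) ≃ₗᵢ[ℝ] EuclideanSpace ℝ (Fin d)) :
    MeasurePreserving (sphMap f) (unifSphere d) (unifSphere d) := by
  refine ⟨meas_sphMap f, ?_⟩
  ext A hA
  rw [Measure.map_apply (meas_sphMap f) hA]
  unfold unifSphere
  rw [Measure.smul_apply, Measure.smul_apply, Measure.toSphere_apply' _ hA,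
    Measure.toSphere_apply' _ (meas_sphMap f hA)]
  congr 2
  rw [← f.measurePreserving.measure_preimage_emb f.toHomeomorph.measurableEmbedding
    (Set.Ioo (0 : ℝ) 1 • ((↑) '' A : Set (EuclideanSpace ℝ (Fin d))))]
  congr 1
  ext y
  constructor
  · rintro ⟨t, ht, x, ⟨w, hw, rfl⟩, rfl⟩
    exact ⟨t, ht, f w, ⟨sphMap f w, hw, rfl⟩, by simp⟩
  · rintro ⟨t, ht, x, ⟨w, hw, rfl⟩, h⟩
    refine ⟨t, ht, f.symm w, ⟨sphMap f.symm w, ?_, rfl⟩, ?_⟩
    · have : sphMap f (sphMap f.symm w) = w := by
        apply Subtype.ext; simp [sphMap]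
      rw [Set.mem_preimage, this]; exact hw
    · apply f.injective
      simp only [map_smul, LinearIsometryEquiv.apply_symm_apply]
      exact h

/-- Second moment of the uniform measure in the direction `v`. -/
noncomputable def mom2 (v : EuclideanSpace ℝ (Fin d)) : ℝ≥0∞ :=
  ∫⁻ s, ENNReal.ofReal (⟪v, (s : EuclideanSpace ℝ (Fin d))⟫ ^ 2) ∂(unifSphere d)

theorem meas_sq (v : EuclideanSpace ℝ (Fin d)) :
    Measurable (fun s : sphere (0 : EuclideanSpace ℝ (Fin d)) 1 =>
      ENNReal.ofReal (⟪v, (s : EuclideanSpace ℝ (Fin d))⟫ ^ 2)) := by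
  fun_prop

theorem mom2_eq {v w : EuclideanSpace ℝ (Fin d)} (h : ‖v‖ = ‖w‖) : mom2 v = mom2 w := by
  unfold mom2
  rw [← (mp_sphMap (Submodule.reflection (ℝ ∙ (v - w))ᗮ)).lintegral_comp (meas_sq w)]
  congr 1
  ext s
  have := (Submodule.reflection (ℝ ∙ (v - w))ᗮ).inner_map_map v (s : EuclideanSpace ℝ (Fin d))
  rw [Submodule.reflection_sub h] at this
  rw [← this]
  rfl

theorem mom2_unit (hd : 1 ≤ d) {v : EuclideanSpace ℝ (Fin d)} (h : ‖v‖ = 1) : d * mom2 v = 1 := by
  have := unifSphere_prob hd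
  have h1 : ∑ i : Fin d, mom2 (EuclideanSpace.basisFun (Fin d) ℝ i) = 1 := by
    unfold mom2
    rw [← lintegral_finsetSum _ (fun i _ => meas_sq _)]
    have : ∀ s : sphere (0 : EuclideanSpace ℝ (Fin d)) 1, ∑ i : Fin d, ENNReal.ofReal
        (⟪EuclideanSpace.basisFun (Fin d) ℝ i, (s : EuclideanSpace ℝ (Fin d))⟫ ^ 2) = 1 := by
      intro s
      rw [← ENNReal.ofReal_sum_of_nonneg (fun i _ => by positivity),
        OrthonormalBasis.sum_sq_inner_right]
      simp
    simp only [this]
    simp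
  rw [Finset.sum_congr rfl (fun i _ => mom2_eq (w := v)
    (by rw [h]; exact (EuclideanSpace.basisFun (Fin d) ℝ).orthonormal.1 i))] at h1
  simpa using h1

theorem proj_moment (hd : 1 ≤ d) (K : Submodule ℝ (EuclideanSpace ℝ (Fin d))) :
    d * ∫⁻ s, ENNReal.ofReal (‖K.starProjection (s : EuclideanSpace ℝ (Fin d))‖ ^ 2)
      ∂(unifSphere d) = Module.finrank ℝ K := by
  have e : ∀ s : sphere (0 : EuclideanSpace ℝ (Fin d)) 1,
      ENNReal.ofReal (‖K.starProjection (s : EuclideanSpace ℝ (Fin d))‖ ^ 2)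
      = ∑ i, ENNReal.ofReal (⟪((stdOrthonormalBasis ℝ K i : K) : EuclideanSpace ℝ (Fin d)),
          (s : EuclideanSpace ℝ (Fin d))⟫ ^ 2) := by
    intro s
    rw [← ENNReal.ofReal_sum_of_nonneg (fun i _ => by positivity)]
    congr 1
    have := (stdOrthonormalBasis ℝ K).sum_sq_inner_right
      (K.orthogonalProjectionOnto (s : EuclideanSpace ℝ (Fin d)))
    simp only [Submodule.inner_orthogonalProjectionOnto_eq_of_mem_left] at this
    rw [this]
    rfl
  simp only [e]
  rw [lintegral_finsetSum _ (fun i _ => meas_sq _), Finset.mul_sum]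
  have : ∀ i ∈ (Finset.univ : Finset (Fin (Module.finrank ℝ K))),
      d * ∫⁻ s, ENNReal.ofReal (⟪((stdOrthonormalBasis ℝ K i : K) : EuclideanSpace ℝ (Fin d)),
          (s : EuclideanSpace ℝ (Fin d))⟫ ^ 2) ∂(unifSphere d) = 1 := fun i _ =>
    mom2_unit hd ((stdOrthonormalBasis ℝ K).orthonormal.1 i)
  rw [Finset.sum_congr rfl this]
  simp

theorem two_balls (K : Submodule ℝ (EuclideanSpace ℝ (Fin d)))
    (μ : Measure (sphere (0 : EuclideanSpace ℝ (Fin d)) 1)) [IsProbabilityMeasure μ] {ε : ℝ}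
    (h0 : 0 ≤ ε) (h1 : ε < 1) (s : sphere (0 : EuclideanSpace ℝ (Fin d)) 1) :
    μ (closedBall s ε) + μ (closedBall (sphMap K.reflection s) ε)
      ≤ 1 + (ENNReal.ofReal (1 - ε ^ 2))⁻¹
        * ENNReal.ofReal (‖K.starProjection (s : EuclideanSpace ℝ (Fin d))‖ ^ 2) := by
  by_cases h : ε + ε < dist s (sphMap K.reflection s)
  · rw [← measure_union (closedBall_disjoint_closedBall h) measurableSet_closedBall]
    exact prob_le_one.trans le_self_add
  · refine add_le_add prob_le_one (prob_le_one.trans ?_)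
    have hp : 0 < 1 - ε ^ 2 := by nlinarith
    rw [not_lt, Subtype.dist_eq, dist_eq_norm] at h
    have e : (s : EuclideanSpace ℝ (Fin d)) - (sphMap K.reflection s : EuclideanSpace ℝ (Fin d))
        = (2 : ℝ) • Kᗮ.starProjection (s : EuclideanSpace ℝ (Fin d)) := by
      simp only [sphMap, Submodule.reflection_apply, Submodule.starProjection_orthogonal_val,
        two_smul]
      abel
    rw [e, norm_smul, Real.norm_ofNat] at h
    have h2 := Submodule.norm_sq_eq_add_norm_sq_starProjection (s : EuclideanSpace ℝ (Fin d)) K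
    have hs : ‖(s : EuclideanSpace ℝ (Fin d))‖ = 1 := by simp
    rw [hs] at h2
    have h3 : ‖Kᗮ.starProjection (s : EuclideanSpace ℝ (Fin d))‖ ^ 2 ≤ ε ^ 2 :=
      pow_le_pow_left₀ (norm_nonneg _) (by linarith) 2
    calc (1 : ℝ≥0∞) = (ENNReal.ofReal (1 - ε ^ 2))⁻¹ * ENNReal.ofReal (1 - ε ^ 2) :=
          (ENNReal.inv_mul_cancel (by simpa using hp) ENNReal.ofReal_ne_top).symm
      _ ≤ _ := mul_le_mul_right (ENNReal.ofReal_le_ofReal (by linarith)) _

theorem reflect_chain (hd : 1 ≤ d) {Z : Type*} [Fintype Z] [DecidableEq Z]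
    {p : Z → ℝ≥0∞} (hp : ∑ m, p m = 1) {τ : Z → EuclideanSpace ℝ (Fin d) × ℝ → Z → ℝ≥0∞}
    (hτ : ∀ m j, Measurable (fun q => τ m q j)) (hτ1 : ∀ m q, ∑ j, τ m q j = 1) {k : ℕ}
    {ε : ℝ} (h0 : 0 ≤ ε) (h1 : ε < 1)
    (out : Z → Measure (sphere (0 : EuclideanSpace ℝ (Fin d)) 1))
    [∀ m, IsProbabilityMeasure (out m)] :
    d * (2 * ∫⁻ s, ∑ m, p m * val τ Subtype.val (fun m s => out m (closedBall s ε)) k m s
      ∂(unifSphere d)) ≤ d + (ENNReal.ofReal (1 - ε ^ 2))⁻¹ * k := by
  have := unifSphere_prob hd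
  set F : (Fin k → EuclideanSpace ℝ (Fin d)) → sphere (0 : EuclideanSpace ℝ (Fin d)) 1 →
      sphere (0 : EuclideanSpace ℝ (Fin d)) 1 → ℝ≥0∞ := fun X s s' =>
    ∑ m, ∑ j, p m * (blk τ k m j (X, lab X (s : EuclideanSpace ℝ (Fin d)))
      * out j (closedBall s' ε)) with hF
  have hl : Measurable (fun q : sphere (0 : EuclideanSpace ℝ (Fin d)) 1 ×
      (Fin k → EuclideanSpace ℝ (Fin d)) => (q.2, lab q.2 (q.1 : EuclideanSpace ℝ (Fin d)))) :=
    measurable_snd.prodMk (meas_lab measurable_snd (measurable_subtype_coe.comp measurable_fst))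
  have hFm : Measurable (fun q : sphere (0 : EuclideanSpace ℝ (Fin d)) 1 ×
      (Fin k → EuclideanSpace ℝ (Fin d)) => F q.2 q.1 q.1) :=
    Finset.measurable_sum _ (fun m _ => Finset.measurable_sum _ (fun j _ =>
      (((meas_blk hτ k m j).fun_comp hl).fun_mul
        ((meas_ball (out j) ε).fun_comp measurable_fst)).const_mul _))
  have e1 : ∀ s, ∑ m, p m * val τ Subtype.val (fun m s => out m (closedBall s ε)) k m s
      = ∫⁻ X, F X s s ∂(rows (EuclideanSpace ℝ (Fin d)) k) := by
    intro s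
    have hX : Measurable (fun X : Fin k → EuclideanSpace ℝ (Fin d) =>
        (X, lab X (s : EuclideanSpace ℝ (Fin d)))) :=
      measurable_id.prodMk (meas_lab measurable_id measurable_const)
    simp only [hF]
    rw [lintegral_finsetSum _ (fun m _ => Finset.measurable_sum _ (fun j _ =>
      (((meas_blk hτ k m j).fun_comp hX).mul_const _).const_mul _))]
    apply Finset.sum_congr rfl
    intro m _
    have := val_add hτ Subtype.val (fun m s => out m (closedBall s ε)) 0 k m s
    rw [zero_add] at this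
    rw [this, Finset.mul_sum, lintegral_finsetSum _ (fun j _ =>
      (((meas_blk hτ k m j).fun_comp hX).mul_const _).const_mul _)]
    apply Finset.sum_congr rfl
    intro j _
    rw [lintegral_const_mul _ (((meas_blk hτ k m j).fun_comp hX).mul_const _),
      lintegral_mul_const _ ((meas_blk hτ k m j).fun_comp hX)]
    rfl
  have e2 : ∀ X, d * (2 * ∫⁻ s, F X s s ∂(unifSphere d))
      ≤ d + (ENNReal.ofReal (1 - ε ^ 2))⁻¹ * k := by
    intro X
    set K : Submodule ℝ (EuclideanSpace ℝ (Fin d)) := Submodule.span ℝ (Set.range X) with hK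
    have hrk : Module.finrank ℝ K ≤ k := by
      have := finrank_range_le_card (R := ℝ) X
      simpa [Set.finrank] using this
    have hm : Measurable (fun s => F X s s) := by
      have hX : Measurable (fun s : sphere (0 : EuclideanSpace ℝ (Fin d)) 1 =>
          (X, lab X (s : EuclideanSpace ℝ (Fin d)))) :=
        measurable_const.prodMk (meas_lab measurable_const measurable_subtype_coe)
      exact Finset.measurable_sum _ (fun m _ => Finset.measurable_sum _ (fun j _ =>
        (((meas_blk hτ k m j).fun_comp hX).fun_mul (meas_ball (out j) ε)).const_mul _))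
    have hlab : ∀ s : sphere (0 : EuclideanSpace ℝ (Fin d)) 1,
        lab X (sphMap K.reflection s : EuclideanSpace ℝ (Fin d))
          = lab X (s : EuclideanSpace ℝ (Fin d)) := by
      intro s
      funext i
      simp only [lab, sphMap]
      have hi : K.reflection (X i) = X i :=
        Submodule.reflection_mem_subspace_eq_self (Submodule.subset_span ⟨i, rfl⟩)
      conv_lhs => rw [← hi]
      rw [LinearIsometryEquiv.inner_map_map]
    have hPm : Measurable (fun s : sphere (0 : EuclideanSpace ℝ (Fin d)) 1 =>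
        ENNReal.ofReal (‖K.starProjection (s : EuclideanSpace ℝ (Fin d))‖ ^ 2)) := by
      fun_prop
    have h2 : 2 * ∫⁻ s, F X s s ∂(unifSphere d) ≤ 1 + (ENNReal.ofReal (1 - ε ^ 2))⁻¹
        * ∫⁻ s, ENNReal.ofReal (‖K.starProjection (s : EuclideanSpace ℝ (Fin d))‖ ^ 2)
          ∂(unifSphere d) := by
      rw [two_mul]
      conv_lhs => rw [add_comm]; lhs; rw [← (mp_sphMap K.reflection).lintegral_comp hm]
      rw [← lintegral_add_right _ hm, ← lintegral_const_mul _ hPm]
      calc _ ≤ ∫⁻ s, 1 + (ENNReal.ofReal (1 - ε ^ 2))⁻¹ *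
            ENNReal.ofReal (‖K.starProjection (s : EuclideanSpace ℝ (Fin d))‖ ^ 2)
            ∂(unifSphere d) := by
            apply lintegral_mono
            intro s
            simp only [hF, hlab]
            rw [← Finset.sum_add_distrib]
            simp_rw [← Finset.sum_add_distrib, ← mul_add]
            calc _ ≤ ∑ m, ∑ j, p m * (blk τ k m j (X, lab X (s : EuclideanSpace ℝ (Fin d)))
                  * (1 + (ENNReal.ofReal (1 - ε ^ 2))⁻¹ *
                  ENNReal.ofReal (‖K.starProjection (s : EuclideanSpace ℝ (Fin d))‖ ^ 2))) := by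
                  refine Finset.sum_le_sum (fun m _ => Finset.sum_le_sum (fun j _ => ?_))
                  apply mul_le_mul_right
                  apply mul_le_mul_right
                  rw [add_comm]
                  exact two_balls K (out j) h0 h1 s
              _ = _ := by
                  simp_rw [← Finset.mul_sum, ← Finset.sum_mul, sum_blk hτ1 k, one_mul]
                  rw [← Finset.sum_mul, hp, one_mul]
        _ = _ := by rw [lintegral_add_left measurable_const]; simp
    calc _ ≤ d * (1 + (ENNReal.ofReal (1 - ε ^ 2))⁻¹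
        * ∫⁻ s, ENNReal.ofReal (‖K.starProjection (s : EuclideanSpace ℝ (Fin d))‖ ^ 2)
          ∂(unifSphere d)) := mul_le_mul_right h2 _
      _ = d + (ENNReal.ofReal (1 - ε ^ 2))⁻¹ * (d * ∫⁻ s, ENNReal.ofReal
          (‖K.starProjection (s : EuclideanSpace ℝ (Fin d))‖ ^ 2) ∂(unifSphere d)) := by ring
      _ ≤ _ := by
          rw [proj_moment hd K]
          exact add_le_add le_rfl (mul_le_mul_right (by exact_mod_cast hrk) _)
  simp only [e1]
  rw [lintegral_lintegral_swap hFm.aemeasurable, ← lintegral_const_mul' _ _ (by simp),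
    ← lintegral_const_mul' _ _ (by simp)]
  calc _ ≤ ∫⁻ _X, (d + (ENNReal.ofReal (1 - ε ^ 2))⁻¹ * k)
        ∂(rows (EuclideanSpace ℝ (Fin d)) k) := lintegral_mono e2
    _ = _ := by simp

theorem learner_linear (hd : 1 ≤ d) (L : Learner d N) (T : ℕ) {ε : ℝ} (h0 : 0 ≤ ε) (h1 : ε < 1)
    (hsucc : 2 / 3 ≤ L.success T ε) : d * (1 - ε ^ 2) ≤ 3 * T := by
  have := L.out_markov
  have h := reflect_chain hd (sum_pin L T) (meas_tau L T) (sum_tau L T) (k := T) h0 h1
    (fun z => L.out z.2.val z.1.1)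
  have h2 := (mul_le_mul_right (mul_le_mul_right
    (hsucc.trans (success_le L T ε le_rfl)) 2) (d : ℝ≥0∞)).trans h
  have hp : 0 < 1 - ε ^ 2 := by nlinarith
  have h3 := ENNReal.toReal_mono (by
    exact ENNReal.add_ne_top.2 ⟨by simp, ENNReal.mul_ne_top (by simpa using hp) (by simp)⟩) h2
  rw [ENNReal.toReal_add (by simp) (ENNReal.mul_ne_top (by simpa using hp) (by simp))] at h3
  simp only [ENNReal.toReal_mul, ENNReal.toReal_natCast, ENNReal.toReal_ofNat, ENNReal.toReal_div,
    ENNReal.toReal_inv, ENNReal.toReal_ofReal hp.le] at h3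
  have h4 : (d : ℝ) / 3 ≤ (1 - ε ^ 2)⁻¹ * T := by linarith
  rw [inv_mul_eq_div, div_le_div_iff₀ (by norm_num) hp] at h4
  linarith

end Vale.Agent.P309
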