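import Vale.Agent.P309.Chain
import Vale.Agent.P309.Defs

/-!
The uniform measure on the sphere: total mass, small caps, chords and arcs.
-/

namespace Vale.Agent.P309

open MeasureTheory ProbabilityTheory Metric Set Finset Filter
open scoped ENNReal RealInnerProductSpace Topology Pointwise

theorem vol_ball_ne_zero (d : ℕ) :
    (volume : Measure (EuclideanSpace ℝ (Fin d))) (ball 0 1) ≠ 0 :=
  (measure_ball_pos _ _ one_pos).ne'

theorem vol_ball_ne_top (d : ℕ) :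
    (volume : Measure (EuclideanSpace ℝ (Fin d))) (ball 0 1) ≠ ∞ :=
  measure_ball_lt_top.ne

theorem unifSphere_prob {d : ℕ} (hd : 1 ≤ d) : IsProbabilityMeasure (unifSphere d) := by
  constructor
  unfold unifSphere
  rw [Measure.smul_apply, smul_eq_mul]
  apply ENNReal.inv_mul_cancel _ (measure_ne_top _ _)
  rw [Measure.toSphere_apply_univ, finrank_euclideanSpace_fin]
  exact mul_ne_zero (by exact_mod_cast (by omega : d ≠ 0)) (vol_ball_ne_zero d)

theorem cone_cover {d : ℕ} (s : sphere (0 : EuclideanSpace ℝ (Fin d)) 1) (i : ℕ) :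
    Set.Ioo (0 : ℝ) 1 • ((↑) '' (closedBall s ((1 / 2 : ℝ) ^ i)) : Set (EuclideanSpace ℝ (Fin d)))
      ⊆ ⋃ k ∈ Finset.range (2 ^ i),
        closedBall (((k : ℝ) * (1 / 2) ^ i) • (s : EuclideanSpace ℝ (Fin d))) (2 * (1 / 2) ^ i) := by
  rintro y ⟨t, ht, x, ⟨w, hw, rfl⟩, rfl⟩
  have hρ : (0 : ℝ) < (1 / 2) ^ i := by positivity
  have hρ1 : (2 : ℝ) ^ i * (1 / 2) ^ i = 1 := by rw [← mul_pow]; norm_num
  set ρ : ℝ := (1 / 2) ^ i with hρdef
  simp only [Set.mem_iUnion]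
  refine ⟨⌊t / ρ⌋₊, ?_, ?_⟩
  · rw [Finset.mem_range, Nat.floor_lt (div_nonneg ht.1.le hρ.le), div_lt_iff₀ hρ]
    push_cast
    linarith [ht.2]
  · have h1 : (⌊t / ρ⌋₊ : ℝ) * ρ ≤ t := by
      rw [← le_div_iff₀ hρ]; exact Nat.floor_le (div_nonneg ht.1.le hρ.le)
    have h2 : t < (⌊t / ρ⌋₊ : ℝ) * ρ + ρ := by
      have := Nat.lt_floor_add_one (t / ρ)
      rw [div_lt_iff₀ hρ] at this
      linarith
    have hs : ‖(s : EuclideanSpace ℝ (Fin d))‖ = 1 := by simp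
    have hw' : ‖(w : EuclideanSpace ℝ (Fin d)) - s‖ ≤ ρ := by
      rw [← dist_eq_norm]; exact hw
    rw [mem_closedBall, dist_eq_norm]
    have e : t • (w : EuclideanSpace ℝ (Fin d)) - ((⌊t / ρ⌋₊ : ℝ) * ρ) • (s : EuclideanSpace ℝ (Fin d))
        = t • ((w : EuclideanSpace ℝ (Fin d)) - s)
          + (t - (⌊t / ρ⌋₊ : ℝ) * ρ) • (s : EuclideanSpace ℝ (Fin d)) := by
      rw [smul_sub, sub_smul]; abel
    show ‖t • (w : EuclideanSpace ℝ (Fin d)) - _‖ ≤ _
    rw [e]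
    refine (norm_add_le _ _).trans ?_
    rw [norm_smul, norm_smul, hs, Real.norm_eq_abs, Real.norm_eq_abs, abs_of_pos ht.1,
      abs_of_nonneg (by linarith)]
    have : t * ‖(w : EuclideanSpace ℝ (Fin d)) - s‖ ≤ 1 * ρ :=
      mul_le_mul ht.2.le hw' (norm_nonneg _) zero_le_one
    linarith

theorem cap_small {d : ℕ} (hd : 1 ≤ d) (s : sphere (0 : EuclideanSpace ℝ (Fin d)) 1) (i : ℕ) :
    unifSphere d (closedBall s ((1 / 2 : ℝ) ^ i))
      ≤ 2 ^ i * ENNReal.ofReal ((2 * (1 / 2 : ℝ) ^ i) ^ d) := by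
  unfold unifSphere
  rw [Measure.smul_apply, smul_eq_mul, Measure.toSphere_apply_univ,
    Measure.toSphere_apply' _ measurableSet_closedBall, finrank_euclideanSpace_fin]
  have h1 : (volume : Measure (EuclideanSpace ℝ (Fin d)))
      (Set.Ioo (0 : ℝ) 1 • ((↑) '' (closedBall s ((1 / 2 : ℝ) ^ i)) : Set (EuclideanSpace ℝ (Fin d))))
      ≤ 2 ^ i * ENNReal.ofReal ((2 * (1 / 2 : ℝ) ^ i) ^ d)
        * (volume : Measure (EuclideanSpace ℝ (Fin d))) (ball 0 1) := by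
    refine (measure_mono (cone_cover s i)).trans ((measure_biUnion_finset_le _ _).trans ?_)
    have : ∀ k ∈ Finset.range (2 ^ i), (volume : Measure (EuclideanSpace ℝ (Fin d)))
        (closedBall (((k : ℝ) * (1 / 2) ^ i) • (s : EuclideanSpace ℝ (Fin d))) (2 * (1 / 2) ^ i))
        = ENNReal.ofReal ((2 * (1 / 2 : ℝ) ^ i) ^ d)
          * (volume : Measure (EuclideanSpace ℝ (Fin d))) (ball 0 1) := by
      intro k _
      rw [Measure.addHaar_closedBall _ _ (by positivity), finrank_euclideanSpace_fin]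
    rw [Finset.sum_congr rfl this, Finset.sum_const, Finset.card_range, nsmul_eq_mul, mul_assoc]
    push_cast
    exact le_rfl
  have hd0 : (d : ℝ≥0∞) ≠ 0 := by exact_mod_cast (by omega : d ≠ 0)
  calc _ ≤ ((d : ℝ≥0∞) * volume (ball (0 : EuclideanSpace ℝ (Fin d)) 1))⁻¹
        * (d * (2 ^ i * ENNReal.ofReal ((2 * (1 / 2 : ℝ) ^ i) ^ d)
        * (volume : Measure (EuclideanSpace ℝ (Fin d))) (ball 0 1))) :=
        mul_le_mul_right (mul_le_mul_right h1 _) _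
    _ = (((d : ℝ≥0∞) * volume (ball (0 : EuclideanSpace ℝ (Fin d)) 1))⁻¹
        * ((d : ℝ≥0∞) * volume (ball (0 : EuclideanSpace ℝ (Fin d)) 1)))
        * (2 ^ i * ENNReal.ofReal ((2 * (1 / 2 : ℝ) ^ i) ^ d)) := by ring
    _ = _ := by
        rw [ENNReal.inv_mul_cancel (mul_ne_zero hd0 (vol_ball_ne_zero d))
          (ENNReal.mul_ne_top (by simp) (vol_ball_ne_top d)), one_mul]

theorem cap_bound {d n : ℕ} (hn : 1 ≤ n) (h1 : 8 * n ≤ d) (h2 : d ≤ 16 * n)
    (s : sphere (0 : EuclideanSpace ℝ (Fin d)) 1) (u : ℕ) :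
    2 ^ (7 * n * u) * unifSphere d (closedBall s (4 * rad u)) ≤ 2 ^ (37 * n) := by
  have hd : 1 ≤ d := by omega
  have := unifSphere_prob hd
  rcases le_or_gt u 3 with hu | hu
  · calc _ ≤ (2 : ℝ≥0∞) ^ (7 * n * u) * 1 := mul_le_mul_right prob_le_one _
      _ ≤ _ := by
        rw [mul_one]
        apply pow_le_pow_right₀ (by norm_num)
        nlinarith
  · obtain ⟨i, rfl⟩ : ∃ i, u = i + 3 := ⟨u - 3, by omega⟩
    have e : 4 * rad (i + 3) = (1 / 2 : ℝ) ^ i := by unfold rad; rw [pow_add]; ring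
    rw [e]
    have e2 : ENNReal.ofReal ((2 * (1 / 2 : ℝ) ^ i) ^ d)
        = 2 ^ d * ENNReal.ofReal ((1 / 2 : ℝ) ^ (i * d)) := by
      rw [mul_pow, ← pow_mul, ENNReal.ofReal_mul (by positivity), ENNReal.ofReal_pow (by norm_num),
        ENNReal.ofReal_ofNat]
    calc _ ≤ (2 : ℝ≥0∞) ^ (7 * n * (i + 3))
          * (2 ^ i * ENNReal.ofReal ((2 * (1 / 2 : ℝ) ^ i) ^ d)) :=
          mul_le_mul_right (cap_small hd s i) _
      _ = 2 ^ (7 * n * (i + 3) + i + d) * ENNReal.ofReal ((1 / 2 : ℝ) ^ (i * d)) := by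
          rw [e2, pow_add, pow_add]; ring
      _ ≤ 2 ^ (37 * n + i * d) * ENNReal.ofReal ((1 / 2 : ℝ) ^ (i * d)) := by
          apply mul_le_mul_left
          apply pow_le_pow_right₀ (by norm_num)
          have : i * (7 * n + 1) ≤ i * d := Nat.mul_le_mul_left _ (by omega)
          nlinarith
      _ = _ := by rw [pow_add, mul_assoc, ofReal_half_pow, mul_one]

theorem sphere_diam {d : ℕ} (s s' : sphere (0 : EuclideanSpace ℝ (Fin d)) 1) : dist s s' ≤ 2 := by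
  have hs : ‖(s : EuclideanSpace ℝ (Fin d))‖ = 1 := by simp
  have hs' : ‖(s' : EuclideanSpace ℝ (Fin d))‖ = 1 := by simp
  rw [Subtype.dist_eq, dist_eq_norm]
  linarith [norm_sub_le (s : EuclideanSpace ℝ (Fin d)) s']

theorem closeTo_subset {d : ℕ} (ε : ℝ) (s : sphere (0 : EuclideanSpace ℝ (Fin d)) 1) :
    closeTo ε s ⊆ closedBall s ε := by
  intro w hw
  have hs : ‖(s : EuclideanSpace ℝ (Fin d))‖ = 1 := by simp
  have hw1 : ‖(w : EuclideanSpace ℝ (Fin d))‖ = 1 := by simp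
  unfold closeTo at hw
  rw [Set.mem_ofPred_eq] at hw
  set c : ℝ := ⟪(w : EuclideanSpace ℝ (Fin d)), (s : EuclideanSpace ℝ (Fin d))⟫ with hc
  have hc1 : |c| ≤ 1 := by
    have := abs_real_inner_le_norm (w : EuclideanSpace ℝ (Fin d)) (s : EuclideanSpace ℝ (Fin d))
    rwa [hs, hw1, one_mul] at this
  have h0 := Real.arccos_nonneg c
  have h1 := Real.cos_arccos (abs_le.1 hc1).1 (abs_le.1 hc1).2
  have h2 := Real.one_sub_sq_div_two_le_cos (x := Real.arccos c)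
  rw [mem_closedBall, Subtype.dist_eq, dist_eq_norm]
  have h3 := norm_sub_sq_real (w : EuclideanSpace ℝ (Fin d)) (s : EuclideanSpace ℝ (Fin d))
  rw [hs, hw1, ← hc] at h3
  apply le_trans _ hw
  apply le_of_sq_le_sq _ h0 |>.trans le_rfl
  nlinarith

end Vale.Agent.P309
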