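import Vale.Agent.P309.Local

/-!
The localisation argument: one block of samples compressed into few states cannot raise the
likelihood much above its local average.
-/

namespace Vale.Agent.P309

open MeasureTheory ProbabilityTheory Metric Set Finset Filter
open scoped ENNReal RealInnerProductSpace Topology

variable {E : Type*} [NormedAddCommGroup E] [InnerProductSpace ℝ E] [FiniteDimensional ℝ E]
  [MeasurableSpace E] [BorelSpace E]

theorem sum_lintegral_le {Ω J : Type*} [MeasurableSpace Ω] (ν : Measure Ω) (S : Finset J)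
    (f : J → Ω → ℝ≥0∞) : ∑ j ∈ S, ∫⁻ s, f j s ∂ν ≤ ∫⁻ s, ∑ j ∈ S, f j s ∂ν := by
  classical
  induction S using Finset.induction_on with
  | empty => simp
  | insert j S hj ih =>
    simp_rw [Finset.sum_insert hj]
    exact (add_le_add le_rfl ih).trans (le_lintegral_add _ _)

theorem markov_rel {Ω : Type*} [MeasurableSpace Ω] (ν : Measure Ω) {f : Ω → ℝ≥0∞}
    (hf : Measurable f) (hfin : ∫⁻ s, f s ∂ν ≠ ∞) (c : ℝ≥0∞) {H : Set Ω}
    (hH : ∀ᵐ s ∂ν, s ∈ H → c * ∫⁻ s, f s ∂ν < f s) : c * ν H ≤ 1 := by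
  have h1 : ν H ≤ ν {s | c * ∫⁻ s, f s ∂ν < f s} := measure_mono_ae hH
  rcases eq_or_ne (∫⁻ s, f s ∂ν) 0 with h0 | h0
  · have h2 : ν {s | c * ∫⁻ s, f s ∂ν < f s} = 0 := by
      rw [h0, mul_zero]
      have := (lintegral_eq_zero_iff hf).1 h0
      refine measure_mono_null ?_ this
      intro s hs
      exact (ne_of_gt hs)
    rw [h2] at h1
    rw [le_zero_iff.1 h1]; simp
  · have h2 := mul_meas_ge_le_lintegral (μ := ν) hf (c * ∫⁻ s, f s ∂ν)
    have h3 : (c * ν H) * ∫⁻ s, f s ∂ν ≤ 1 * ∫⁻ s, f s ∂ν := by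
      calc _ = (c * ∫⁻ s, f s ∂ν) * ν H := by ring
        _ ≤ (c * ∫⁻ s, f s ∂ν) * ν {s | c * ∫⁻ s, f s ∂ν ≤ f s} := by
            refine mul_le_mul_right (h1.trans (measure_mono ?_)) _
            intro s hs
            rw [Set.mem_ofPred_eq] at hs ⊢
            exact hs.le
        _ ≤ _ := h2
        _ = _ := (one_mul _).symm
    exact (ENNReal.mul_le_mul_iff_left h0 hfin).1 h3

variable {Ω : Type*} [PseudoMetricSpace Ω] [MeasurableSpace Ω] [BorelSpace Ω]
  [SecondCountableTopology Ω]

/-- The likelihood of a block outcome. -/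
noncomputable def lik {n : ℕ} (e : Ω → E) (a : (Fin n → E) × (Fin n → ℝ) → ℝ≥0∞) (s : Ω) :
    ℝ≥0∞ := ∫⁻ X, a (X, lab X (e s)) ∂(rows E n)

omit [PseudoMetricSpace Ω] [BorelSpace Ω] [SecondCountableTopology Ω] in
theorem meas_lik {n : ℕ} {e : Ω → E} (he : Measurable e)
    {a : (Fin n → E) × (Fin n → ℝ) → ℝ≥0∞} (ha : Measurable a) : Measurable (lik e a) := by
  have hl : Measurable (fun p : Ω × (Fin n → E) => (p.2, lab p.2 (e p.1))) :=
    measurable_snd.prodMk (meas_lab measurable_snd (he.comp measurable_fst))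
  have h1 : Measurable (fun p : Ω × (Fin n → E) => a (p.2, lab p.2 (e p.1))) := ha.fun_comp hl
  exact h1.lintegral_prod_right'

omit [PseudoMetricSpace Ω] [MeasurableSpace Ω] [BorelSpace Ω] [SecondCountableTopology Ω] in
theorem sum_lik {J : Type*} [Fintype J] {n : ℕ} (e : Ω → E)
    {a : J → (Fin n → E) × (Fin n → ℝ) → ℝ≥0∞} (ha : ∀ j, Measurable (a j))
    (ha1 : ∀ p, ∑ j, a j p = 1) (s : Ω) : ∑ j, lik e (a j) s = 1 := by
  unfold lik
  have hlX : Measurable (fun X : Fin n → E => (X, lab X (e s))) :=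
    measurable_id.prodMk (meas_lab measurable_id measurable_const)
  rw [← lintegral_finsetSum _ (fun j _ => (ha j).fun_comp hlX)]
  simp [ha1]

theorem rad_mul (v i : ℕ) : rad v * (2 * rad i) = 4 * rad (v + i) := by
  unfold rad; rw [pow_add]; ring

omit [SecondCountableTopology Ω] in
/-- The bound at one centre and one scale. -/
theorem centre_bound {J : Type*} [Fintype J] (e : Ω → E) (he : Isometry e)
    (μ : Measure Ω) [IsFiniteMeasure μ] {n v : ℕ} (hn : 1 ≤ n) {K : ℝ≥0∞}
    {Ev : Set Ω} (hEv : MeasurableSet Ev)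
    (hG : ∀ s ∈ Ev, ∀ i, 2 ^ (4 * n * i) * μ (closedBall s (4 * rad (v + i)))
      ≤ K * μ (closedBall s (rad v)))
    (a : J → (Fin n → E) × (Fin n → ℝ) → ℝ≥0∞) (ha : ∀ j, Measurable (a j))
    (ha1 : ∀ p, ∑ j, a j p = 1) {Θ t τ : ℝ≥0∞} (hΘ0 : Θ ≠ 0) (hΘ : Θ ≠ ∞)
    (ht0 : t ≠ 0) (ht : t ≠ ∞) (hτ0 : τ ≠ 0) (hτ : τ ≠ ∞) (B : J → Set Ω)
    (hB : ∀ j, ∀ s ∈ Ev, s ∈ B j → τ * τ * μ.withDensity (lik e (a j)) (closedBall s (2 * rad v))
      < lik e (a j) s * μ (closedBall s (rad v))) (z : Ω) :
    ∑ j, ∫⁻ s in B j, lik e (a j) s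
        ∂((μ (closedBall z (2 * rad v)))⁻¹ • μ.restrict (closedBall z (rad v) ∩ Ev))
      ≤ 2 ^ n / Θ + t * (Θ * 4 ^ n)
        + Fintype.card J * ((t ^ n)⁻¹ * (τ⁻¹ * (2 + 2 * K * 2 ^ (4 * n))) ^ n) := by
  set r := rad v with hr
  have hr0 : 0 < r := rad_pos v
  set ρ := μ (closedBall z (2 * r)) with hρ
  have hρt : ρ ≠ ∞ := measure_ne_top _ _
  set C := closedBall z r ∩ Ev with hC
  have hCm : MeasurableSet C := measurableSet_closedBall.inter hEv
  set ν := ρ⁻¹ • μ.restrict C with hν
  have hem : Measurable e := he.continuous.measurable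
  have hνapp : ∀ A : Set Ω, ν A = ρ⁻¹ * μ (A ∩ C) := by
    intro A
    rw [hν, Measure.smul_apply, Measure.restrict_apply' hCm, smul_eq_mul]
  have hball : ∀ s ∈ C, μ (closedBall s r) ≤ ρ := by
    intro s hs
    apply measure_mono
    intro x hx
    have h1 : dist x s ≤ r := hx
    have h2 : dist s z ≤ r := hs.1
    have := dist_triangle x s z
    show dist x z ≤ 2 * r
    linarith
  have hν1 : ν univ ≤ 1 := by
    rw [hνapp]
    refine le_trans (mul_le_mul_right (measure_mono ?_) _) (ENNReal.inv_mul_le_one ρ)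
    intro x hx
    exact closedBall_subset_closedBall (by linarith) hx.2.1
  have : IsFiniteMeasure ν := ⟨hν1.trans_lt ENNReal.one_lt_top⟩
  have hae : ∀ᵐ s ∂ν, s ∈ C :=
    Measure.ae_smul_measure (ae_restrict_mem hCm) _
  set ι : Ω → E := fun s => r⁻¹ • (e s - e z) with hι
  have hιm : Measurable ι := by simp only [hι]; fun_prop
  set a' : J → (Fin n → E) × (Fin n → ℝ) → ℝ≥0∞ :=
    fun j p => a j (p.1, lab p.1 (e z) + r • p.2) with ha'
  have ha'm : ∀ j, Measurable (a' j) := by
    intro j
    have h1 : Measurable (fun p : (Fin n → E) × (Fin n → ℝ) => lab p.1 (e z)) :=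
      meas_lab measurable_fst measurable_const
    have h2 : Measurable (fun p : (Fin n → E) × (Fin n → ℝ) => (p.1, lab p.1 (e z) + r • p.2)) := by
      fun_prop
    exact (ha j).fun_comp h2
  have hlik : ∀ j s, ∫⁻ X, a' j (X, lab X (ι s)) ∂(rows E n) = lik e (a j) s := by
    intro j s
    unfold lik
    congr 1
    ext X
    simp only [ha']
    congr 2
    ext i
    simp only [lab, hι, Pi.add_apply, Pi.smul_apply, smul_eq_mul, real_inner_smul_right,
      inner_sub_right]
    field_simp
    ring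
  have hdist : ∀ s s', dist (ι s) (ι s') = r⁻¹ * dist s s' := by
    intro s s'
    simp only [hι]
    rw [dist_smul₀, dist_sub_right, he.dist_eq, Real.norm_eq_abs, abs_of_pos (inv_pos.2 hr0)]
  have key := local_bound ν hν1 ι hιm ?_ hn (K := K) ?_ a' ha'm (fun p => (ha1 _).le)
    hΘ0 hΘ ht0 ht hτ0 hτ B ?_
  · simpa only [hlik] using key
  · filter_upwards [hae] with s hs
    have h1 : dist (ι s) (ι z) = r⁻¹ * dist s z := hdist s z
    have h2 : ι z = 0 := by simp [hι]
    rw [h2, dist_zero_right] at h1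
    rw [h1, inv_mul_le_iff₀ hr0, mul_one]
    exact hs.1
  · intro w i
    rw [hνapp]
    rcases ({ω | dist (ι ω) w ≤ rad i} ∩ C).eq_empty_or_nonempty with h0 | ⟨s', hs'⟩
    · rw [h0]; simp
    · have hsub : {ω | dist (ι ω) w ≤ rad i} ∩ C ⊆ closedBall s' (4 * rad (v + i)) := by
        intro s hs
        have h1 : dist (ι s) w ≤ rad i := hs.1
        have h2 : dist (ι s') w ≤ rad i := hs'.1
        have h3 := dist_triangle_right (ι s) (ι s') w
        rw [hdist, inv_mul_le_iff₀ hr0] at h3
        show dist s s' ≤ 4 * rad (v + i)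
        rw [← rad_mul]
        refine h3.trans ?_
        gcongr
        linarith
      calc 2 ^ (4 * n * i) * (ρ⁻¹ * μ ({ω | dist (ι ω) w ≤ rad i} ∩ C))
          ≤ 2 ^ (4 * n * i) * (ρ⁻¹ * μ (closedBall s' (4 * rad (v + i)))) := by gcongr
        _ = ρ⁻¹ * (2 ^ (4 * n * i) * μ (closedBall s' (4 * rad (v + i)))) := by ring
        _ ≤ ρ⁻¹ * (K * ρ) := by
            apply mul_le_mul_right
            exact (hG s' hs'.2.2 i).trans (mul_le_mul_right (hball s' hs'.2) _)
        _ = K * (ρ⁻¹ * ρ) := by ring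
        _ ≤ K * 1 := by gcongr; exact ENNReal.inv_mul_le_one ρ
        _ = K := mul_one _
  · intro j
    have hfm : Measurable (lik e (a j)) := meas_lik hem (ha j)
    have hf1 : ∀ s, lik e (a j) s ≤ 1 := fun s =>
      (Finset.single_le_sum (f := fun j => lik e (a j) s) (fun _ _ => zero_le)
        (Finset.mem_univ j)).trans (sum_lik e ha ha1 s).le
    apply markov_rel ν hfm
    · refine ne_top_of_le_ne_top (measure_ne_top ν univ) ?_
      calc _ ≤ ∫⁻ _s, 1 ∂ν := lintegral_mono hf1
        _ = _ := by simp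
    · filter_upwards [hae] with s hs hsB
      have h1 := hB j s hs.2 hsB
      have h2 : μ.withDensity (lik e (a j)) C
          ≤ μ.withDensity (lik e (a j)) (closedBall s (2 * r)) := by
        apply measure_mono
        intro x hx
        have h3 : dist x z ≤ r := hx.1
        have h4 : dist s z ≤ r := hs.1
        have := dist_triangle_right x s z
        show dist x s ≤ 2 * r
        linarith
      rw [withDensity_apply _ hCm] at h2
      rw [hν, lintegral_smul_measure, smul_eq_mul]
      have h5 : τ * τ * ∫⁻ x in C, lik e (a j) x ∂μ < lik e (a j) s * ρ :=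
        (lt_of_le_of_lt (mul_le_mul_right h2 _) h1).trans_le (mul_le_mul_right (hball s hs) _)
      have hρ0 : ρ ≠ 0 := by
        intro h0; rw [h0, mul_zero] at h5; simp at h5
      by_contra hle
      apply not_le.2 h5
      calc lik e (a j) s * ρ ≤ (τ * τ * (ρ⁻¹ * ∫⁻ x in C, lik e (a j) x ∂μ)) * ρ := by
            gcongr; exact not_lt.1 hle
        _ = (τ * τ * ∫⁻ x in C, lik e (a j) x ∂μ) * (ρ⁻¹ * ρ) := by ring
        _ = _ := by rw [ENNReal.inv_mul_cancel hρ0 hρt, mul_one]

/-- Averaging over centres. -/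
theorem scale_bound (μ : Measure Ω) [IsFiniteMeasure μ] {r : ℝ} {K : ℝ≥0∞}
    {Ev B : Set Ω} (hEv : MeasurableSet Ev) (hBm : MeasurableSet B)
    (hpos : ∀ s ∈ Ev, μ (closedBall s r) ≠ 0)
    (hG : ∀ s ∈ Ev, μ (closedBall s (4 * r)) ≤ K * μ (closedBall s r)) (hr : 0 ≤ r)
    {f : Ω → ℝ≥0∞} (hf : Measurable f) :
    μ.withDensity f (B ∩ Ev) ≤ ∫⁻ z, K * ∫⁻ s in B, f s
      ∂((μ (closedBall z (2 * r)))⁻¹ • μ.restrict (closedBall z r ∩ Ev)) ∂μ := by
  set S : Set (Ω × Ω) := {p : Ω × Ω | dist p.2 p.1 ≤ r} ∩ Prod.fst ⁻¹' (B ∩ Ev) with hS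
  have hSm : MeasurableSet S := (measSet_close r).inter (measurable_fst (hBm.inter hEv))
  set H : Ω → Ω → ℝ≥0∞ := fun s z =>
    S.indicator (fun p => K * (μ (closedBall p.2 (2 * r)))⁻¹ * f p.1) (s, z) with hH
  have hHm : Measurable (Function.uncurry H) :=
    Measurable.indicator ((((meas_ball μ _).comp measurable_snd).inv.const_mul K).mul
      (hf.comp measurable_fst)) hSm
  rw [withDensity_apply _ (hBm.inter hEv), ← lintegral_indicator (hBm.inter hEv)]
  calc _ ≤ ∫⁻ s, ∫⁻ z, H s z ∂μ ∂μ := by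
        apply lintegral_mono
        intro s
        apply Set.indicator_apply_le
        intro hs
        have hb0 := hpos s hs.2
        have hbt : μ (closedBall s r) ≠ ∞ := measure_ne_top _ _
        calc f s = ((μ (closedBall s r))⁻¹ * f s) * μ (closedBall s r) := by
              rw [mul_right_comm, ENNReal.inv_mul_cancel hb0 hbt, one_mul]
          _ = ∫⁻ z, (closedBall s r).indicator (fun _ => (μ (closedBall s r))⁻¹ * f s) z ∂μ :=
              (lintegral_indicator_const measurableSet_closedBall _).symm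
          _ ≤ _ := by
              apply lintegral_mono
              intro z
              apply Set.indicator_apply_le
              intro hz
              have hz' : dist z s ≤ r := hz
              simp only [hH]
              rw [Set.indicator_of_mem (by exact ⟨hz', hs⟩)]
              gcongr
              have h1 : μ (closedBall z (2 * r)) ≤ K * μ (closedBall s r) := by
                refine le_trans (measure_mono ?_) (hG s hs.2)
                intro x hx
                have hx' : dist x z ≤ 2 * r := hx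
                have := dist_triangle x z s
                show dist x s ≤ 4 * r
                linarith
              have h2 : μ (closedBall s r) ≤ μ (closedBall z (2 * r)) := by
                apply measure_mono
                intro x hx
                have hx' : dist x s ≤ r := hx
                have := dist_triangle_right x z s
                show dist x z ≤ 2 * r
                linarith
              have h3 : μ (closedBall z (2 * r)) ≠ 0 := fun h => hb0 (le_zero_iff.1 (h ▸ h2))
              calc (μ (closedBall s r))⁻¹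
                  = (μ (closedBall s r))⁻¹ * μ (closedBall z (2 * r))
                      * (μ (closedBall z (2 * r)))⁻¹ := by
                    rw [mul_assoc, ENNReal.mul_inv_cancel h3 (measure_ne_top _ _), mul_one]
                _ ≤ (μ (closedBall s r))⁻¹ * (K * μ (closedBall s r))
                      * (μ (closedBall z (2 * r)))⁻¹ := by gcongr
                _ = K * (μ (closedBall z (2 * r)))⁻¹
                      * ((μ (closedBall s r))⁻¹ * μ (closedBall s r)) := by ring
                _ = _ := by rw [ENNReal.inv_mul_cancel hb0 hbt, mul_one]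
    _ = ∫⁻ z, ∫⁻ s, H s z ∂μ ∂μ := lintegral_lintegral_swap hHm.aemeasurable
    _ = _ := by
        congr 1
        ext z
        rw [Measure.restrict_smul, lintegral_smul_measure, smul_eq_mul,
          Measure.restrict_restrict hBm, ← mul_assoc, ← lintegral_const_mul _ hf,
          ← lintegral_indicator (hBm.inter (measurableSet_closedBall.inter hEv))]
        congr 1
        ext s
        have hiff : (s, z) ∈ S ↔ s ∈ B ∩ (closedBall z r ∩ Ev) := by
          simp only [hS, Set.mem_inter_iff, Set.mem_ofPred_eq, Set.mem_preimage,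
            mem_closedBall, dist_comm s z]
          tauto
        by_cases hs : s ∈ B ∩ (closedBall z r ∩ Ev)
        · simp only [hH]
          rw [Set.indicator_of_mem hs, Set.indicator_of_mem (hiff.2 hs)]
        · simp only [hH]
          rw [Set.indicator_of_notMem hs, Set.indicator_of_notMem (fun h => hs (hiff.1 h))]

theorem markov2 {J : Type*} [Fintype J] (hΩ : ∀ s s' : Ω, dist s s' ≤ 2)
    (e : Ω → E) (he : Isometry e)
    (μ : Measure Ω) [IsFiniteMeasure μ] {n W : ℕ} (hn : 1 ≤ n) (hW : 0 < W) {K' : ℝ≥0∞}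
    (hG : ∀ s u, 2 ^ (4 * n * u) * μ (closedBall s (4 * rad u)) ≤ K' * Pot W (4 * n) μ s)
    (a : J → (Fin n → E) × (Fin n → ℝ) → ℝ≥0∞) (ha : ∀ j, Measurable (a j))
    (ha1 : ∀ p, ∑ j, a j p = 1) {Θ t τ : ℝ≥0∞} (hΘ0 : Θ ≠ 0) (hΘ : Θ ≠ ∞)
    (ht0 : t ≠ 0) (ht : t ≠ ∞) (hτ0 : τ ≠ 0) (hτ : τ ≠ ∞) :
    ∑ j, μ.withDensity (lik e (a j))
      {s | (τ * τ * 2 ^ (4 * n) * W) * Pot W (4 * n) (μ.withDensity (lik e (a j))) s
        < lik e (a j) s * Pot W (4 * n) μ s}
      ≤ W * (K' * W) * (2 ^ n / Θ + t * (Θ * 4 ^ n)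
        + Fintype.card J * ((t ^ n)⁻¹ * (τ⁻¹ * (2 + 2 * (K' * W) * 2 ^ (4 * n))) ^ n))
        * μ univ := by
  rcases eq_or_ne (μ univ) 0 with h0 | h0
  · rw [Measure.measure_univ_eq_zero.1 h0]; simp
  have hem : Measurable e := he.continuous.measurable
  have hfm : ∀ j, Measurable (lik e (a j)) := fun j => meas_lik hem (ha j)
  set δ := 2 ^ n / Θ + t * (Θ * 4 ^ n)
        + Fintype.card J * ((t ^ n)⁻¹ * (τ⁻¹ * (2 + 2 * (K' * W) * 2 ^ (4 * n))) ^ n) with hδ
  set B : J → Set Ω := fun j =>
    {s | (τ * τ * 2 ^ (4 * n) * W) * Pot W (4 * n) (μ.withDensity (lik e (a j))) s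
        < lik e (a j) s * Pot W (4 * n) μ s} with hB
  have hBm : ∀ j, MeasurableSet (B j) := fun j =>
    measurableSet_lt ((meas_pot _ _ _).const_mul _) ((hfm j).mul (meas_pot _ _ _))
  set Ev : ℕ → Set Ω := fun v =>
    {s | Pot W (4 * n) μ s ≤ W * (2 ^ (4 * n * v) * μ (closedBall s (rad v)))} with hEv
  have hEvm : ∀ v, MeasurableSet (Ev v) := fun v =>
    measurableSet_le (meas_pot _ _ _) (((meas_ball μ _).const_mul _).const_mul _)
  have hcover : ∀ s, ∃ v ∈ range W, s ∈ Ev v := by
    intro s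
    obtain ⟨v, hv, hmax⟩ := Finset.exists_max_image (range W)
      (fun u => 2 ^ (4 * n * u) * μ (closedBall s (rad u))) ⟨0, Finset.mem_range.2 hW⟩
    refine ⟨v, hv, ?_⟩
    have := Finset.sum_le_card_nsmul (range W) _ _ hmax
    simpa [hEv, Pot] using this
  have hscale : ∀ v ∈ range W, ∑ j, μ.withDensity (lik e (a j)) (B j ∩ Ev v)
      ≤ (K' * W) * δ * μ univ := by
    intro v hv
    have hv' := Finset.mem_range.1 hv
    have h2v0 : (2 : ℝ≥0∞) ^ (4 * n * v) ≠ 0 := by simp
    have h2vt : (2 : ℝ≥0∞) ^ (4 * n * v) ≠ ∞ := by simp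
    have hG' : ∀ s ∈ Ev v, ∀ i, 2 ^ (4 * n * i) * μ (closedBall s (4 * rad (v + i)))
        ≤ (K' * W) * μ (closedBall s (rad v)) := by
      intro s hs i
      apply (ENNReal.mul_le_mul_iff_right h2v0 h2vt).1
      calc _ = 2 ^ (4 * n * (v + i)) * μ (closedBall s (4 * rad (v + i))) := by
            rw [mul_add, pow_add]; ring
        _ ≤ K' * Pot W (4 * n) μ s := hG s (v + i)
        _ ≤ K' * (W * (2 ^ (4 * n * v) * μ (closedBall s (rad v)))) := mul_le_mul_right hs _
        _ = _ := by ring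
    have hpos : ∀ s ∈ Ev v, μ (closedBall s (rad v)) ≠ 0 := by
      intro s hs hz
      have h1 : Pot W (4 * n) μ s ≤ W * (2 ^ (4 * n * v) * μ (closedBall s (rad v))) := hs
      rw [hz, mul_zero, mul_zero] at h1
      exact h0 (le_zero_iff.1 ((univ_le_pot hΩ hW _ μ s).trans h1))
    calc _ ≤ ∑ j, ∫⁻ z, (K' * W) * ∫⁻ s in B j, lik e (a j) s
              ∂((μ (closedBall z (2 * rad v)))⁻¹ • μ.restrict (closedBall z (rad v) ∩ Ev v)) ∂μ := by
          apply Finset.sum_le_sum
          intro j _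
          refine scale_bound μ (hEvm v) (hBm j) hpos ?_ (rad_pos v).le (hfm j)
          intro s hs
          simpa using hG' s hs 0
      _ ≤ ∫⁻ z, ∑ j, (K' * W) * ∫⁻ s in B j, lik e (a j) s
              ∂((μ (closedBall z (2 * rad v)))⁻¹ • μ.restrict (closedBall z (rad v) ∩ Ev v)) ∂μ :=
          sum_lintegral_le _ _ _
      _ ≤ ∫⁻ _z, (K' * W) * δ ∂μ := by
          apply lintegral_mono
          intro z
          simp only
          rw [← Finset.mul_sum]
          apply mul_le_mul_right
          refine centre_bound e he μ hn (hEvm v) hG' a ha ha1 hΘ0 hΘ ht0 ht hτ0 hτ B ?_ z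
          intro j s hs hsB
          have h1 : (τ * τ * 2 ^ (4 * n) * W) * Pot W (4 * n) (μ.withDensity (lik e (a j))) s
            < lik e (a j) s * Pot W (4 * n) μ s := hsB
          have h2 : Pot W (4 * n) μ s ≤ W * (2 ^ (4 * n * v) * μ (closedBall s (rad v))) := hs
          have h3 := pot_ge hΩ (β := 4 * n) hv' 1 (R := 2 * rad v) (by simp)
            (μ.withDensity (lik e (a j))) s
          by_contra hle
          apply not_le.2 h1
          calc lik e (a j) s * Pot W (4 * n) μ s
              ≤ lik e (a j) s * (W * (2 ^ (4 * n * v) * μ (closedBall s (rad v)))) := by gcongr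
            _ = W * 2 ^ (4 * n * v) * (lik e (a j) s * μ (closedBall s (rad v))) := by ring
            _ ≤ W * 2 ^ (4 * n * v)
                * (τ * τ * μ.withDensity (lik e (a j)) (closedBall s (2 * rad v))) := by
                exact mul_le_mul_right (not_lt.1 hle) _
            _ = τ * τ * W * (2 ^ (4 * n * v)
                * μ.withDensity (lik e (a j)) (closedBall s (2 * rad v))) := by ring
            _ ≤ τ * τ * W * (2 ^ (4 * n * 1)
                * Pot W (4 * n) (μ.withDensity (lik e (a j))) s) := by gcongr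
            _ = _ := by ring
      _ = _ := lintegral_const _
  calc ∑ j, μ.withDensity (lik e (a j)) (B j)
      ≤ ∑ j, ∑ v ∈ range W, μ.withDensity (lik e (a j)) (B j ∩ Ev v) := by
        apply Finset.sum_le_sum
        intro j _
        refine le_trans (measure_mono ?_) (measure_biUnion_finset_le _ _)
        intro s hs
        obtain ⟨v, hv, hsv⟩ := hcover s
        exact Set.mem_biUnion hv ⟨hs, hsv⟩
    _ = ∑ v ∈ range W, ∑ j, μ.withDensity (lik e (a j)) (B j ∩ Ev v) := Finset.sum_comm
    _ ≤ ∑ _v ∈ range W, (K' * W) * δ * μ univ := Finset.sum_le_sum hscale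
    _ = _ := by
        rw [Finset.sum_const, Finset.card_range, nsmul_eq_mul]; ring

end Vale.Agent.P309
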